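import Vale.Agent.P220.R2.H481.Defs
import Vale.Agent.P220.H64.LocInv

/-!
# Submanifolds of Euclidean spaces: charts and tangent vectors
-/

open Set Filter Topology
open scoped ContDiff RealInnerProductSpace

namespace Vale.Agent.P220.R2.H481

/-- `ℝⁿ` -/
abbrev Rn (n : ℕ) : Type := EuclideanSpace ℝ (Fin n)

variable {F G : Type} [NormedAddCommGroup F] [NormedSpace ℝ F]
  [NormedAddCommGroup G] [NormedSpace ℝ G] {n : ℕ} {K : Set F} {x : F}

/-- every germ of a smooth map extends to a smooth map -/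
theorem exists_germ_ext [FiniteDimensional ℝ F] {f : F → G} {U : Set F} (hU : U ∈ 𝓝 x)
    (hf : ContDiffOn ℝ ∞ f U) : ∃ f' : F → G, ContDiff ℝ ∞ f' ∧ f' =ᶠ[𝓝 x] f := by
  obtain ⟨R, hR, hRU⟩ := Metric.mem_nhds_iff.1 hU
  let χ : ContDiffBump x := ⟨R / 4, R / 2, by positivity, by linarith⟩
  refine ⟨fun y => χ y • f y, ?_, ?_⟩
  · rw [contDiff_iff_contDiffAt]
    intro y
    by_cases hy : y ∈ Metric.ball x R
    · have h1 : ContDiffAt ℝ ∞ f y :=
        (hf.mono hRU).contDiffAt (Metric.isOpen_ball.mem_nhds hy)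
      exact χ.contDiffAt.smul h1
    · have h2 : (fun y => χ y • f y) =ᶠ[𝓝 y] fun _ => 0 := by
        have h3 : y ∈ (Metric.closedBall x (R / 2))ᶜ := by
          rw [mem_compl_iff, Metric.mem_closedBall, not_le]
          rw [Metric.mem_ball, not_lt] at hy
          linarith
        filter_upwards [Metric.isClosed_closedBall.isOpen_compl.mem_nhds h3] with z hz
        have h4 : χ z = 0 := by
          refine χ.zero_of_le_dist ?_
          rw [mem_compl_iff, Metric.mem_closedBall, not_le] at hz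
          exact hz.le
        rw [h4, zero_smul]
      exact contDiffAt_const.congr_of_eventuallyEq h2
  · have h5 : Metric.closedBall x (R / 4) ∈ 𝓝 x := Metric.closedBall_mem_nhds _ (by positivity)
    filter_upwards [h5] with z hz
    rw [χ.one_of_mem_closedBall hz, one_smul]

/-- A chart of `K` at `x`, with globally defined smooth maps. -/
structure Chart (n : ℕ) (K : Set F) (x : F) (g : F → Rn n) (ψ : Rn n → F) : Prop where
  hg : ContDiff ℝ ∞ g
  hψ : ContDiff ℝ ∞ ψ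
  g0 : g x = 0
  ψ0 : ψ 0 = x
  left : ∀ᶠ w in 𝓝 (0 : Rn n), ψ w ∈ K ∧ g (ψ w) = w
  right : ∀ᶠ y in 𝓝 x, y ∈ K → ψ (g y) = y

theorem IsSubmanifold.chart [FiniteDimensional ℝ F] (h : IsSubmanifold n K) (hx : x ∈ K) :
    ∃ g ψ, Chart n K x g ψ := by
  obtain ⟨U, V, g, ψ, hU, hxU, hV, hg, hψ, h1, h2⟩ := h x hx
  have hgx : g x ∈ V := (h1 x ⟨hx, hxU⟩).1
  obtain ⟨g', hg', hgg⟩ := exists_germ_ext (hU.mem_nhds hxU) hg
  obtain ⟨ψ', hψ', hψψ⟩ := exists_germ_ext (hV.mem_nhds hgx) hψ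
  have hψx : ψ (g x) = x := (h1 x ⟨hx, hxU⟩).2
  have hψ'x : ψ' (g x) = x := by rw [hψψ.self_of_nhds, hψx]
  have ht : Tendsto (fun w : Rn n => w + g x) (𝓝 0) (𝓝 (g x)) := by
    have : Continuous fun w : Rn n => w + g x := by fun_prop
    have h3 := this.tendsto 0
    rwa [zero_add] at h3
  refine ⟨fun y => g' y - g x, fun w => ψ' (w + g x), hg'.sub contDiff_const,
    hψ'.comp (contDiff_id.add contDiff_const), ?_, ?_, ?_, ?_⟩
  · rw [hgg.self_of_nhds, sub_self]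
  · rw [zero_add, hψ'x]
  · have h3 : ∀ᶠ w in 𝓝 (g x), ψ' w ∈ K ∧ g' (ψ' w) = w := by
      have hc : Tendsto ψ' (𝓝 (g x)) (𝓝 x) := by
        have := hψ'.continuous.tendsto (g x)
        rwa [hψ'x] at this
      filter_upwards [hψψ, hV.mem_nhds hgx, hc.eventually hgg] with w hw hwV hw2
      rw [hw2, hw]
      exact ⟨(h2 w hwV).1.1, (h2 w hwV).2⟩
    filter_upwards [ht.eventually h3] with w hw
    exact ⟨hw.1, by rw [hw.2, add_sub_cancel_right]⟩
  · have hc : Tendsto g' (𝓝 x) (𝓝 (g x)) := by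
      have := hg'.continuous.tendsto x
      rwa [hgg.self_of_nhds] at this
    filter_upwards [hgg, hU.mem_nhds hxU, hc.eventually hψψ] with y hy hyU hy2 hyK
    rw [sub_add_cancel, hy2, hy]
    exact (h1 y ⟨hyK, hyU⟩).2

namespace Chart

variable {g : F → Rn n} {ψ : Rn n → F}

theorem shift (h : Chart n K x g ψ) : ∀ᶠ y in 𝓝 x, y ∈ K →
    Chart n K y (fun z => g z - g y) (fun w => ψ (w + g y)) := by
  have hgc : Tendsto g (𝓝 x) (𝓝 0) := by
    have := h.hg.continuous.tendsto x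
    rwa [h.g0] at this
  filter_upwards [hgc.eventually h.left.eventually_nhds, h.right.eventually_nhds] with y h1 h2 hyK
  have h3 := h2.self_of_nhds hyK
  refine ⟨h.hg.sub contDiff_const, h.hψ.comp (contDiff_id.add contDiff_const), sub_self _, ?_,
    ?_, ?_⟩
  · rw [zero_add, h3]
  · have ht : Tendsto (fun w : Rn n => w + g y) (𝓝 0) (𝓝 (g y)) := by
      have : Continuous fun w : Rn n => w + g y := by fun_prop
      have h3 := this.tendsto 0
      rwa [zero_add] at h3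
    filter_upwards [ht.eventually h1] with w hw
    exact ⟨hw.1, by rw [hw.2, add_sub_cancel_right]⟩
  · filter_upwards [h2] with z hz hzK
    rw [sub_add_cancel]
    exact hz hzK

theorem hasFDerivAt_ψ (h : Chart n K x g ψ) (w : Rn n) : HasFDerivAt ψ (fderiv ℝ ψ w) w :=
  (h.hψ.differentiable (by simp) w).hasFDerivAt

theorem hasFDerivAt_g (h : Chart n K x g ψ) (y : F) : HasFDerivAt g (fderiv ℝ g y) y :=
  (h.hg.differentiable (by simp) y).hasFDerivAt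

/-- `Dg Dψ = 1` -/
theorem g_ψ (h : Chart n K x g ψ) (w : Rn n) : fderiv ℝ g x (fderiv ℝ ψ 0 w) = w := by
  have h1 : HasFDerivAt (g ∘ ψ) ((fderiv ℝ g x).comp (fderiv ℝ ψ 0)) 0 := by
    have := h.hasFDerivAt_g x
    rw [← h.ψ0] at this
    have h2 := this.comp 0 (h.hasFDerivAt_ψ 0)
    rwa [h.ψ0] at h2
  have h2 : g ∘ ψ =ᶠ[𝓝 0] id := h.left.mono fun w hw => hw.2
  have h3 : HasFDerivAt (g ∘ ψ) (ContinuousLinearMap.id ℝ (Rn n)) 0 :=
    (hasFDerivAt_id 0).congr_of_eventuallyEq h2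
  exact congrArg (fun L : Rn n →L[ℝ] Rn n => L w) (h1.unique h3)

theorem inj_ψ (h : Chart n K x g ψ) : Function.Injective (fderiv ℝ ψ 0) := fun w w' hw => by
  rw [← h.g_ψ w, hw, h.g_ψ]

/-- `Dψ Dg v = v` for tangent vectors -/
theorem ψ_g (h : Chart n K x g ψ) {v : F} (hv : v ∈ tan K x) :
    fderiv ℝ ψ 0 (fderiv ℝ g x v) = v := by
  obtain ⟨γ, h1, h2, h3, h4⟩ := hv
  have e1 : (ψ ∘ g ∘ γ) =ᶠ[𝓝 0] γ := by
    have hc : Tendsto γ (𝓝 0) (𝓝 x) := by
      have := h1.continuous.tendsto 0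
      rwa [h3] at this
    filter_upwards [hc.eventually h.right] with t ht
    exact ht (h2 t)
  have e2 : HasDerivAt (ψ ∘ g ∘ γ) (fderiv ℝ ψ 0 (fderiv ℝ g x v)) 0 := by
    have a1 := h.hasFDerivAt_g x
    rw [← h3] at a1
    have a2 := a1.comp_hasDerivAt 0 h4
    have a3 := h.hasFDerivAt_ψ 0
    have a4 : (g ∘ γ) 0 = 0 := by rw [Function.comp_apply, h3, h.g0]
    rw [← a4] at a3
    have a5 := a3.comp_hasDerivAt 0 a2
    rw [a4, h3] at a5
    exact a5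
  exact (e2.congr_of_eventuallyEq e1.symm).unique h4

/-- curves in `K` with given velocity, in a given neighbourhood -/
theorem exists_curve (h : Chart n K x g ψ) (w : Rn n) {U : Set F} (hU : U ∈ 𝓝 x) :
    ∃ γ : ℝ → F, ContDiff ℝ ∞ γ ∧ (∀ t, γ t ∈ K ∩ U) ∧ γ 0 = x ∧
      HasDerivAt γ (fderiv ℝ ψ 0 w) 0 := by
  have hψc : Tendsto ψ (𝓝 0) (𝓝 x) := by
    have := h.hψ.continuous.tendsto 0
    rwa [h.ψ0] at this
  obtain ⟨ε, hε, hε'⟩ := Metric.eventually_nhds_iff.1 (h.left.and (hψc.eventually hU))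
  set δ : ℝ := ε / (2 * (‖w‖ + 1)) with hδ
  have hw1 : 0 < ‖w‖ + 1 := by positivity
  have hδ0 : 0 < δ := by positivity
  refine ⟨fun t => ψ ((δ * Real.sin (t / δ)) • w), ?_, fun t => ?_, ?_, ?_⟩
  · exact h.hψ.comp (((contDiff_const.mul (Real.contDiff_sin.comp
      (contDiff_id.div_const δ)))).smul contDiff_const)
  · have h1 : dist ((δ * Real.sin (t / δ)) • w) 0 < ε := by
      rw [dist_zero_right, norm_smul, norm_mul, Real.norm_eq_abs, Real.norm_eq_abs,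
        abs_of_pos hδ0]
      have h2 : |Real.sin (t / δ)| ≤ 1 := Real.abs_sin_le_one _
      calc δ * |Real.sin (t / δ)| * ‖w‖ ≤ δ * 1 * (‖w‖ + 1) := by gcongr; linarith
        _ = ε / 2 := by rw [hδ]; field_simp
        _ < ε := by linarith
    exact ⟨(hε' h1).1.1, (hε' h1).2⟩
  · simp [h.ψ0]
  · have h1 : HasDerivAt (fun t : ℝ => δ * Real.sin (t / δ)) 1 0 := by
      have h2 : HasDerivAt (fun t : ℝ => t / δ) (1 / δ) 0 := (hasDerivAt_id 0).div_const δ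
      have h3 := (h2.sin).const_mul δ
      have e : δ * (Real.cos (0 / δ) * (1 / δ)) = 1 := by
        rw [zero_div, Real.cos_zero]; field_simp
      rwa [e] at h3
    have h2 : HasDerivAt (fun t : ℝ => (δ * Real.sin (t / δ)) • w) ((1 : ℝ) • w) 0 :=
      h1.smul_const w
    have h3 := h.hasFDerivAt_ψ ((δ * Real.sin (0 / δ)) • w)
    have h4 := h3.comp_hasDerivAt 0 h2
    rw [one_smul] at h4
    have e : (δ * Real.sin (0 / δ)) • w = 0 := by simp
    rw [e] at h4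
    exact h4

theorem tan_eq (h : Chart n K x g ψ) : tan K x = range (fderiv ℝ ψ 0) := by
  ext v
  constructor
  · intro hv
    exact ⟨_, h.ψ_g hv⟩
  · rintro ⟨w, rfl⟩
    obtain ⟨γ, h1, h2, h3, h4⟩ := h.exists_curve w univ_mem
    exact ⟨γ, h1, fun t => (h2 t).1, h3, h4⟩

end Chart

theorem tan_add [FiniteDimensional ℝ F] (h : IsSubmanifold n K) (hx : x ∈ K) {v w : F}
    (hv : v ∈ tan K x) (hw : w ∈ tan K x) : v + w ∈ tan K x := by
  obtain ⟨g, ψ, hc⟩ := h.chart hx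
  rw [hc.tan_eq] at *
  obtain ⟨a, rfl⟩ := hv
  obtain ⟨b, rfl⟩ := hw
  exact ⟨a + b, map_add _ _ _⟩

theorem tan_smul [FiniteDimensional ℝ F] (h : IsSubmanifold n K) (hx : x ∈ K) {v : F}
    (c : ℝ) (hv : v ∈ tan K x) : c • v ∈ tan K x := by
  obtain ⟨g, ψ, hc⟩ := h.chart hx
  rw [hc.tan_eq] at *
  obtain ⟨a, rfl⟩ := hv
  exact ⟨c • a, map_smul _ _ _⟩

theorem tan_zero [FiniteDimensional ℝ F] (h : IsSubmanifold n K) (hx : x ∈ K) :
    (0 : F) ∈ tan K x := by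
  obtain ⟨g, ψ, hc⟩ := h.chart hx
  rw [hc.tan_eq] at *
  exact ⟨0, map_zero _⟩

/-- the tangent space as a subspace -/
noncomputable def tanS [FiniteDimensional ℝ F] (h : IsSubmanifold n K) (hx : x ∈ K) :
    Submodule ℝ F where
  carrier := tan K x
  add_mem' := tan_add h hx
  zero_mem' := tan_zero h hx
  smul_mem' := fun c _ hv => tan_smul h hx c hv

theorem mem_tanS [FiniteDimensional ℝ F] (h : IsSubmanifold n K) (hx : x ∈ K) {v : F} :
    v ∈ tanS h hx ↔ v ∈ tan K x := Iff.rfl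

theorem finrank_tanS [FiniteDimensional ℝ F] (h : IsSubmanifold n K) (hx : x ∈ K) :
    Module.finrank ℝ (tanS h hx) = n := by
  obtain ⟨g, ψ, hc⟩ := h.chart hx
  have e : tanS h hx = LinearMap.range (fderiv ℝ ψ 0 : Rn n →ₗ[ℝ] F) := by
    ext v
    rw [mem_tanS, hc.tan_eq]
    rfl
  rw [e, LinearMap.finrank_range_of_inj hc.inj_ψ, finrank_euclideanSpace, Fintype.card_fin]

/-- the derivative along `K` depends only on the restriction to `K` -/
theorem fderiv_congr_tan {f f' : F → G} (hf : DifferentiableAt ℝ f x)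
    (hf' : DifferentiableAt ℝ f' x) (h : ∀ᶠ y in 𝓝 x, y ∈ K → f y = f' y) {v : F}
    (hv : v ∈ tan K x) : fderiv ℝ f x v = fderiv ℝ f' x v := by
  obtain ⟨γ, h1, h2, h3, h4⟩ := hv
  have hc : Tendsto γ (𝓝 0) (𝓝 x) := by
    have := h1.continuous.tendsto 0
    rwa [h3] at this
  have e : (f ∘ γ) =ᶠ[𝓝 0] (f' ∘ γ) := (hc.eventually h).mono fun t ht => ht (h2 t)
  have a1 : HasDerivAt (f ∘ γ) (fderiv ℝ f x v) 0 := by
    have := hf.hasFDerivAt
    rw [← h3] at this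
    have := this.comp_hasDerivAt 0 h4
    rwa [h3] at this
  have a2 : HasDerivAt (f' ∘ γ) (fderiv ℝ f' x v) 0 := by
    have := hf'.hasFDerivAt
    rw [← h3] at this
    have := this.comp_hasDerivAt 0 h4
    rwa [h3] at this
  exact a1.unique (a2.congr_of_eventuallyEq e)

/-- images of tangent vectors are tangent -/
theorem map_tan {Φ : F → G} (hΦ : ContDiff ℝ ∞ Φ) {K' : Set G} (h : MapsTo Φ K K') {v : F}
    (hv : v ∈ tan K x) : fderiv ℝ Φ x v ∈ tan K' (Φ x) := by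
  obtain ⟨γ, h1, h2, h3, h4⟩ := hv
  refine ⟨Φ ∘ γ, hΦ.comp h1, fun t => h (h2 t), by rw [Function.comp_apply, h3], ?_⟩
  have := (hΦ.differentiable (by simp) x).hasFDerivAt
  rw [← h3] at this
  have := this.comp_hasDerivAt 0 h4
  rwa [h3] at this

theorem map_tan_of_eventually [FiniteDimensional ℝ F] (hK : IsSubmanifold n K) (hx : x ∈ K)
    {Φ : F → G} (hΦ : ContDiff ℝ ∞ Φ) {K' : Set G}
    (h : ∀ᶠ y in 𝓝 x, y ∈ K → Φ y ∈ K') {v : F}
    (hv : v ∈ tan K x) : fderiv ℝ Φ x v ∈ tan K' (Φ x) := by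
  obtain ⟨g, ψ, hc⟩ := hK.chart hx
  rw [hc.tan_eq] at hv
  obtain ⟨w, rfl⟩ := hv
  obtain ⟨γ, h1, h2, h3, h4⟩ := hc.exists_curve w h
  refine ⟨Φ ∘ γ, hΦ.comp h1, fun t => (h2 t).2 (h2 t).1, by rw [Function.comp_apply, h3], ?_⟩
  have := (hΦ.differentiable (by simp) x).hasFDerivAt
  rw [← h3] at this
  have := this.comp_hasDerivAt 0 h4
  rwa [h3] at this

/-- an immersion of a submanifold is locally bi-Lipschitz onto its image -/
theorem imm_lower [FiniteDimensional ℝ F] (hK : IsSubmanifold n K) (hx : x ∈ K)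
    {Φ : F → G} (hΦ : ContDiff ℝ ∞ Φ) (h : ∀ v ∈ tan K x, fderiv ℝ Φ x v = 0 → v = 0) :
    ∃ c > 0, ∃ U ∈ 𝓝 x, ∀ y ∈ K ∩ U, ∀ y' ∈ K ∩ U, c * ‖y - y'‖ ≤ ‖Φ y - Φ y'‖ := by
  obtain ⟨g, ψ, hc⟩ := hK.chart hx
  set A : Rn n →L[ℝ] G := (fderiv ℝ Φ x).comp (fderiv ℝ ψ 0) with hA
  have hAi : Function.Injective A := by
    rw [injective_iff_map_eq_zero]
    intro w hw
    have h1 : fderiv ℝ ψ 0 w = 0 := h _ (by rw [hc.tan_eq]; exact ⟨w, rfl⟩) hw
    exact hc.inj_ψ (by rw [h1, map_zero])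
  have hsd : HasStrictFDerivAt (Φ ∘ ψ) A 0 := by
    have h1 : HasStrictFDerivAt ψ (fderiv ℝ ψ 0) 0 :=
      hc.hψ.contDiffAt.hasStrictFDerivAt (by simp)
    have h2 : HasStrictFDerivAt Φ (fderiv ℝ Φ x) x := hΦ.contDiffAt.hasStrictFDerivAt (by simp)
    rw [← hc.ψ0] at h2
    have h3 := h2.comp 0 h1
    rwa [hc.ψ0] at h3
  obtain ⟨Kc, hKc, hanti⟩ := (A : Rn n →ₗ[ℝ] G).exists_antilipschitzWith
    (LinearMap.ker_eq_bot.2 hAi)
  have hKc' : (0 : ℝ) < Kc := by exact_mod_cast hKc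
  have hlow : ∀ w : Rn n, ‖w‖ ≤ Kc * ‖A w‖ := fun w => by
    have := hanti.le_mul_dist w 0
    simpa [dist_zero_right] using this
  -- upper bound for `ψ`
  obtain ⟨C, s, hs, hC⟩ := (hc.hψ.contDiffAt (x := (0 : Rn n))).of_le
    (show (1 : WithTop ℕ∞) ≤ ∞ by simp) |>.exists_lipschitzOnWith
  have hε : (0 : ℝ) < 1 / (2 * Kc) := by positivity
  have hst := hsd.isLittleO.def hε
  rw [nhds_prod_eq] at hst
  obtain ⟨t, ht, ht2⟩ := (eventually_prod_self_iff (r := fun a b : Rn n =>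
    ‖(Φ ∘ ψ) a - (Φ ∘ ψ) b - A (a - b)‖ ≤ 1 / (2 * Kc) * ‖a - b‖)).1 hst
  set c : ℝ := 1 / (2 * Kc * (C + 1)) with hcdef
  have hC0 : (0 : ℝ) ≤ C := C.2
  have hc0 : 0 < c := by positivity
  have hgc : Tendsto g (𝓝 x) (𝓝 0) := by
    have := hc.hg.continuous.tendsto x
    rwa [hc.g0] at this
  refine ⟨c, hc0, {y | (y ∈ K → ψ (g y) = y) ∧ g y ∈ s ∧ g y ∈ t}, ?_, ?_⟩
  · filter_upwards [hc.right, hgc.eventually hs, hgc.eventually ht] with y h1 h2 h3
    exact ⟨h1, h2, h3⟩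
  · rintro y ⟨hyK, hy1, hy2, hy3⟩ y' ⟨hyK', hy1', hy2', hy3'⟩
    have e1 : ψ (g y) = y := hy1 hyK
    have e2 : ψ (g y') = y' := hy1' hyK'
    have h4 := ht2 _ hy3 _ hy3'
    simp only [Function.comp_apply, e1, e2] at h4
    have h5 : ‖y - y'‖ ≤ C * ‖g y - g y'‖ := by
      have := hC.dist_le_mul _ hy2 _ hy2'
      rwa [e1, e2, dist_eq_norm, dist_eq_norm] at this
    have h6 := hlow (g y - g y')
    have h7 : ‖A (g y - g y')‖ ≤ ‖Φ y - Φ y'‖ + 1 / (2 * Kc) * ‖g y - g y'‖ := by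
      calc ‖A (g y - g y')‖ = ‖(Φ y - Φ y') - (Φ y - Φ y' - A (g y - g y'))‖ := by
            congr 1; abel
        _ ≤ ‖Φ y - Φ y'‖ + ‖Φ y - Φ y' - A (g y - g y')‖ := norm_sub_le _ _
        _ ≤ _ := by gcongr
    have h8 : ‖g y - g y'‖ ≤ 2 * Kc * ‖Φ y - Φ y'‖ := by
      have h9 : Kc * ‖A (g y - g y')‖ ≤ Kc * ‖Φ y - Φ y'‖ + ‖g y - g y'‖ / 2 := by
        calc Kc * ‖A (g y - g y')‖ ≤
              Kc * (‖Φ y - Φ y'‖ + 1 / (2 * Kc) * ‖g y - g y'‖) := by gcongr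
          _ = _ := by field_simp
      linarith
    have h10 : ‖y - y'‖ ≤ 2 * Kc * (C + 1) * ‖Φ y - Φ y'‖ := by
      calc ‖y - y'‖ ≤ C * ‖g y - g y'‖ := h5
        _ ≤ C * (2 * Kc * ‖Φ y - Φ y'‖) := by gcongr
        _ ≤ (C + 1) * (2 * Kc * ‖Φ y - Φ y'‖) := by gcongr; linarith
        _ = _ := by ring
    rw [hcdef, div_mul_eq_mul_div, one_mul, div_le_iff₀ (by positivity)]
    linarith

end Vale.Agent.P220.R2.H481
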