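import Vale.Agent.P220.R2.H481.Side2

/-!
# Arcs that cross a strip: the winding function
-/

open Filter Topology Set MeasureTheory intervalIntegral
open scoped ComplexConjugate Real

namespace Vale.Agent.P220.R2.H481

/-- a regular injective arc that crosses the strip `τ₁ ≤ re ≤ τ₂` from the left to the right -/
structure Arc (c c' : ℝ → ℂ) (a b τ₁ τ₂ : ℝ) : Prop where
  hab : a < b
  hτ : τ₁ < τ₂
  hc : ∀ t, HasDerivAt c (c' t) t
  hc' : Continuous c'
  ne : ∀ t, c' t ≠ 0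
  inj : InjOn c (Icc a b)
  s : (c a).re = τ₁
  e : (c b).re = τ₂
  m : ∀ t ∈ Ioo a b, (c t).re ∈ Ioo τ₁ τ₂

/-- the integral along the arc -/
noncomputable def arcJ (c c' : ℝ → ℂ) (a b : ℝ) (q : ℂ) : ℂ := ∫ t in a..b, c' t / (c t - q)

/-- the winding function of the arc -/
noncomputable def arcH (c c' : ℝ → ℂ) (a b : ℝ) (q : ℂ) : ℂ :=
  arcJ c c' a b q - Complex.log (c b - q) + Complex.log (q - c a)

/-- the open strip -/
def St (τ₁ τ₂ : ℝ) : Set ℂ := {q | q.re ∈ Ioo τ₁ τ₂}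

theorem isOpen_St (τ₁ τ₂ : ℝ) : IsOpen (St τ₁ τ₂) := isOpen_Ioo.preimage Complex.continuous_re

theorem log_div_of_re_pos {z w : ℂ} (hz : 0 < z.re) (hw : 0 < w.re) :
    Complex.log (z / w) = Complex.log z - Complex.log w := by
  have hz0 : z ≠ 0 := fun h => by rw [h] at hz; simp at hz
  have hw0 : w ≠ 0 := fun h => by rw [h] at hw; simp at hw
  have h1 := abs_lt.1 (Complex.abs_arg_lt_pi_div_two_iff.2 (Or.inl hz))
  have h2 := abs_lt.1 (Complex.abs_arg_lt_pi_div_two_iff.2 (Or.inl hw))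
  have hexp : Complex.exp (Complex.log z - Complex.log w) = z / w := by
    rw [Complex.exp_sub, Complex.exp_log hz0, Complex.exp_log hw0]
  rw [← hexp, Complex.log_exp]
  · rw [Complex.sub_im, Complex.log_im, Complex.log_im]
    linarith [h1.1, h2.2]
  · rw [Complex.sub_im, Complex.log_im, Complex.log_im]
    linarith [h1.2, h2.1]

/-- short arcs are nearly straight -/
theorem exists_short_arc {c c' : ℝ → ℂ} (hc : ∀ t, HasDerivAt c (c' t) t) (hc' : Continuous c')
    (ne : ∀ t, c' t ≠ 0) {a b : ℝ} (hab : a ≤ b) : ∃ δ > 0, ∀ t ∈ Icc a b, ∀ s, |s| ≤ δ →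
    ‖c (t + s) - c t - s * c' t‖ ≤ 1 / 2 * |s| * ‖c' t‖ := by
  obtain ⟨s₀, hs₀, hmin⟩ := isCompact_Icc.exists_isMinOn (s := Icc a b) ⟨a, le_rfl, hab⟩
    (f := fun t => ‖c' t‖) hc'.norm.continuousOn
  have hcpos : 0 < ‖c' s₀‖ := norm_pos_iff.2 (ne s₀)
  have huc : UniformContinuousOn c' (Icc (a - 1) (b + 1)) :=
    isCompact_Icc.uniformContinuousOn_of_continuous hc'.continuousOn
  obtain ⟨δ, hδ, hδ2⟩ := Metric.uniformContinuousOn_iff.1 huc (‖c' s₀‖ / 2) (by positivity)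
  refine ⟨min (δ / 2) 1, lt_min (by positivity) (by positivity), ?_⟩
  intro t ht s hs
  have hs1 : |s| ≤ δ / 2 := hs.trans (min_le_left _ _)
  have hs2 : |s| ≤ 1 := hs.trans (min_le_right _ _)
  have hd : ∀ r ∈ uIcc 0 s, HasDerivWithinAt (fun r : ℝ => c (t + r) - r * c' t)
      (c' (t + r) - c' t) (uIcc 0 s) r := by
    intro r _
    have h2 : HasDerivAt (fun r : ℝ => t + r) 1 r := (hasDerivAt_id r).const_add t
    have h3 := (hc (t + r)).scomp r h2
    have h4 : HasDerivAt (fun r : ℝ => (r : ℂ) * c' t) (c' t) r := by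
      have := (Complex.ofRealCLM.hasDerivAt (x := r)).mul_const (c' t)
      simpa using this
    have h5 := h3.sub h4
    simp only [one_smul] at h5
    exact h5.hasDerivWithinAt
  have hb : ∀ r ∈ uIcc 0 s, ‖c' (t + r) - c' t‖ ≤ ‖c' s₀‖ / 2 := by
    intro r hr
    have hr1 : |r| ≤ |s| := by
      have := abs_sub_left_of_mem_uIcc hr
      simpa using this
    have hrs := abs_le.1 (hr1.trans hs2)
    have h1 := hδ2 (t + r) ⟨by linarith [ht.1], by linarith [ht.2]⟩ t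
      ⟨by linarith [ht.1], by linarith [ht.2]⟩ (by
        rw [Real.dist_eq, add_sub_cancel_left]
        exact (hr1.trans hs1).trans_lt (by linarith))
    rw [dist_eq_norm] at h1
    exact h1.le
  have h6 := (convex_uIcc (0 : ℝ) s).norm_image_sub_le_of_norm_hasDerivWithin_le hd hb
    left_mem_uIcc right_mem_uIcc
  have h7 : c (t + s) - s * c' t - (c (t + 0) - ((0 : ℝ) : ℂ) * c' t) =
      c (t + s) - c t - s * c' t := by
    rw [add_zero]
    push_cast
    ring
  rw [h7, sub_zero, Real.norm_eq_abs] at h6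
  refine h6.trans ?_
  have h8 : ‖c' s₀‖ ≤ ‖c' t‖ := hmin ht
  have h9 := abs_nonneg s
  nlinarith

/-- the integral along a short arc -/
theorem arc_integral_at {c c' : ℝ → ℂ} (hc : ∀ t, HasDerivAt c (c' t) t) (hc' : Continuous c')
    {t₀ : ℝ} (hv : c' t₀ ≠ 0) {δ : ℝ} (hδ : 0 < δ) (hshort : ∀ s, |s| ≤ δ →
    ‖c (t₀ + s) - c t₀ - s * c' t₀‖ ≤ 1 / 2 * |s| * ‖c' t₀‖) {σ : ℝ} (hσ : σ = 1 ∨ σ = -1) {ε : ℝ}
    (hε : 0 < ε) : ∫ t in (t₀ - δ)..(t₀ + δ), c' t / (c t - nrm c c' (σ * ε) t₀) =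
      Complex.log (σ * Complex.I * ((c (t₀ + δ) - c t₀) / c' t₀) + ε) -
        Complex.log (σ * Complex.I * ((c (t₀ - δ) - c t₀) / c' t₀) + ε) := by
  have hcc : Continuous c := continuous_iff_continuousAt.2 fun t => (hc t).continuousAt
  have hσ2 : (σ : ℂ) * σ = 1 := by
    rcases hσ with h | h <;> simp [h]
  have hσ0 : (σ : ℂ) ≠ 0 := by
    rintro h0
    rw [h0] at hσ2
    simp at hσ2
  have hre : ∀ t, |t - t₀| ≤ δ → |((c t - c t₀) / c' t₀).re - (t - t₀)| ≤ 1 / 2 * |t - t₀| := by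
    intro t ht
    have h1 := hshort (t - t₀) ht
    rw [add_sub_cancel] at h1
    have h2 : (c t - c t₀) / c' t₀ - ((t - t₀ : ℝ) : ℂ) =
        (c t - c t₀ - ((t - t₀ : ℝ) : ℂ) * c' t₀) / c' t₀ := by
      field_simp
    have h3 : ‖(c t - c t₀) / c' t₀ - ((t - t₀ : ℝ) : ℂ)‖ ≤ 1 / 2 * |t - t₀| := by
      rw [h2, norm_div, div_le_iff₀ (norm_pos_iff.2 hv)]
      exact h1
    have h4 := Complex.abs_re_le_norm ((c t - c t₀) / c' t₀ - ((t - t₀ : ℝ) : ℂ))
    rw [Complex.sub_re, Complex.ofReal_re] at h4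
    exact h4.trans h3
  have hslit : ∀ t, |t - t₀| ≤ δ →
      σ * Complex.I * ((c t - c t₀) / c' t₀) + ε ∈ Complex.slitPlane := by
    intro t ht
    by_cases ht0 : t = t₀
    · rw [ht0, sub_self, zero_div, mul_zero, zero_add]
      exact Or.inl (by simpa using hε)
    · right
      have h1 := hre t ht
      have h2 : ((c t - c t₀) / c' t₀).re ≠ 0 := by
        intro h0
        rw [h0, zero_sub, abs_neg] at h1
        have := abs_pos.2 (sub_ne_zero.2 ht0)
        linarith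
      have h3 : ((σ : ℂ) * Complex.I * ((c t - c t₀) / c' t₀) + ε).im =
          σ * ((c t - c t₀) / c' t₀).re := by
        simp
      rw [h3]
      refine mul_ne_zero ?_ h2
      rcases hσ with h | h <;> simp [h]
  have hrel : ∀ t, c t - nrm c c' (σ * ε) t₀ =
      (σ * Complex.I * ((c t - c t₀) / c' t₀) + ε) * (-(σ * Complex.I) * c' t₀) := by
    intro t
    rw [nrm]
    push_cast
    have e1 : (c t - c t₀) / c' t₀ * c' t₀ = c t - c t₀ := by field_simp
    linear_combination (σ * σ * Complex.I * Complex.I) * e1 +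
      (c t - c t₀) * Complex.I * Complex.I * hσ2 + (c t - c t₀) * Complex.I_mul_I
  have hiv : ∀ t ∈ uIcc (t₀ - δ) (t₀ + δ), |t - t₀| ≤ δ := by
    intro t ht
    rw [uIcc_of_le (by linarith)] at ht
    rw [abs_le]
    constructor <;> linarith [ht.1, ht.2]
  have hne : ∀ t ∈ uIcc (t₀ - δ) (t₀ + δ), c t - nrm c c' (σ * ε) t₀ ≠ 0 := by
    intro t ht
    rw [hrel]
    refine mul_ne_zero (Complex.slitPlane_ne_zero (hslit t (hiv t ht))) ?_
    exact mul_ne_zero (neg_ne_zero.2 (mul_ne_zero hσ0 Complex.I_ne_zero)) hv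
  have hd : ∀ t ∈ uIcc (t₀ - δ) (t₀ + δ), HasDerivAt
      (fun t => Complex.log (σ * Complex.I * ((c t - c t₀) / c' t₀) + ε))
      (c' t / (c t - nrm c c' (σ * ε) t₀)) t := by
    intro t ht
    have h1 := (((((hc t).sub_const (c t₀)).div_const (c' t₀)).const_mul
      ((σ : ℂ) * Complex.I)).add_const (ε : ℂ)).clog_real (hslit t (hiv t ht))
    refine h1.congr_deriv ?_
    have h2 := hne t ht
    rw [hrel] at h2 ⊢
    have h3 := Complex.slitPlane_ne_zero (hslit t (hiv t ht))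
    rw [div_eq_div_iff h3 h2]
    have e1 : c' t / c' t₀ * c' t₀ = c' t := by field_simp
    linear_combination (-(σ * σ * Complex.I * Complex.I) *
      (σ * Complex.I * ((c t - c t₀) / c' t₀) + ε)) * e1 -
      c' t * (σ * Complex.I * ((c t - c t₀) / c' t₀) + ε) * Complex.I * Complex.I * hσ2 -
      c' t * (σ * Complex.I * ((c t - c t₀) / c' t₀) + ε) * Complex.I_mul_I
  have hint : ContinuousOn (fun t => c' t / (c t - nrm c c' (σ * ε) t₀))
      (uIcc (t₀ - δ) (t₀ + δ)) :=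
    hc'.continuousOn.div (hcc.continuousOn.sub continuousOn_const) hne
  rw [integral_eq_sub_of_hasDerivAt hd hint.intervalIntegrable]

/-- away from the base point of the normal, the integrals around the two sides are close -/
theorem out_tendsto {c c' : ℝ → ℂ} (hc : ∀ t, HasDerivAt c (c' t) t) (hc' : Continuous c')
    {t₀ : ℝ} {m : ℝ} (hm : 0 < m) {u v : ℝ} (huv : u ≤ v) (hfar : ∀ t ∈ Icc u v,
    m ≤ ‖c t - c t₀‖) :
    Tendsto (fun ε : ℝ => (∫ t in u..v, c' t / (c t - nrm c c' (1 * ε) t₀)) -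
      ∫ t in u..v, c' t / (c t - nrm c c' (-1 * ε) t₀)) (𝓝[>] 0) (𝓝 0) := by
  have hcc : Continuous c := continuous_iff_continuousAt.2 fun t => (hc t).continuousAt
  obtain ⟨M, hM⟩ := (isCompact_Icc (a := u) (b := v)).exists_bound_of_continuousOn
    hc'.continuousOn
  set K : ℝ := |M| + ‖c' t₀‖ + 1 with hK
  have hM0 : 0 < K := by positivity
  have hKt : ∀ t ∈ Icc u v, ‖c' t‖ ≤ K := fun t ht => by
    have := hM t ht
    have := le_abs_self M
    have := norm_nonneg (c' t₀)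
    linarith
  have hK0 : ‖c' t₀‖ ≤ K := by
    have := abs_nonneg M
    linarith
  have hbound : ∀ᶠ ε : ℝ in 𝓝[>] 0, ‖(∫ t in u..v, c' t / (c t - nrm c c' (1 * ε) t₀)) -
      ∫ t in u..v, c' t / (c t - nrm c c' (-1 * ε) t₀)‖ ≤
      (K * (2 * ε * K) / (m / 2 * (m / 2))) * |v - u| := by
    have h0 : ∀ᶠ ε : ℝ in 𝓝[>] 0, ε < m / (2 * K) :=
      (eventually_lt_nhds (by positivity)).filter_mono nhdsWithin_le_nhds
    filter_upwards [h0, self_mem_nhdsWithin] with ε hε hε0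
    have hε0' : (0 : ℝ) < ε := hε0
    have hεm : ε * K ≤ m / 2 := by
      rw [lt_div_iff₀ (by positivity)] at hε
      linarith
    have hd : ∀ σ : ℝ, (σ = 1 ∨ σ = -1) → ∀ t ∈ Icc u v,
        m / 2 ≤ ‖c t - nrm c c' (σ * ε) t₀‖ := by
      intro σ hσ t ht
      have hσ1 : |σ| = 1 := by rcases hσ with h | h <;> simp [h]
      have e1 : c t - nrm c c' (σ * ε) t₀ = (c t - c t₀) - (σ * ε : ℝ) * Complex.I * c' t₀ := by
        rw [nrm]; ring
      have e2 : ‖((σ * ε : ℝ) : ℂ) * Complex.I * c' t₀‖ ≤ m / 2 := by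
        rw [norm_mul, norm_mul, Complex.norm_I, mul_one, Complex.norm_real, Real.norm_eq_abs,
          abs_mul, hσ1, one_mul, abs_of_pos hε0']
        exact (mul_le_mul_of_nonneg_left hK0 hε0'.le).trans hεm
      have e3 := hfar t ht
      have e4 := norm_sub_norm_le (c t - c t₀) (((σ * ε : ℝ) : ℂ) * Complex.I * c' t₀)
      rw [e1]
      linarith
    have hci : ∀ σ : ℝ, (σ = 1 ∨ σ = -1) → IntervalIntegrable
        (fun t => c' t / (c t - nrm c c' (σ * ε) t₀)) volume u v := by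
      intro σ hσ
      refine ContinuousOn.intervalIntegrable ?_
      rw [uIcc_of_le huv]
      refine hc'.continuousOn.div (hcc.continuousOn.sub continuousOn_const)
        fun t ht h0 => ?_
      have := hd σ hσ t ht
      rw [h0, norm_zero] at this
      linarith
    rw [← integral_sub (hci 1 (Or.inl rfl)) (hci (-1) (Or.inr rfl))]
    refine norm_integral_le_of_norm_le_const fun t ht => ?_
    rw [uIoc_of_le huv] at ht
    have ht' : t ∈ Icc u v := ⟨ht.1.le, ht.2⟩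
    have h1 := hd 1 (Or.inl rfl) t ht'
    have h2 := hd (-1) (Or.inr rfl) t ht'
    have n1 : c t - nrm c c' (1 * ε) t₀ ≠ 0 := norm_pos_iff.1 (by linarith)
    have n2 : c t - nrm c c' (-1 * ε) t₀ ≠ 0 := norm_pos_iff.1 (by linarith)
    have e1 : c' t / (c t - nrm c c' (1 * ε) t₀) - c' t / (c t - nrm c c' (-1 * ε) t₀) =
        c' t * (2 * ε * Complex.I * c' t₀) /
          ((c t - nrm c c' (1 * ε) t₀) * (c t - nrm c c' (-1 * ε) t₀)) := by
      rw [div_sub_div _ _ n1 n2]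
      congr 1
      rw [nrm, nrm]
      push_cast
      ring
    rw [e1, norm_div, norm_mul (c' t), norm_mul (c t - nrm c c' (1 * ε) t₀)]
    have e2 : ‖2 * (ε : ℂ) * Complex.I * c' t₀‖ ≤ 2 * ε * K := by
      rw [norm_mul, norm_mul, norm_mul, Complex.norm_I, mul_one, Complex.norm_real,
        Real.norm_eq_abs, abs_of_pos hε0', Complex.norm_ofNat]
      exact mul_le_mul_of_nonneg_left hK0 (by positivity)
    have e3 : ‖c' t‖ * ‖2 * (ε : ℂ) * Complex.I * c' t₀‖ ≤ K * (2 * ε * K) :=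
      mul_le_mul (hKt t ht') e2 (norm_nonneg _) hM0.le
    have e4 : m / 2 * (m / 2) ≤ ‖c t - nrm c c' (1 * ε) t₀‖ * ‖c t - nrm c c' (-1 * ε) t₀‖ :=
      mul_le_mul h1 h2 (by positivity) (norm_nonneg _)
    exact div_le_div₀ (by positivity) e3 (by positivity) e4
  refine squeeze_zero_norm' hbound ?_
  have h1 : Tendsto (fun ε : ℝ => (K * (2 * ε * K) / (m / 2 * (m / 2))) * |v - u|) (𝓝 0)
      (𝓝 ((K * (2 * 0 * K) / (m / 2 * (m / 2))) * |v - u|)) :=
    (by fun_prop : Continuous fun ε : ℝ =>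
      (K * (2 * ε * K) / (m / 2 * (m / 2))) * |v - u|).tendsto 0
  have h2 : (K * (2 * 0 * K) / (m / 2 * (m / 2))) * |v - u| = 0 := by simp
  rw [h2] at h1
  exact h1.mono_left nhdsWithin_le_nhds

variable {c c' : ℝ → ℂ} {a b τ₁ τ₂ : ℝ}

namespace Arc

variable (h : Arc c c' a b τ₁ τ₂)

include h

theorem cont : Continuous c := continuous_iff_continuousAt.2 fun t => (h.hc t).continuousAt

theorem compact : IsCompact (c '' Icc a b) := isCompact_Icc.image h.cont

theorem H_ball {q₀ q : ℂ} {ρ : ℝ} (hq₀ : q₀ ∈ St τ₁ τ₂) (hq : q ∈ St τ₁ τ₂)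
    (hρ : ∀ t ∈ Icc a b, ρ < ‖c t - q₀‖) (hqρ : ‖q - q₀‖ ≤ ρ) :
    arcH c c' a b q = arcH c c' a b q₀ := by
  have hρ0 : 0 ≤ ρ := (norm_nonneg _).trans hqρ
  have huI : uIcc a b = Icc a b := uIcc_of_le h.hab.le
  have hne : ∀ t ∈ Icc a b, c t - q ≠ 0 := fun t ht h0 => by
    have h1 := hρ t ht
    rw [sub_eq_zero.1 h0] at h1
    linarith
  have hnc : ∀ t ∈ Icc a b, c t - q₀ ≠ 0 := fun t ht h0 => by
    have h1 := hρ t ht
    rw [h0, norm_zero] at h1
    linarith
  have hre : ∀ t ∈ Icc a b, 0 < ((c t - q) / (c t - q₀)).re := by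
    intro t ht
    have hxc := hnc t ht
    have h1 : (c t - q) / (c t - q₀) = 1 + (q₀ - q) / (c t - q₀) := by
      field_simp
      ring
    have h2 : ‖(q₀ - q) / (c t - q₀)‖ < 1 := by
      rw [norm_div, div_lt_one (norm_pos_iff.2 hxc), norm_sub_rev q₀ q]
      exact lt_of_le_of_lt hqρ (hρ t ht)
    rw [h1, Complex.add_re, Complex.one_re]
    have := neg_abs_le ((q₀ - q) / (c t - q₀)).re
    have := Complex.abs_re_le_norm ((q₀ - q) / (c t - q₀))
    linarith
  have hslit : ∀ t ∈ Icc a b, (c t - q) / (c t - q₀) ∈ Complex.slitPlane :=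
    fun t ht => Or.inl (hre t ht)
  have hd : ∀ t ∈ uIcc a b, HasDerivAt (fun t => Complex.log ((c t - q) / (c t - q₀)))
      (c' t / (c t - q) - c' t / (c t - q₀)) t := by
    intro t ht
    rw [huI] at ht
    have hc' := hnc t ht
    have hq' := hne t ht
    have h1 := (((h.hc t).sub_const q).fun_div ((h.hc t).sub_const q₀) hc').clog_real (hslit t ht)
    refine h1.congr_deriv ?_
    field_simp
  have i1 : IntervalIntegrable (fun t => c' t / (c t - q)) volume a b := by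
    refine ContinuousOn.intervalIntegrable ?_
    rw [huI]
    exact h.hc'.continuousOn.div (h.cont.continuousOn.sub continuousOn_const) hne
  have i2 : IntervalIntegrable (fun t => c' t / (c t - q₀)) volume a b := by
    refine ContinuousOn.intervalIntegrable ?_
    rw [huI]
    exact h.hc'.continuousOn.div (h.cont.continuousOn.sub continuousOn_const) hnc
  have key := integral_eq_sub_of_hasDerivAt hd (i1.sub i2)
  rw [integral_sub i1 i2] at key
  have hb1 : 0 < (c b - q).re := by rw [Complex.sub_re, h.e]; linarith [hq.2]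
  have hb2 : 0 < (c b - q₀).re := by rw [Complex.sub_re, h.e]; linarith [hq₀.2]
  have ha1 : 0 < (q - c a).re := by rw [Complex.sub_re, h.s]; linarith [hq.1]
  have ha2 : 0 < (q₀ - c a).re := by rw [Complex.sub_re, h.s]; linarith [hq₀.1]
  have e2 : (c a - q) / (c a - q₀) = (q - c a) / (q₀ - c a) := by
    rw [← neg_sub q, ← neg_sub q₀, neg_div_neg_eq]
  rw [log_div_of_re_pos hb1 hb2, e2, log_div_of_re_pos ha1 ha2] at key
  simp only [arcH, arcJ]
  linear_combination key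

theorem H_loc {q₀ : ℂ} (hq₀ : q₀ ∈ St τ₁ τ₂) (hK : q₀ ∉ c '' Icc a b) :
    ∀ᶠ q in 𝓝 q₀, q ∈ St τ₁ τ₂ ∧ q ∉ c '' Icc a b ∧ arcH c c' a b q = arcH c c' a b q₀ := by
  obtain ⟨d, hd, hball⟩ := Metric.isOpen_iff.1 h.compact.isClosed.isOpen_compl q₀ hK
  have hfar : ∀ t ∈ Icc a b, d / 2 < ‖c t - q₀‖ := by
    intro t ht
    by_contra hcon
    refine hball ?_ ⟨t, ht, rfl⟩
    rw [mem_ball_iff_norm]
    linarith
  filter_upwards [Metric.ball_mem_nhds q₀ (half_pos hd), (isOpen_St τ₁ τ₂).mem_nhds hq₀]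
    with q hq2 hqS
  rw [mem_ball_iff_norm] at hq2
  exact ⟨hqS, fun hqx => hball (mem_ball_iff_norm.2 (by linarith)) hqx,
    h.H_ball hq₀ hqS hfar hq2.le⟩

theorem H_conn {S : Set ℂ} (hS : IsPreconnected S) (hd : ∀ q ∈ S, q ∈ St τ₁ τ₂ ∧ q ∉ c '' Icc a b)
    {q q' : ℂ} (hq : q ∈ S) (hq' : q' ∈ S) : arcH c c' a b q = arcH c c' a b q' := by
  refine hS.induction₂ (fun x y => arcH c c' a b x = arcH c c' a b y) (fun x hx => ?_)
    (fun x y z _ _ _ hxy hyz => hxy.trans hyz) (fun x y _ _ hxy => hxy.symm) hq hq'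
  have := h.H_loc (hd x hx).1 (hd x hx).2
  exact (this.mono fun y hy => hy.2.2.symm).filter_mono nhdsWithin_le_nhds

theorem exists_far {δ : ℝ} (hδ : 0 < δ) : ∃ m > 0, ∀ t ∈ Icc a b, ∀ s ∈ Icc a b, δ ≤ |s - t| →
    m ≤ ‖c s - c t‖ := by
  set K : Set (ℝ × ℝ) := (Icc a b ×ˢ Icc a b) ∩ {p | δ ≤ |p.2 - p.1|} with hK
  have hKc : IsCompact K := (isCompact_Icc.prod isCompact_Icc).inter_right
    (isClosed_le continuous_const (by fun_prop))
  have hfc : Continuous fun p : ℝ × ℝ => ‖c p.2 - c p.1‖ :=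
    ((h.cont.comp continuous_snd).sub (h.cont.comp continuous_fst)).norm
  by_cases hKn : K.Nonempty
  · obtain ⟨p, hp, hmin⟩ := hKc.exists_isMinOn hKn hfc.continuousOn
    refine ⟨‖c p.2 - c p.1‖, ?_, fun t ht s hs hts => ?_⟩
    · rw [gt_iff_lt, norm_pos_iff, sub_ne_zero]
      intro heq
      have h1 := h.inj hp.1.2 hp.1.1 heq
      have h2 : δ ≤ |p.2 - p.1| := hp.2
      rw [h1, sub_self, abs_zero] at h2
      linarith
    · exact hmin (⟨⟨ht, hs⟩, hts⟩ : (t, s) ∈ K)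
  · refine ⟨1, one_pos, fun t ht s hs hts => ?_⟩
    exact absurd ⟨(t, s), ⟨ht, hs⟩, hts⟩ hKn

theorem tube : ∃ ε₀ > 0, ∀ ε : ℝ, ε ≠ 0 → |ε| ≤ ε₀ → ∀ t ∈ Icc a b,
    nrm c c' ε t ∉ c '' Icc a b := by
  obtain ⟨δ, hδ, hshort⟩ := exists_short_arc h.hc h.hc' h.ne h.hab.le
  obtain ⟨m, hm, hfar⟩ := h.exists_far hδ
  obtain ⟨M, hM⟩ := isCompact_Icc.exists_bound_of_continuousOn (s := Icc a b) h.hc'.continuousOn
  have hM' : ∀ t ∈ Icc a b, ‖c' t‖ ≤ |M| + 1 := fun t ht => by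
    linarith [hM t ht, le_abs_self M]
  have hM0 : 0 < |M| + 1 := by positivity
  refine ⟨m / (2 * (|M| + 1)), by positivity, fun ε hε0 hε t ht hmem => ?_⟩
  obtain ⟨s, hs, hst⟩ := hmem
  have heq : c s - c t = ε * Complex.I * c' t := by rw [hst, nrm]; ring
  have hn : ‖c s - c t‖ = |ε| * ‖c' t‖ := by
    rw [heq, norm_mul, norm_mul, Complex.norm_I, mul_one, Complex.norm_real, Real.norm_eq_abs]
  by_cases hrδ : |s - t| ≤ δ
  · have h1 := hshort t ht (s - t) hrδ
    rw [add_sub_cancel, heq] at h1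
    have h2 : ε * Complex.I * c' t - ((s - t : ℝ) : ℂ) * c' t =
        (ε * Complex.I - ((s - t : ℝ) : ℂ)) * c' t := by ring
    rw [h2, norm_mul] at h1
    have h3 : 0 < ‖c' t‖ := norm_pos_iff.2 (h.ne t)
    have h4 : ‖(ε : ℂ) * Complex.I - ((s - t : ℝ) : ℂ)‖ ≤ 1 / 2 * |s - t| :=
      le_of_mul_le_mul_right h1 h3
    have h5 := Complex.abs_re_le_norm ((ε : ℂ) * Complex.I - ((s - t : ℝ) : ℂ))
    have h6 := Complex.abs_im_le_norm ((ε : ℂ) * Complex.I - ((s - t : ℝ) : ℂ))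
    rw [Complex.sub_re, Complex.ofReal_re] at h5
    rw [Complex.sub_im, Complex.ofReal_im] at h6
    simp only [Complex.mul_re, Complex.mul_im, Complex.I_re, Complex.I_im, Complex.ofReal_re,
      Complex.ofReal_im, mul_zero, mul_one, sub_zero, zero_sub, abs_neg, add_zero] at h5 h6
    have h7 : 0 < |ε| := abs_pos.2 hε0
    have h8 := abs_nonneg (s - t)
    linarith
  · have h1 := hfar t ht s hs (not_le.1 hrδ).le
    rw [hn] at h1
    have h2 := hM' t ht
    have h3 : |ε| * ‖c' t‖ ≤ m / (2 * (|M| + 1)) * (|M| + 1) :=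
      mul_le_mul hε h2 (norm_nonneg _) (by positivity)
    have h4 : m / (2 * (|M| + 1)) * (|M| + 1) = m / 2 := by field_simp
    linarith

end Arc

end Vale.Agent.P220.R2.H481
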