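import Vale.Agent.P220.R2.H481.Arc1

/-!
# Arcs that cross a strip: the winding function is `±iπ`
-/

open Filter Topology Set MeasureTheory intervalIntegral
open scoped ComplexConjugate Real

namespace Vale.Agent.P220.R2.H481

variable {c c' : ℝ → ℂ} {a b τ₁ τ₂ : ℝ}

namespace Arc

variable (h : Arc c c' a b τ₁ τ₂)

include h

theorem continuous_nrm : Continuous fun p : ℝ × ℝ => nrm c c' p.1 p.2 := by
  unfold nrm
  have h1 := h.cont
  have h2 := h.hc'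
  fun_prop

/-- on a compact interval of parameters, short normals stay in the strip and off the arc -/
theorem tube_strip {u v : ℝ} (hu : a < u) (hv : v < b) :
    ∃ μ₀ > 0, ∀ μ : ℝ, μ ≠ 0 → |μ| ≤ μ₀ → ∀ t ∈ Icc u v,
      nrm c c' μ t ∈ St τ₁ τ₂ ∧ nrm c c' μ t ∉ c '' Icc a b := by
  obtain ⟨ε₀, hε₀, htube⟩ := h.tube
  rcases lt_or_ge v u with huv | huv
  · exact ⟨1, one_pos, fun μ _ _ t ht => absurd (ht.1.trans ht.2) (not_le.2 huv)⟩
  obtain ⟨M, hM⟩ := isCompact_Icc.exists_bound_of_continuousOn (s := Icc u v) h.hc'.continuousOn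
  have hcre : ContinuousOn (fun t => (c t).re) (Icc u v) :=
    (Complex.continuous_re.comp h.cont).continuousOn
  obtain ⟨t₁, ht₁, hmin⟩ := isCompact_Icc.exists_isMinOn ⟨u, le_rfl, huv⟩ hcre
  obtain ⟨t₂, ht₂, hmax⟩ := isCompact_Icc.exists_isMaxOn ⟨u, le_rfl, huv⟩ hcre
  have h1 := (h.m t₁ ⟨hu.trans_le ht₁.1, ht₁.2.trans_lt hv⟩).1
  have h2 := (h.m t₂ ⟨hu.trans_le ht₂.1, ht₂.2.trans_lt hv⟩).2
  set d := min ((c t₁).re - τ₁) (τ₂ - (c t₂).re) with hd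
  have hd0 : 0 < d := lt_min (by linarith) (by linarith)
  refine ⟨min ε₀ (d / (2 * (|M| + 1))), lt_min hε₀ (by positivity), fun μ hμ hμ2 t ht =>
    ⟨?_, htube μ hμ (hμ2.trans (min_le_left _ _)) t ⟨hu.le.trans ht.1, ht.2.trans hv.le⟩⟩⟩
  have h3 : |μ| * (|M| + 1) ≤ d / 2 := by
    have h4 := hμ2.trans (min_le_right _ _)
    have h5 : d / (2 * (|M| + 1)) * (|M| + 1) = d / 2 := by field_simp
    rw [← h5]
    exact mul_le_mul_of_nonneg_right h4 (by positivity)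
  have h4 : |(nrm c c' μ t).re - (c t).re| ≤ d / 2 := by
    have e1 : nrm c c' μ t - c t = μ * Complex.I * c' t := by rw [nrm]; ring
    have e2 := Complex.abs_re_le_norm (nrm c c' μ t - c t)
    rw [Complex.sub_re] at e2
    refine e2.trans ?_
    rw [e1, norm_mul, norm_mul, Complex.norm_I, mul_one, Complex.norm_real, Real.norm_eq_abs]
    have := hM t ht
    have := le_abs_self M
    exact (mul_le_mul_of_nonneg_left (by linarith) (abs_nonneg μ)).trans h3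
  have h5 := abs_le.1 h4
  have h6 : (c t₁).re ≤ (c t).re := hmin ht
  have h7 : (c t).re ≤ (c t₂).re := hmax ht
  have h8 : d ≤ (c t₁).re - τ₁ := min_le_left _ _
  have h9 : d ≤ τ₂ - (c t₂).re := min_le_right _ _
  exact ⟨by linarith [h5.1], by linarith [h5.2]⟩

theorem side_const {σ : ℝ} (hσ : σ = 1 ∨ σ = -1) {u v μ₀ : ℝ}
    (htube : ∀ μ : ℝ, μ ≠ 0 → |μ| ≤ μ₀ → ∀ t ∈ Icc u v,
      nrm c c' μ t ∈ St τ₁ τ₂ ∧ nrm c c' μ t ∉ c '' Icc a b) {μ μ' t t' : ℝ}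
    (hμ : μ ∈ Ioc 0 μ₀) (hμ' : μ' ∈ Ioc 0 μ₀) (ht : t ∈ Icc u v) (ht' : t' ∈ Icc u v) :
    arcH c c' a b (nrm c c' (σ * μ) t) = arcH c c' a b (nrm c c' (σ * μ') t') := by
  have hσ1 : |σ| = 1 := by rcases hσ with h | h <;> simp [h]
  have hpre : IsPreconnected ((fun p : ℝ × ℝ => nrm c c' (σ * p.1) p.2) ''
      (Ioc 0 μ₀ ×ˢ Icc u v)) := by
    refine IsPreconnected.image ?_ _ ?_
    · exact ((convex_Ioc (0 : ℝ) μ₀).prod (convex_Icc u v)).isPreconnected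
    · have h1 := h.continuous_nrm
      exact (h1.comp (by fun_prop : Continuous fun p : ℝ × ℝ => (σ * p.1, p.2))).continuousOn
  refine h.H_conn hpre ?_ ⟨(μ, t), ⟨hμ, ht⟩, rfl⟩ ⟨(μ', t'), ⟨hμ', ht'⟩, rfl⟩
  rintro _ ⟨⟨ν, s⟩, ⟨hν, hs⟩, rfl⟩
  refine htube _ ?_ ?_ s hs
  · intro h0
    have : |σ * ν| = ν := by rw [abs_mul, hσ1, one_mul, abs_of_pos hν.1]
    simp only at h0
    rw [h0, abs_zero] at this
    linarith [hν.1]
  · simp only [abs_mul, hσ1, one_mul, abs_of_pos hν.1]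
    exact hν.2

/-- the value of the winding function on one side of the arc -/
theorem exists_side {σ : ℝ} (hσ : σ = 1 ∨ σ = -1) : ∃ ν : ℂ, ∀ t ∈ Ioo a b,
    ∃ μ₁ > 0, ∀ μ ∈ Ioc 0 μ₁, nrm c c' (σ * μ) t ∈ St τ₁ τ₂ ∧ nrm c c' (σ * μ) t ∉ c '' Icc a b ∧
      arcH c c' a b (nrm c c' (σ * μ) t) = ν := by
  have hab := h.hab
  set t₀ := (a + b) / 2 with ht₀
  have ht₀m : t₀ ∈ Ioo a b := ⟨by linarith, by linarith⟩
  obtain ⟨μ₀, hμ₀, htube₀⟩ := h.tube_strip (u := t₀) (v := t₀) ht₀m.1 ht₀m.2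
  refine ⟨arcH c c' a b (nrm c c' (σ * μ₀) t₀), fun t ht => ?_⟩
  obtain ⟨μ₁, hμ₁, htube₁⟩ := h.tube_strip (u := min t₀ t) (v := max t₀ t)
    (lt_min ht₀m.1 ht.1) (max_lt ht₀m.2 ht.2)
  have hσ1 : |σ| = 1 := by rcases hσ with h | h <;> simp [h]
  have hσ0 : σ ≠ 0 := by rcases hσ with h | h <;> simp [h]
  have hm1 : t ∈ Icc (min t₀ t) (max t₀ t) := ⟨min_le_right _ _, le_max_right _ _⟩
  have hm0 : t₀ ∈ Icc (min t₀ t) (max t₀ t) := ⟨min_le_left _ _, le_max_left _ _⟩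
  refine ⟨μ₁, hμ₁, fun μ hμ => ?_⟩
  have h1 := htube₁ (σ * μ) (mul_ne_zero hσ0 hμ.1.ne')
    (by rw [abs_mul, hσ1, one_mul, abs_of_pos hμ.1]; exact hμ.2) t hm1
  refine ⟨h1.1, h1.2, ?_⟩
  set μ₂ := min μ₀ μ₁ with hμ₂
  have hμ₂0 : 0 < μ₂ := lt_min hμ₀ hμ₁
  rw [h.side_const hσ htube₁ hμ (μ' := μ₂) (t' := t₀) ⟨hμ₂0, min_le_right _ _⟩ hm1 hm0]
  exact h.side_const hσ htube₀ ⟨hμ₂0, min_le_left _ _⟩ ⟨hμ₀, le_rfl⟩ ⟨le_rfl, le_rfl⟩ ⟨le_rfl, le_rfl⟩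

/-- the jump of the winding function across the arc -/
theorem jump {ν₁ ν₂ : ℂ} {t₀ : ℝ} (ht₀ : t₀ ∈ Ioo a b)
    (h₁ : ∃ μ₁ > 0, ∀ μ ∈ Ioc 0 μ₁, nrm c c' (1 * μ) t₀ ∈ St τ₁ τ₂ ∧
      nrm c c' (1 * μ) t₀ ∉ c '' Icc a b ∧ arcH c c' a b (nrm c c' (1 * μ) t₀) = ν₁)
    (h₂ : ∃ μ₁ > 0, ∀ μ ∈ Ioc 0 μ₁, nrm c c' (-1 * μ) t₀ ∈ St τ₁ τ₂ ∧
      nrm c c' (-1 * μ) t₀ ∉ c '' Icc a b ∧ arcH c c' a b (nrm c c' (-1 * μ) t₀) = ν₂) :
    ν₁ - ν₂ = 2 * π * Complex.I := by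
  obtain ⟨δ₀, hδ₀, hshort₀⟩ := exists_short_arc h.hc h.hc' h.ne h.hab.le
  set δ := min δ₀ (min (t₀ - a) (b - t₀)) with hδdef
  have hδ : 0 < δ := lt_min hδ₀ (lt_min (by linarith [ht₀.1]) (by linarith [ht₀.2]))
  have hδa : a ≤ t₀ - δ := by
    have : δ ≤ t₀ - a := (min_le_right _ _).trans (min_le_left _ _)
    linarith
  have hδb : t₀ + δ ≤ b := by
    have : δ ≤ b - t₀ := (min_le_right _ _).trans (min_le_right _ _)
    linarith
  have htI : t₀ ∈ Icc a b := ⟨ht₀.1.le, ht₀.2.le⟩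
  have hshort : ∀ s, |s| ≤ δ → ‖c (t₀ + s) - c t₀ - s * c' t₀‖ ≤ 1 / 2 * |s| * ‖c' t₀‖ :=
    fun s hs => hshort₀ t₀ htI s (hs.trans (min_le_left _ _))
  obtain ⟨m, hm, hfar⟩ := h.exists_far hδ
  have hv : c' t₀ ≠ 0 := h.ne t₀
  set A : ℂ := (c (t₀ + δ) - c t₀) / c' t₀ with hA
  set B : ℂ := (c (t₀ - δ) - c t₀) / c' t₀ with hB
  have hre : ∀ s, |s| ≤ δ → |((c (t₀ + s) - c t₀) / c' t₀).re - s| ≤ 1 / 2 * |s| := by
    intro s hs
    have h1 := hshort s hs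
    have h2 : (c (t₀ + s) - c t₀) / c' t₀ - s = (c (t₀ + s) - c t₀ - s * c' t₀) / c' t₀ := by
      field_simp
    have h3 : ‖(c (t₀ + s) - c t₀) / c' t₀ - s‖ ≤ 1 / 2 * |s| := by
      rw [h2, norm_div, div_le_iff₀ (norm_pos_iff.2 hv)]
      exact h1
    have h4 := Complex.abs_re_le_norm ((c (t₀ + s) - c t₀) / c' t₀ - s)
    rw [Complex.sub_re, Complex.ofReal_re] at h4
    exact h4.trans h3
  have hAre : 0 < A.re := by
    have := hre δ (by rw [abs_of_pos hδ])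
    rw [abs_of_pos hδ] at this
    have := (abs_le.1 this).1
    simp only [hA]
    linarith
  have hBre : B.re < 0 := by
    have := hre (-δ) (by rw [abs_neg, abs_of_pos hδ])
    rw [abs_neg, abs_of_pos hδ] at this
    have := (abs_le.1 this).2
    simp only [hB, sub_eq_add_neg t₀ δ]
    linarith
  have hfarL : ∀ t ∈ Icc a (t₀ - δ), m ≤ ‖c t - c t₀‖ := fun t ht =>
    hfar t₀ htI t ⟨ht.1, by linarith [ht.2]⟩ (by
      rw [abs_of_nonpos (by linarith [ht.2])]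
      linarith [ht.2])
  have hfarR : ∀ t ∈ Icc (t₀ + δ) b, m ≤ ‖c t - c t₀‖ := fun t ht =>
    hfar t₀ htI t ⟨by linarith [ht.1], ht.2⟩ (by
      rw [abs_of_nonneg (by linarith [ht.1])]
      linarith [ht.1])
  obtain ⟨μ₁, hμ₁, h₁⟩ := h₁
  obtain ⟨μ₂, hμ₂, h₂⟩ := h₂
  -- decomposition
  have hdec : ∀ σ : ℝ, (σ = 1 ∨ σ = -1) → ∀ ε : ℝ, 0 < ε →
      nrm c c' (σ * ε) t₀ ∉ c '' Icc a b →
      arcH c c' a b (nrm c c' (σ * ε) t₀) =
      ((∫ t in a..(t₀ - δ), c' t / (c t - nrm c c' (σ * ε) t₀)) +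
        (Complex.log (σ * Complex.I * A + ε) - Complex.log (σ * Complex.I * B + ε)) +
        ∫ t in (t₀ + δ)..b, c' t / (c t - nrm c c' (σ * ε) t₀)) -
        Complex.log (c b - nrm c c' (σ * ε) t₀) + Complex.log (nrm c c' (σ * ε) t₀ - c a) := by
    intro σ hσ ε hε hnr
    have hcont : ContinuousOn (fun t => c' t / (c t - nrm c c' (σ * ε) t₀)) (Icc a b) :=
      h.hc'.continuousOn.div (h.cont.continuousOn.sub continuousOn_const)
        fun t ht h0 => hnr ⟨t, ht, sub_eq_zero.1 h0⟩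
    have hii : ∀ u v, u ∈ Icc a b → v ∈ Icc a b → IntervalIntegrable
        (fun t => c' t / (c t - nrm c c' (σ * ε) t₀)) volume u v := fun u v hu hv =>
      (hcont.mono (ordConnected_Icc.uIcc_subset hu hv)).intervalIntegrable
    have m1 : a ∈ Icc a b := ⟨le_rfl, h.hab.le⟩
    have m2 : t₀ - δ ∈ Icc a b := ⟨hδa, by linarith⟩
    have m3 : t₀ + δ ∈ Icc a b := ⟨by linarith, hδb⟩
    have m4 : b ∈ Icc a b := ⟨h.hab.le, le_rfl⟩
    rw [← arc_integral_at h.hc h.hc' hv hδ hshort hσ hε]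
    rw [integral_add_adjacent_intervals (hii _ _ m1 m2) (hii _ _ m2 m3),
      integral_add_adjacent_intervals (hii _ _ m1 m3) (hii _ _ m3 m4)]
    rfl
  have hlog : ∀ z : ℂ, z.im ≠ 0 → Tendsto (fun ε : ℝ => Complex.log (z + ε)) (𝓝[>] 0)
      (𝓝 (Complex.log z)) := by
    intro z hz
    have h1 : ContinuousAt (fun ε : ℝ => Complex.log (z + ε)) 0 := by
      refine ContinuousAt.clog (by fun_prop) ?_
      right
      simpa using hz
    have h2 := h1.tendsto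
    simp only [Complex.ofReal_zero, add_zero] at h2
    exact h2.mono_left nhdsWithin_le_nhds
  have hnrm : ∀ σ : ℝ, ContinuousAt (fun ε : ℝ => nrm c c' (σ * ε) t₀) 0 := by
    intro σ
    unfold nrm
    fun_prop
  have hnrm0 : ∀ σ : ℝ, nrm c c' (σ * 0) t₀ = c t₀ := by
    intro σ
    simp [nrm]
  have hstrip := h.m t₀ ht₀
  have hlogb : ∀ σ : ℝ, Tendsto (fun ε : ℝ => Complex.log (c b - nrm c c' (σ * ε) t₀)) (𝓝[>] 0)
      (𝓝 (Complex.log (c b - c t₀))) := by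
    intro σ
    have h1 : ContinuousAt (fun ε : ℝ => Complex.log (c b - nrm c c' (σ * ε) t₀)) 0 := by
      refine ContinuousAt.clog (continuousAt_const.sub (hnrm σ)) ?_
      left
      rw [hnrm0, Complex.sub_re, h.e]
      linarith [hstrip.2]
    have h2 := h1.tendsto
    simp only [hnrm0] at h2
    exact h2.mono_left nhdsWithin_le_nhds
  have hloga : ∀ σ : ℝ, Tendsto (fun ε : ℝ => Complex.log (nrm c c' (σ * ε) t₀ - c a)) (𝓝[>] 0)
      (𝓝 (Complex.log (c t₀ - c a))) := by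
    intro σ
    have h1 : ContinuousAt (fun ε : ℝ => Complex.log (nrm c c' (σ * ε) t₀ - c a)) 0 := by
      refine ContinuousAt.clog ((hnrm σ).sub continuousAt_const) ?_
      left
      rw [hnrm0, Complex.sub_re, h.s]
      linarith [hstrip.1]
    have h2 := h1.tendsto
    simp only [hnrm0] at h2
    exact h2.mono_left nhdsWithin_le_nhds
  have hA1 : ((1 : ℝ) * Complex.I * A).im ≠ 0 := by simp [hAre.ne']
  have hA2 : ((-1 : ℝ) * Complex.I * A).im ≠ 0 := by simp [hAre.ne']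
  have hB1 : ((1 : ℝ) * Complex.I * B).im ≠ 0 := by simp [hBre.ne]
  have hB2 : ((-1 : ℝ) * Complex.I * B).im ≠ 0 := by simp [hBre.ne]
  have hout1 := out_tendsto h.hc h.hc' hm hδa hfarL
  have hout2 := out_tendsto h.hc h.hc' hm hδb hfarR
  have hlim := ((((((hlog _ hA1).sub (hlog _ hB1)).sub ((hlog _ hA2).sub (hlog _ hB2))).add
    hout1).add hout2).sub ((hlogb 1).sub (hlogb (-1)))).add ((hloga 1).sub (hloga (-1)))
  have hconst : (fun ε : ℝ => ((((((Complex.log ((1 : ℝ) * Complex.I * A + ε) -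
      Complex.log ((1 : ℝ) * Complex.I * B + ε)) - (Complex.log ((-1 : ℝ) * Complex.I * A + ε) -
      Complex.log ((-1 : ℝ) * Complex.I * B + ε))) +
      ((∫ t in a..(t₀ - δ), c' t / (c t - nrm c c' (1 * ε) t₀)) -
      ∫ t in a..(t₀ - δ), c' t / (c t - nrm c c' (-1 * ε) t₀))) +
      ((∫ t in (t₀ + δ)..b, c' t / (c t - nrm c c' (1 * ε) t₀)) -
      ∫ t in (t₀ + δ)..b, c' t / (c t - nrm c c' (-1 * ε) t₀))) -
      (Complex.log (c b - nrm c c' (1 * ε) t₀) - Complex.log (c b - nrm c c' (-1 * ε) t₀))) +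
      (Complex.log (nrm c c' (1 * ε) t₀ - c a) - Complex.log (nrm c c' (-1 * ε) t₀ - c a))))
      =ᶠ[𝓝[>] 0] fun _ => ν₁ - ν₂ := by
    filter_upwards [Ioc_mem_nhdsGT hμ₁, Ioc_mem_nhdsGT hμ₂] with ε hε1 hε2
    obtain ⟨-, a2, a3⟩ := h₁ ε hε1
    obtain ⟨-, b2, b3⟩ := h₂ ε hε2
    rw [← a3, ← b3, hdec 1 (Or.inl rfl) ε hε1.1 a2, hdec (-1) (Or.inr rfl) ε hε1.1 b2]
    ring
  have huniq := tendsto_nhds_unique (hlim.congr' hconst) tendsto_const_nhds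
  rw [← huniq]
  have e1 : ((-1 : ℝ) : ℂ) * Complex.I * A = -(((1 : ℝ) : ℂ) * Complex.I * A) := by
    push_cast; ring
  have e2 : ((-1 : ℝ) : ℂ) * Complex.I * B = -(((1 : ℝ) : ℂ) * Complex.I * B) := by
    push_cast; ring
  rw [e1, e2]
  have h1 := SCC.log_sub_of_pos (z := ((1 : ℝ) : ℂ) * Complex.I * A) (by simpa using hAre)
  have h2 := SCC.log_sub_of_neg (z := ((1 : ℝ) : ℂ) * Complex.I * B) (by simpa using hBre)
  linear_combination h1 - h2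

end Arc

end Vale.Agent.P220.R2.H481
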