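import Vale.Agent.P220.R2.H481.Arc2

/-!
# Arcs that cross a strip: the values of the winding function
-/

open Filter Topology Set MeasureTheory intervalIntegral
open scoped ComplexConjugate Real

namespace Vale.Agent.P220.R2.H481

variable {c c' : ℝ → ℂ} {a b τ₁ τ₂ : ℝ}

theorem log_I_mul {w : ℂ} (hw : 0 < w.re) : Complex.log (Complex.I * w) =
    Complex.log w + π / 2 * Complex.I := by
  have hw0 : w ≠ 0 := fun h => by rw [h] at hw; simp at hw
  have h1 := abs_lt.1 (Complex.abs_arg_lt_pi_div_two_iff.2 (Or.inl hw))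
  have hexp : Complex.exp (Complex.log w + π / 2 * Complex.I) = Complex.I * w := by
    rw [Complex.exp_add, Complex.exp_log hw0, Complex.exp_pi_div_two_mul_I, mul_comm]
  have him : (Complex.log w + π / 2 * Complex.I).im = w.arg + π / 2 := by
    simp [Complex.log_im]
  rw [← hexp, Complex.log_exp]
  · rw [him]; linarith [h1.1, Real.pi_pos]
  · rw [him]; linarith [h1.2]

theorem log_neg_I_mul {w : ℂ} (hw : 0 < w.re) : Complex.log (-Complex.I * w) =
    Complex.log w - π / 2 * Complex.I := by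
  have hw0 : w ≠ 0 := fun h => by rw [h] at hw; simp at hw
  have h1 := abs_lt.1 (Complex.abs_arg_lt_pi_div_two_iff.2 (Or.inl hw))
  have hexp : Complex.exp (Complex.log w - π / 2 * Complex.I) = -Complex.I * w := by
    rw [Complex.exp_sub, Complex.exp_log hw0, Complex.exp_pi_div_two_mul_I, div_eq_mul_inv,
      Complex.inv_I, mul_comm]
  have him : (Complex.log w - π / 2 * Complex.I).im = w.arg - π / 2 := by
    simp [Complex.log_im]
  rw [← hexp, Complex.log_exp]
  · rw [him]; linarith [h1.1]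
  · rw [him]; linarith [h1.2, Real.pi_pos]

theorem first_hit {K : Set ℂ} (hK : IsClosed K) {q : ℂ} (hq : q ∉ K) {y : ℝ} (hy : 0 ≤ y)
    (hyK : q + y * Complex.I ∈ K) : ∃ z : ℝ, 0 < z ∧ q + z * Complex.I ∈ K ∧
      ∀ s ∈ Ico (0 : ℝ) z, q + s * Complex.I ∉ K := by
  set S : Set ℝ := {s | 0 ≤ s ∧ q + s * Complex.I ∈ K} with hS
  have hcont : Continuous fun s : ℝ => q + s * Complex.I := by fun_prop
  have hScl : IsClosed S := isClosed_Ici.inter (hK.preimage hcont)
  have hSne : S.Nonempty := ⟨y, hy, hyK⟩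
  have hSbb : BddBelow S := ⟨0, fun s hs => hs.1⟩
  have hmem := hScl.csInf_mem hSne hSbb
  refine ⟨sInf S, ?_, hmem.2, fun s hs hsK => ?_⟩
  · rcases hmem.1.eq_or_lt with h0 | h0
    · exfalso
      have := hmem.2
      rw [← h0] at this
      simp at this
      exact hq this
    · exact h0
  · exact absurd (csInf_le hSbb ⟨hs.1, hsK⟩) (not_le.2 hs.2)

/-- the side values -/
def IsSide (c c' : ℝ → ℂ) (a b τ₁ τ₂ σ : ℝ) (ν : ℂ) : Prop := ∀ t ∈ Ioo a b,
    ∃ μ₁ > 0, ∀ μ ∈ Ioc 0 μ₁, nrm c c' (σ * μ) t ∈ St τ₁ τ₂ ∧ nrm c c' (σ * μ) t ∉ c '' Icc a b ∧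
      arcH c c' a b (nrm c c' (σ * μ) t) = ν

namespace Arc

variable (h : Arc c c' a b τ₁ τ₂)

include h

/-- near an interior point the winding function takes the two side values -/
theorem local_values {ν₁ ν₂ : ℂ} (h₁ : IsSide c c' a b τ₁ τ₂ 1 ν₁)
    (h₂ : IsSide c c' a b τ₁ τ₂ (-1) ν₂) {t₀ : ℝ} (ht₀ : t₀ ∈ Ioo a b) :
    ∃ r > 0, ∀ q, ‖q - c t₀‖ < r → q ∉ c '' Icc a b →
      q ∈ St τ₁ τ₂ ∧ (arcH c c' a b q = ν₁ ∨ arcH c c' a b q = ν₂) := by
  set δ := min (t₀ - a) (b - t₀) / 2 with hδdef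
  have hmin : 0 < min (t₀ - a) (b - t₀) := lt_min (by linarith [ht₀.1]) (by linarith [ht₀.2])
  have hδ : 0 < δ := half_pos hmin
  have htI : t₀ ∈ Icc a b := ⟨ht₀.1.le, ht₀.2.le⟩
  obtain ⟨m, hm, hfar⟩ := h.exists_far hδ
  obtain ⟨d, hd, hball⟩ := Metric.isOpen_iff.1 (isOpen_St τ₁ τ₂) (c t₀) (h.m t₀ ht₀)
  refine ⟨min (m / 2) (d / 2), lt_min (by positivity) (by positivity), fun q hq hqK => ?_⟩
  have hq1 : ‖q - c t₀‖ < m / 2 := hq.trans_le (min_le_left _ _)
  have hq2 : ‖q - c t₀‖ < d / 2 := hq.trans_le (min_le_right _ _)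
  have hqS : q ∈ St τ₁ τ₂ := hball (mem_ball_iff_norm.2 (by linarith))
  refine ⟨hqS, ?_⟩
  obtain ⟨_, ⟨t, ht, rfl⟩, hmn⟩ := h.compact.exists_isMinOn ⟨c t₀, t₀, htI, rfl⟩
    (f := fun y => ‖y - q‖) (by fun_prop)
  have hmin' : ∀ s ∈ Icc a b, ‖c t - q‖ ≤ ‖c s - q‖ := fun s hs => hmn ⟨s, hs, rfl⟩
  have htq : ‖c t - q‖ ≤ ‖q - c t₀‖ := by
    rw [norm_sub_rev q]
    exact hmin' t₀ htI
  have htt : |t - t₀| < δ := by
    by_contra hcon
    have h1 := hfar t₀ htI t ht (not_lt.1 hcon)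
    have h2 : ‖c t - c t₀‖ ≤ ‖c t - q‖ + ‖q - c t₀‖ := norm_sub_le_norm_sub_add_norm_sub _ _ _
    linarith
  have htt' := abs_lt.1 htt
  have hδ1 : δ ≤ (t₀ - a) / 2 := by
    rw [hδdef]
    have := min_le_left (t₀ - a) (b - t₀)
    linarith
  have hδ2 : δ ≤ (b - t₀) / 2 := by
    rw [hδdef]
    have := min_le_right (t₀ - a) (b - t₀)
    linarith
  have hto : t ∈ Ioo a b := ⟨by linarith [htt'.1, ht₀.1], by linarith [htt'.2, ht₀.2]⟩
  -- orthogonality
  have h1 : HasDerivAt (fun s => ‖c s - q‖ ^ 2) (2 * inner ℝ (c t - q) (c' t)) t :=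
    ((h.hc t).sub_const q).norm_sq
  have h2 : IsLocalMin (fun s => ‖c s - q‖ ^ 2) t := by
    filter_upwards [Icc_mem_nhds hto.1 hto.2] with s hs
    have := hmin' s hs
    gcongr
  have h3 := h2.hasDerivAt_eq_zero h1
  have h4 : (inner ℝ (c t - q) (c' t) : ℝ) = 0 := by linarith
  have hv : c' t ≠ 0 := h.ne t
  set l : ℝ := ((q - c t) / (Complex.I * c' t)).re with hl
  have h5 : ((q - c t) / (Complex.I * c' t)).im = 0 := by
    have e1 : (q - c t) / (Complex.I * c' t) = Complex.I * ((c t - q) / c' t) := by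
      field_simp
      rw [Complex.I_sq]
      ring
    have e2 : ((c t - q) / c' t).re = 0 := by
      have e3 : (inner ℝ (c t - q) (c' t) : ℝ) = ((c t - q) * conj (c' t)).re := by
        rw [real_inner_comm, Complex.inner]
      rw [e3] at h4
      have e4 : (c t - q) / c' t = ((c t - q) * conj (c' t)) / ((Complex.normSq (c' t) : ℝ) : ℂ) := by
        rw [← Complex.mul_conj]
        have : conj (c' t) ≠ 0 := (map_ne_zero _).2 hv
        field_simp
      rw [e4, Complex.div_ofReal_re, h4, zero_div]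
    rw [e1]
    simp [e2]
  have h6 : q = c t + l * Complex.I * c' t := by
    have e1 : (q - c t) / (Complex.I * c' t) = l := by
      apply Complex.ext
      · simp [hl]
      · rw [h5]; simp
    have e2 : q - c t = l * (Complex.I * c' t) := by
      rw [← e1]
      field_simp
    linear_combination e2
  have hl0 : l ≠ 0 := by
    intro h0
    rw [h0] at h6
    refine hqK ⟨t, ht, ?_⟩
    rw [h6]
    simp
  have hlpos : 0 < |l| := abs_pos.2 hl0
  have key : ∀ (σ : ℝ) (ν : ℂ), (σ = 1 ∨ σ = -1) → l = σ * |l| → IsSide c c' a b τ₁ τ₂ σ ν →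
      arcH c c' a b q = ν := by
    intro σ ν hσ hσl hside
    obtain ⟨μ₁, hμ₁, hμ⟩ := hside t hto
    have hσ1 : |σ| = 1 := by rcases hσ with h | h <;> simp [h]
    set μ : ℝ := min |l| μ₁ with hμdef
    have hμpos : 0 < μ := lt_min hlpos hμ₁
    obtain ⟨-, -, hval⟩ := hμ μ ⟨hμpos, min_le_right _ _⟩
    have hpre : IsPreconnected ((fun s : ℝ => nrm c c' (σ * s) t) '' Icc μ |l|) := by
      refine IsPreconnected.image isPreconnected_Icc _ ?_
      have h1 := h.continuous_nrm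
      exact (h1.comp (by fun_prop : Continuous fun s : ℝ => (σ * s, t))).continuousOn
    have hq' : q = nrm c c' (σ * |l|) t := by
      rw [nrm, ← hσl]
      exact h6
    rw [← hval]
    have hcon : ∀ x ∈ (fun s : ℝ => nrm c c' (σ * s) t) '' Icc μ |l|,
        x ∈ St τ₁ τ₂ ∧ x ∉ c '' Icc a b := by
      rintro _ ⟨s, ⟨hs1, hs2⟩, rfl⟩
      have hs0 : 0 < s := hμpos.trans_le hs1
      have e3 : nrm c c' (σ * s) t - q = (σ * (s - |l|) : ℝ) * Complex.I * c' t := by
        rw [hq', nrm, nrm]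
        push_cast
        ring
      have e4 : ‖nrm c c' (σ * s) t - q‖ = (|l| - s) * ‖c' t‖ := by
        rw [e3, norm_mul, norm_mul, Complex.norm_I, mul_one, Complex.norm_real, Real.norm_eq_abs,
          abs_mul, hσ1, one_mul, abs_of_nonpos (by linarith), neg_sub]
      have e5 : c t - q = -((σ * |l| : ℝ) * Complex.I * c' t) := by
        rw [hq', nrm]
        push_cast
        ring
      have e6 : ‖c t - q‖ = |l| * ‖c' t‖ := by
        rw [e5, norm_neg, norm_mul, norm_mul, Complex.norm_I, mul_one, Complex.norm_real,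
          Real.norm_eq_abs, abs_mul, hσ1, one_mul, abs_abs]
      have hvn : 0 < ‖c' t‖ := norm_pos_iff.2 hv
      have e7 : ‖nrm c c' (σ * s) t - q‖ < ‖c t - q‖ := by
        rw [e4, e6]
        exact mul_lt_mul_of_pos_right (by linarith) hvn
      constructor
      · refine hball (mem_ball_iff_norm.2 ?_)
        have : ‖nrm c c' (σ * s) t - c t₀‖ ≤ ‖nrm c c' (σ * s) t - q‖ + ‖q - c t₀‖ :=
          norm_sub_le_norm_sub_add_norm_sub _ _ _
        linarith
      · rintro ⟨r, hr, hrs⟩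
        have := hmin' r hr
        rw [hrs] at this
        exact absurd this (not_le.2 e7)
    refine h.H_conn hpre hcon ?_ ⟨μ, ⟨le_rfl, min_le_left _ _⟩, rfl⟩
    exact ⟨|l|, ⟨min_le_left _ _, le_rfl⟩, hq'.symm⟩
  rcases lt_or_gt_of_ne hl0 with hlt | hgt
  · exact Or.inr (key (-1) ν₂ (Or.inr rfl) (by rw [abs_of_neg hlt]; ring) h₂)
  · exact Or.inl (key 1 ν₁ (Or.inl rfl) (by rw [abs_of_pos hgt]; ring) h₁)

theorem above_far {q : ℂ} (hq : q ∈ St τ₁ τ₂) (hab : ∀ t ∈ Icc a b, (c t).im < q.im) :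
    arcH c c' a b q = π * Complex.I := by
  have huI : uIcc a b = Icc a b := uIcc_of_le h.hab.le
  have hne : ∀ t ∈ Icc a b, c t - q ≠ 0 := fun t ht h0 => by
    have h1 := hab t ht
    rw [sub_eq_zero.1 h0] at h1
    exact lt_irrefl _ h1
  have hd : ∀ t ∈ uIcc a b, HasDerivAt (fun t => Complex.log (Complex.I * (c t - q)))
      (c' t / (c t - q)) t := by
    intro t ht
    rw [huI] at ht
    have h1 := (((h.hc t).sub_const q).const_mul Complex.I).clog_real
      (Or.inl (by simpa using hab t ht))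
    refine h1.congr_deriv ?_
    have := hne t ht
    have := Complex.I_ne_zero
    field_simp
  have hi : IntervalIntegrable (fun t => c' t / (c t - q)) volume a b := by
    refine ContinuousOn.intervalIntegrable ?_
    rw [huI]
    exact h.hc'.continuousOn.div (h.cont.continuousOn.sub continuousOn_const) hne
  have h1 := integral_eq_sub_of_hasDerivAt hd hi
  have hb1 : 0 < (c b - q).re := by rw [Complex.sub_re, h.e]; linarith [hq.2]
  have ha1 : 0 < (q - c a).re := by rw [Complex.sub_re, h.s]; linarith [hq.1]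
  rw [arcH, arcJ, h1, log_I_mul hb1, show Complex.I * (c a - q) = -Complex.I * (q - c a) by ring,
    log_neg_I_mul ha1]
  ring

theorem below_far {q : ℂ} (hq : q ∈ St τ₁ τ₂) (hab : ∀ t ∈ Icc a b, q.im < (c t).im) :
    arcH c c' a b q = -(π * Complex.I) := by
  have huI : uIcc a b = Icc a b := uIcc_of_le h.hab.le
  have hne : ∀ t ∈ Icc a b, c t - q ≠ 0 := fun t ht h0 => by
    have h1 := hab t ht
    rw [sub_eq_zero.1 h0] at h1
    exact lt_irrefl _ h1
  have hd : ∀ t ∈ uIcc a b, HasDerivAt (fun t => Complex.log (-Complex.I * (c t - q)))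
      (c' t / (c t - q)) t := by
    intro t ht
    rw [huI] at ht
    have h1 := (((h.hc t).sub_const q).const_mul (-Complex.I)).clog_real
      (Or.inl (by simpa using hab t ht))
    refine h1.congr_deriv ?_
    have := hne t ht
    have := Complex.I_ne_zero
    field_simp
  have hi : IntervalIntegrable (fun t => c' t / (c t - q)) volume a b := by
    refine ContinuousOn.intervalIntegrable ?_
    rw [huI]
    exact h.hc'.continuousOn.div (h.cont.continuousOn.sub continuousOn_const) hne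
  have h1 := integral_eq_sub_of_hasDerivAt hd hi
  have hb1 : 0 < (c b - q).re := by rw [Complex.sub_re, h.e]; linarith [hq.2]
  have ha1 : 0 < (q - c a).re := by rw [Complex.sub_re, h.s]; linarith [hq.1]
  rw [arcH, arcJ, h1, log_neg_I_mul hb1, show -Complex.I * (c a - q) = Complex.I * (q - c a) by ring,
    log_I_mul ha1]
  ring

theorem exists_bound : ∃ M > 0, ∀ t ∈ Icc a b, ‖c t‖ < M := by
  obtain ⟨M, hM⟩ := isCompact_Icc.exists_bound_of_continuousOn (s := Icc a b) h.cont.continuousOn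
  refine ⟨|M| + 1, by positivity, fun t ht => ?_⟩
  linarith [hM t ht, le_abs_self M]

theorem above_line {q : ℂ} (hq : q ∈ St τ₁ τ₂)
    (hl : ∀ y : ℝ, 0 ≤ y → q + y * Complex.I ∉ c '' Icc a b) :
    arcH c c' a b q = π * Complex.I := by
  obtain ⟨M, hM0, hM⟩ := h.exists_bound
  set Y : ℝ := |q.im| + M with hY
  have hY0 : 0 ≤ Y := by positivity
  have hpre : IsPreconnected ((fun y : ℝ => q + y * Complex.I) '' Icc 0 Y) :=
    isPreconnected_Icc.image _ (by fun_prop : Continuous fun y : ℝ => q + y * Complex.I).continuousOn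
  have hre : ∀ y : ℝ, (q + y * Complex.I).re = q.re := fun y => by simp
  have hst : ∀ y : ℝ, q + y * Complex.I ∈ St τ₁ τ₂ := fun y => by
    show (q + y * Complex.I).re ∈ Ioo τ₁ τ₂
    rw [hre]
    exact hq
  rw [h.H_conn hpre (by
    rintro _ ⟨y, hy, rfl⟩
    exact ⟨hst y, hl y hy.1⟩) (q := q) (q' := q + Y * Complex.I)
    ⟨0, ⟨le_rfl, hY0⟩, by simp⟩ ⟨Y, ⟨hY0, le_rfl⟩, rfl⟩]
  refine h.above_far (hst Y) fun t ht => ?_
  have h1 := hM t ht
  have h2 := Complex.abs_im_le_norm (c t)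
  have h3 : (q + Y * Complex.I).im = q.im + Y := by simp
  rw [h3]
  have := neg_abs_le q.im
  have := le_abs_self (c t).im
  linarith

theorem below_line {q : ℂ} (hq : q ∈ St τ₁ τ₂)
    (hl : ∀ y : ℝ, y ≤ 0 → q + y * Complex.I ∉ c '' Icc a b) :
    arcH c c' a b q = -(π * Complex.I) := by
  obtain ⟨M, hM0, hM⟩ := h.exists_bound
  set Y : ℝ := |q.im| + M with hY
  have hY0 : 0 ≤ Y := by positivity
  have hpre : IsPreconnected ((fun y : ℝ => q + y * Complex.I) '' Icc (-Y) 0) :=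
    isPreconnected_Icc.image _ (by fun_prop : Continuous fun y : ℝ => q + y * Complex.I).continuousOn
  have hre : ∀ y : ℝ, (q + y * Complex.I).re = q.re := fun y => by simp
  have hst : ∀ y : ℝ, q + y * Complex.I ∈ St τ₁ τ₂ := fun y => by
    show (q + y * Complex.I).re ∈ Ioo τ₁ τ₂
    rw [hre]
    exact hq
  rw [h.H_conn hpre (by
    rintro _ ⟨y, hy, rfl⟩
    exact ⟨hst y, hl y hy.2⟩) (q := q) (q' := q + ((-Y : ℝ) : ℂ) * Complex.I)
    ⟨0, ⟨by linarith, le_rfl⟩, by simp⟩ ⟨-Y, ⟨le_rfl, by linarith⟩, rfl⟩]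
  refine h.below_far (hst (-Y)) fun t ht => ?_
  have h1 := hM t ht
  have h2 := Complex.abs_im_le_norm (c t)
  have h3 : (q + ((-Y : ℝ) : ℂ) * Complex.I).im = q.im - Y := by simp; ring
  rw [h3]
  have := le_abs_self q.im
  have := neg_abs_le (c t).im
  linarith

/-- the crossings of a vertical line -/
theorem exists_cross {x : ℝ} (hx : x ∈ Ioo τ₁ τ₂) : ∃ t ∈ Ioo a b, (c t).re = x ∧
    ∀ s ∈ Icc a b, (c s).re = x → (c s).im ≤ (c t).im := by
  have hcre : ContinuousOn (fun t => (c t).re) (Icc a b) :=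
    (Complex.continuous_re.comp h.cont).continuousOn
  obtain ⟨t₁, ht₁, ht₁x⟩ := intermediate_value_Icc h.hab.le hcre
    (show x ∈ Icc (c a).re (c b).re by rw [h.s, h.e]; exact ⟨hx.1.le, hx.2.le⟩)
  have hZ : IsCompact (Icc a b ∩ {t | (c t).re = x}) :=
    isCompact_Icc.inter_right (isClosed_eq (Complex.continuous_re.comp h.cont) continuous_const)
  obtain ⟨t, ⟨ht, htx⟩, hmax⟩ := hZ.exists_isMaxOn ⟨t₁, ht₁, ht₁x⟩
    (Complex.continuous_im.comp h.cont).continuousOn
  have htx' : (c t).re = x := htx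
  refine ⟨t, ⟨lt_of_le_of_ne ht.1 ?_, lt_of_le_of_ne ht.2 ?_⟩, htx, fun s hs hsx => hmax ⟨hs, hsx⟩⟩
  · intro h0
    rw [← h0, h.s] at htx'
    linarith [hx.1]
  · intro h0
    rw [h0, h.e] at htx'
    linarith [hx.2]

theorem exists_cross' {x : ℝ} (hx : x ∈ Ioo τ₁ τ₂) : ∃ t ∈ Ioo a b, (c t).re = x ∧
    ∀ s ∈ Icc a b, (c s).re = x → (c t).im ≤ (c s).im := by
  have hcre : ContinuousOn (fun t => (c t).re) (Icc a b) :=
    (Complex.continuous_re.comp h.cont).continuousOn
  obtain ⟨t₁, ht₁, ht₁x⟩ := intermediate_value_Icc h.hab.le hcre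
    (show x ∈ Icc (c a).re (c b).re by rw [h.s, h.e]; exact ⟨hx.1.le, hx.2.le⟩)
  have hZ : IsCompact (Icc a b ∩ {t | (c t).re = x}) :=
    isCompact_Icc.inter_right (isClosed_eq (Complex.continuous_re.comp h.cont) continuous_const)
  obtain ⟨t, ⟨ht, htx⟩, hmin⟩ := hZ.exists_isMinOn ⟨t₁, ht₁, ht₁x⟩
    (Complex.continuous_im.comp h.cont).continuousOn
  have htx' : (c t).re = x := htx
  refine ⟨t, ⟨lt_of_le_of_ne ht.1 ?_, lt_of_le_of_ne ht.2 ?_⟩, htx, fun s hs hsx => hmin ⟨hs, hsx⟩⟩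
  · intro h0
    rw [← h0, h.s] at htx'
    linarith [hx.1]
  · intro h0
    rw [h0, h.e] at htx'
    linarith [hx.2]

/-- the side values are `iπ` on the left and `-iπ` on the right -/
theorem sides_eq : IsSide c c' a b τ₁ τ₂ 1 (π * Complex.I) ∧
    IsSide c c' a b τ₁ τ₂ (-1) (-(π * Complex.I)) := by
  obtain ⟨ν₁, h₁⟩ := h.exists_side (σ := 1) (Or.inl rfl)
  obtain ⟨ν₂, h₂⟩ := h.exists_side (σ := -1) (Or.inr rfl)
  have hab := h.hab
  have hτ := h.hτ
  have hj := h.jump (t₀ := (a + b) / 2) ⟨by linarith, by linarith⟩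
    (h₁ _ ⟨by linarith, by linarith⟩) (h₂ _ ⟨by linarith, by linarith⟩)
  have hx : (τ₁ + τ₂) / 2 ∈ Ioo τ₁ τ₂ := ⟨by linarith, by linarith⟩
  -- above
  obtain ⟨t, ht, htx, hmax⟩ := h.exists_cross hx
  obtain ⟨r, hr, hloc⟩ := h.local_values h₁ h₂ ht
  have hoff : ∀ y : ℝ, 0 < y → c t + y * Complex.I ∉ c '' Icc a b := by
    rintro y hy ⟨s, hs, hst⟩
    have e1 : (c s).re = (τ₁ + τ₂) / 2 := by rw [hst]; simpa using htx
    have e2 := hmax s hs e1
    rw [hst] at e2
    simp at e2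
    linarith
  have hv1 := hloc (c t + ((r / 2 : ℝ) : ℂ) * Complex.I) (by
    rw [add_sub_cancel_left, norm_mul, Complex.norm_I, mul_one, Complex.norm_real,
      Real.norm_eq_abs, abs_of_pos (by positivity)]
    linarith) (hoff _ (by positivity))
  have ha1 := h.above_line hv1.1 (fun y hy => by
    have := hoff (r / 2 + y) (by positivity)
    rwa [Complex.ofReal_add, add_mul, ← add_assoc] at this)
  rw [ha1] at hv1
  -- below
  obtain ⟨t', ht', htx', hmin⟩ := h.exists_cross' hx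
  obtain ⟨r', hr', hloc'⟩ := h.local_values h₁ h₂ ht'
  have hoff' : ∀ y : ℝ, y < 0 → c t' + y * Complex.I ∉ c '' Icc a b := by
    rintro y hy ⟨s, hs, hst⟩
    have e1 : (c s).re = (τ₁ + τ₂) / 2 := by rw [hst]; simpa using htx'
    have e2 := hmin s hs e1
    rw [hst] at e2
    simp at e2
    linarith
  have hv2 := hloc' (c t' + ((-(r' / 2) : ℝ) : ℂ) * Complex.I) (by
    rw [add_sub_cancel_left, norm_mul, Complex.norm_I, mul_one, Complex.norm_real,
      Real.norm_eq_abs, abs_neg, abs_of_pos (by positivity)]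
    linarith) (hoff' _ (by linarith))
  have ha2 := h.below_line hv2.1 (fun y hy => by
    have := hoff' (-(r' / 2) + y) (by linarith)
    rwa [Complex.ofReal_add, add_mul, ← add_assoc] at this)
  rw [ha2] at hv2
  have hpi : (π : ℂ) * Complex.I ≠ 0 := by
    simp [Real.pi_ne_zero]
  have hcase : ν₁ = π * Complex.I ∧ ν₂ = -(π * Complex.I) := by
    rcases hv1.2 with e1 | e1
    · refine ⟨e1.symm, ?_⟩
      rw [← e1] at hj
      linear_combination -hj
    · exfalso
      have e3 : ν₁ = 3 * (π * Complex.I) := by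
        rw [← e1] at hj
        linear_combination hj
      rcases hv2.2 with e2 | e2
      · rw [e3] at e2
        have : 4 * ((π : ℂ) * Complex.I) = 0 := by linear_combination -e2
        simp [Real.pi_ne_zero] at this
      · rw [← e1] at e2
        have : 2 * ((π : ℂ) * Complex.I) = 0 := by linear_combination -e2
        simp [Real.pi_ne_zero] at this
  rw [hcase.1] at h₁
  rw [hcase.2] at h₂
  exact ⟨h₁, h₂⟩

/-- near interior points the winding function is `±iπ` -/
theorem near_values {t₀ : ℝ} (ht₀ : t₀ ∈ Ioo a b) :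
    ∃ r > 0, ∀ q, ‖q - c t₀‖ < r → q ∉ c '' Icc a b →
      q ∈ St τ₁ τ₂ ∧ (arcH c c' a b q = π * Complex.I ∨ arcH c c' a b q = -(π * Complex.I)) :=
  h.local_values h.sides_eq.1 h.sides_eq.2 ht₀

/-- **the winding function is `±iπ` off the arc** -/
theorem values {q : ℂ} (hq : q ∈ St τ₁ τ₂) (hqK : q ∉ c '' Icc a b) :
    arcH c c' a b q = π * Complex.I ∨ arcH c c' a b q = -(π * Complex.I) := by
  by_cases hl : ∀ y : ℝ, 0 ≤ y → q + y * Complex.I ∉ c '' Icc a b
  · exact Or.inl (h.above_line hq hl)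
  push Not at hl
  obtain ⟨y, hy, hyK⟩ := hl
  obtain ⟨z, hz, ⟨t, ht, htz⟩, hfree⟩ := first_hit h.compact.isClosed hqK hy hyK
  have hre : (c t).re = q.re := by rw [htz]; simp
  have hto : t ∈ Ioo a b := by
    refine ⟨lt_of_le_of_ne ht.1 ?_, lt_of_le_of_ne ht.2 ?_⟩
    · intro h0
      rw [← h0, h.s] at hre
      linarith [hq.1]
    · intro h0
      rw [h0, h.e] at hre
      linarith [hq.2]
  obtain ⟨r, hr, hloc⟩ := h.near_values hto
  set w : ℝ := max 0 (z - r / 2) with hw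
  have hwz : w < z := max_lt hz (by linarith)
  have hw0 : 0 ≤ w := le_max_left _ _
  have hwK : q + w * Complex.I ∉ c '' Icc a b := hfree w ⟨hw0, hwz⟩
  have hpre : IsPreconnected ((fun y : ℝ => q + y * Complex.I) '' Icc 0 w) :=
    isPreconnected_Icc.image _ (by fun_prop : Continuous fun y : ℝ => q + y * Complex.I).continuousOn
  rw [h.H_conn hpre (by
    rintro _ ⟨y, hy, rfl⟩
    refine ⟨?_, hfree y ⟨hy.1, hy.2.trans_lt hwz⟩⟩
    show (q + y * Complex.I).re ∈ Ioo τ₁ τ₂
    have : (q + y * Complex.I).re = q.re := by simp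
    rw [this]
    exact hq) (q := q) (q' := q + w * Complex.I)
    ⟨0, ⟨le_rfl, hw0⟩, by simp⟩ ⟨w, ⟨hw0, le_rfl⟩, rfl⟩]
  refine (hloc _ ?_ hwK).2
  rw [htz]
  have e1 : q + w * Complex.I - (q + z * Complex.I) = ((w - z : ℝ) : ℂ) * Complex.I := by
    push_cast; ring
  rw [e1, norm_mul, Complex.norm_I, mul_one, Complex.norm_real, Real.norm_eq_abs,
    abs_of_nonpos (by linarith)]
  have : z - r / 2 ≤ w := le_max_right _ _
  linarith

end Arc

end Vale.Agent.P220.R2.H481
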