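import Vale.Agent.P220.R2.H481.Arc3

/-!
# Two disjoint arcs that cross a strip
-/

open Filter Topology Set MeasureTheory intervalIntegral
open scoped ComplexConjugate Real

namespace Vale.Agent.P220.R2.H481

variable {c₁ c₁' c₂ c₂' : ℝ → ℂ} {a₁ b₁ a₂ b₂ τ₁ τ₂ : ℝ}

/-- two disjoint arcs that cross the same strip -/
structure Arcs (c₁ c₁' : ℝ → ℂ) (a₁ b₁ : ℝ) (c₂ c₂' : ℝ → ℂ) (a₂ b₂ τ₁ τ₂ : ℝ) : Prop where
  h₁ : Arc c₁ c₁' a₁ b₁ τ₁ τ₂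
  h₂ : Arc c₂ c₂' a₂ b₂ τ₁ τ₂
  dj : ∀ s ∈ Icc a₁ b₁, ∀ t ∈ Icc a₂ b₂, c₁ s ≠ c₂ t

/-- the first arc is below the second one -/
structure Below (c₁ c₁' : ℝ → ℂ) (a₁ b₁ : ℝ) (c₂ c₂' : ℝ → ℂ) (a₂ b₂ : ℝ) : Prop where
  v₁ : ∀ t ∈ Ioo a₂ b₂, arcH c₁ c₁' a₁ b₁ (c₂ t) = π * Complex.I
  v₂ : ∀ t ∈ Ioo a₁ b₁, arcH c₂ c₂' a₂ b₂ (c₁ t) = -(π * Complex.I)

theorem pi_I_ne : (π : ℂ) * Complex.I ≠ -(π * Complex.I) := by
  intro h
  have : 2 * ((π : ℂ) * Complex.I) = 0 := by linear_combination h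
  simp [Real.pi_ne_zero] at this

namespace Arcs

variable (A : Arcs c₁ c₁' a₁ b₁ c₂ c₂' a₂ b₂ τ₁ τ₂)

include A

theorem symm : Arcs c₂ c₂' a₂ b₂ c₁ c₁' a₁ b₁ τ₁ τ₂ :=
  ⟨A.h₂, A.h₁, fun s hs t ht h => A.dj t ht s hs h.symm⟩

theorem disj₂ {t : ℝ} (ht : t ∈ Icc a₂ b₂) : c₂ t ∉ c₁ '' Icc a₁ b₁ := by
  rintro ⟨s, hs, hst⟩
  exact A.dj s hs t ht hst

theorem const₁ {t t' : ℝ} (ht : t ∈ Ioo a₂ b₂) (ht' : t' ∈ Ioo a₂ b₂) :
    arcH c₁ c₁' a₁ b₁ (c₂ t) = arcH c₁ c₁' a₁ b₁ (c₂ t') := by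
  refine A.h₁.H_conn (S := c₂ '' Ioo a₂ b₂) (isPreconnected_Ioo.image _ A.h₂.cont.continuousOn) ?_
    ⟨t, ht, rfl⟩ ⟨t', ht', rfl⟩
  rintro _ ⟨s, hs, rfl⟩
  exact ⟨A.h₂.m s hs, A.disj₂ ⟨hs.1.le, hs.2.le⟩⟩

theorem top_case {x : ℝ} (hx : x ∈ Ioo τ₁ τ₂) {t₁ t₂ : ℝ} (h1 : (c₁ t₁).re = x)
    (h2 : (c₂ t₂).re = x) (hm : ∀ s ∈ Icc a₁ b₁, (c₁ s).re = x → (c₁ s).im ≤ (c₁ t₁).im)
    (hle : (c₁ t₁).im ≤ (c₂ t₂).im) (ht₂ : t₂ ∈ Icc a₂ b₂) :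
    arcH c₁ c₁' a₁ b₁ (c₂ t₂) = π * Complex.I := by
  refine A.h₁.above_line (by show (c₂ t₂).re ∈ Ioo τ₁ τ₂; rw [h2]; exact hx) fun y hy hK => ?_
  obtain ⟨s, hs, hse⟩ := hK
  have hsr : (c₁ s).re = x := by rw [hse]; simpa using h2
  have h3 := hm s hs hsr
  have h4 : (c₁ s).im = (c₂ t₂).im + y := by rw [hse]; simp
  have hy0 : y = 0 := by linarith
  rw [hy0] at hse
  exact A.dj s hs t₂ ht₂ (by simpa using hse)

theorem bot_case {x : ℝ} (hx : x ∈ Ioo τ₁ τ₂) {t₁ t₂ : ℝ} (h1 : (c₁ t₁).re = x)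
    (h2 : (c₂ t₂).re = x) (hm : ∀ s ∈ Icc a₁ b₁, (c₁ s).re = x → (c₁ t₁).im ≤ (c₁ s).im)
    (hle : (c₂ t₂).im ≤ (c₁ t₁).im) (ht₂ : t₂ ∈ Icc a₂ b₂) :
    arcH c₁ c₁' a₁ b₁ (c₂ t₂) = -(π * Complex.I) := by
  refine A.h₁.below_line (by show (c₂ t₂).re ∈ Ioo τ₁ τ₂; rw [h2]; exact hx) fun y hy hK => ?_
  obtain ⟨s, hs, hse⟩ := hK
  have hsr : (c₁ s).re = x := by rw [hse]; simpa using h2
  have h3 := hm s hs hsr
  have h4 : (c₁ s).im = (c₂ t₂).im + y := by rw [hse]; simp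
  have hy0 : y = 0 := by linarith
  rw [hy0] at hse
  exact A.dj s hs t₂ ht₂ (by simpa using hse)

theorem order : Below c₁ c₁' a₁ b₁ c₂ c₂' a₂ b₂ ∨ Below c₂ c₂' a₂ b₂ c₁ c₁' a₁ b₁ := by
  have hτ := A.h₁.hτ
  have hx : (τ₁ + τ₂) / 2 ∈ Ioo τ₁ τ₂ := ⟨by linarith, by linarith⟩
  obtain ⟨t₁, ht₁, ht₁x, max₁⟩ := A.h₁.exists_cross hx
  obtain ⟨t₂, ht₂, ht₂x, max₂⟩ := A.h₂.exists_cross hx
  obtain ⟨s₁, hs₁, hs₁x, min₁⟩ := A.h₁.exists_cross' hx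
  obtain ⟨s₂, hs₂, hs₂x, min₂⟩ := A.h₂.exists_cross' hx
  have i1 : t₁ ∈ Icc a₁ b₁ := ⟨ht₁.1.le, ht₁.2.le⟩
  have i2 : t₂ ∈ Icc a₂ b₂ := ⟨ht₂.1.le, ht₂.2.le⟩
  have j1 : s₁ ∈ Icc a₁ b₁ := ⟨hs₁.1.le, hs₁.2.le⟩
  have j2 : s₂ ∈ Icc a₂ b₂ := ⟨hs₂.1.le, hs₂.2.le⟩
  rcases le_total (c₁ t₁).im (c₂ t₂).im with hT | hT
  · have e1 := A.top_case hx ht₁x ht₂x max₁ hT i2
    rcases le_total (c₁ s₁).im (c₂ s₂).im with hB | hB
    · have e2 := A.symm.bot_case hx hs₂x hs₁x min₂ hB j1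
      exact Or.inl ⟨fun t ht => by rw [A.const₁ ht ht₂, e1],
        fun t ht => by rw [A.symm.const₁ ht hs₁, e2]⟩
    · have e2 := A.bot_case hx hs₁x hs₂x min₁ hB j2
      rw [A.const₁ hs₂ ht₂, e1] at e2
      exact absurd e2 pi_I_ne
  · have e1 := A.symm.top_case hx ht₂x ht₁x max₂ hT i1
    rcases le_total (c₁ s₁).im (c₂ s₂).im with hB | hB
    · have e2 := A.symm.bot_case hx hs₂x hs₁x min₂ hB j1
      rw [A.symm.const₁ hs₁ ht₁, e1] at e2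
      exact absurd e2 pi_I_ne
    · have e2 := A.bot_case hx hs₁x hs₂x min₁ hB j2
      exact Or.inr ⟨fun t ht => by rw [A.symm.const₁ ht ht₁, e1],
        fun t ht => by rw [A.const₁ ht hs₂, e2]⟩

theorem seg {q : ℂ} (hq : q ∈ St τ₁ τ₂) {u v : ℝ} (huv : u ≤ v)
    (hfree : ∀ y ∈ Icc u v, q + y * Complex.I ∉ c₁ '' Icc a₁ b₁) :
    arcH c₁ c₁' a₁ b₁ (q + u * Complex.I) = arcH c₁ c₁' a₁ b₁ (q + v * Complex.I) := by
  refine A.h₁.H_conn (S := (fun y : ℝ => q + y * Complex.I) '' Icc u v)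
    (isPreconnected_Icc.image _ (by fun_prop :
      Continuous fun y : ℝ => q + y * Complex.I).continuousOn) ?_
    ⟨u, ⟨le_rfl, huv⟩, rfl⟩ ⟨v, ⟨huv, le_rfl⟩, rfl⟩
  rintro _ ⟨y, hy, rfl⟩
  refine ⟨?_, hfree y hy⟩
  show (q + y * Complex.I).re ∈ Ioo τ₁ τ₂
  have : (q + y * Complex.I).re = q.re := by simp
  rw [this]
  exact hq

theorem Ioo_of_re {t : ℝ} (ht : t ∈ Icc a₁ b₁) (hr : (c₁ t).re ∈ Ioo τ₁ τ₂) : t ∈ Ioo a₁ b₁ := by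
  refine ⟨lt_of_le_of_ne ht.1 ?_, lt_of_le_of_ne ht.2 ?_⟩
  · intro h0
    rw [← h0, A.h₁.s] at hr
    exact lt_irrefl _ hr.1
  · intro h0
    rw [h0, A.h₁.e] at hr
    exact lt_irrefl _ hr.2

/-- the difference of the winding functions has two values -/
theorem diff (B : Below c₁ c₁' a₁ b₁ c₂ c₂' a₂ b₂) {q : ℂ} (hq : q ∈ St τ₁ τ₂)
    (hq₁ : q ∉ c₁ '' Icc a₁ b₁) (hq₂ : q ∉ c₂ '' Icc a₂ b₂) :
    arcH c₁ c₁' a₁ b₁ q - arcH c₂ c₂' a₂ b₂ q = 0 ∨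
      arcH c₁ c₁' a₁ b₁ q - arcH c₂ c₂' a₂ b₂ q = 2 * π * Complex.I := by
  rcases A.h₁.values hq hq₁ with e1 | e1 <;> rcases A.h₂.values hq hq₂ with e2 | e2
  · left
    rw [e1, e2, sub_self]
  · right
    rw [e1, e2]
    ring
  · exfalso
    have hK : IsClosed (c₁ '' Icc a₁ b₁ ∪ c₂ '' Icc a₂ b₂) :=
      A.h₁.compact.isClosed.union A.h₂.compact.isClosed
    have hex : ∃ y : ℝ, 0 ≤ y ∧ q + y * Complex.I ∈ c₁ '' Icc a₁ b₁ := by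
      by_contra hcon
      push Not at hcon
      rw [A.h₁.above_line hq hcon] at e1
      exact pi_I_ne e1
    obtain ⟨y, hy, hyK⟩ := hex
    have hqK : q ∉ c₁ '' Icc a₁ b₁ ∪ c₂ '' Icc a₂ b₂ := by
      rintro (h | h)
      · exact hq₁ h
      · exact hq₂ h
    obtain ⟨z, hz, hzK, hfree⟩ := first_hit hK hqK hy (Or.inl hyK)
    have hq0 : q = q + ((0 : ℝ) : ℂ) * Complex.I := by simp
    have hre : (q + z * Complex.I).re = q.re := by simp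
    rcases hzK with hzK | hzK
    · -- the first hit is on the first arc
      obtain ⟨t, ht, htz⟩ := hzK
      have h1 := A.symm.seg hq hz.le fun y hy => by
        rcases hy.2.eq_or_lt with h | h
        · rw [h, ← htz]
          exact A.symm.disj₂ ht
        · exact fun h' => hfree y ⟨hy.1, h⟩ (Or.inr h')
      rw [← hq0, ← htz, B.v₂ t (A.Ioo_of_re ht (by rw [htz, hre]; exact hq)), e2] at h1
      exact pi_I_ne h1
    · obtain ⟨t, ht, htz⟩ := hzK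
      have h1 := A.seg hq hz.le fun y hy => by
        rcases hy.2.eq_or_lt with h | h
        · rw [h, ← htz]
          exact A.disj₂ ht
        · exact fun h' => hfree y ⟨hy.1, h⟩ (Or.inl h')
      rw [← hq0, ← htz, B.v₁ t (A.symm.Ioo_of_re ht (by rw [htz, hre]; exact hq)), e1] at h1
      exact pi_I_ne h1.symm
  · left
    rw [e1, e2, sub_self]

/-- between a closest pair -/
theorem gap (B : Below c₁ c₁' a₁ b₁ c₂ c₂' a₂ b₂) {x : ℝ} (hx : x ∈ Ioo τ₁ τ₂) :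
    ∃ s ∈ Icc a₁ b₁, ∃ t ∈ Icc a₂ b₂, (c₁ s).re = x ∧ (c₂ t).re = x ∧
      ∀ y ∈ Ioo (min (c₁ s).im (c₂ t).im) (max (c₁ s).im (c₂ t).im),
        (⟨x, y⟩ : ℂ) ∉ c₁ '' Icc a₁ b₁ ∧ (⟨x, y⟩ : ℂ) ∉ c₂ '' Icc a₂ b₂ ∧
        arcH c₁ c₁' a₁ b₁ ⟨x, y⟩ - arcH c₂ c₂' a₂ b₂ ⟨x, y⟩ = 2 * π * Complex.I := by
  obtain ⟨t₁, ht₁, ht₁x, -⟩ := A.h₁.exists_cross hx
  obtain ⟨t₂, ht₂, ht₂x, -⟩ := A.h₂.exists_cross hx
  set Z₁ : Set ℝ := Icc a₁ b₁ ∩ {t | (c₁ t).re = x} with hZ₁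
  set Z₂ : Set ℝ := Icc a₂ b₂ ∩ {t | (c₂ t).re = x} with hZ₂
  have k₁ : IsCompact Z₁ := isCompact_Icc.inter_right
    (isClosed_eq (Complex.continuous_re.comp A.h₁.cont) continuous_const)
  have k₂ : IsCompact Z₂ := isCompact_Icc.inter_right
    (isClosed_eq (Complex.continuous_re.comp A.h₂.cont) continuous_const)
  have hcf : Continuous fun p : ℝ × ℝ => |(c₁ p.1).im - (c₂ p.2).im| :=
    (((Complex.continuous_im.comp A.h₁.cont).comp continuous_fst).sub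
      ((Complex.continuous_im.comp A.h₂.cont).comp continuous_snd)).abs
  obtain ⟨⟨s, t⟩, ⟨⟨hs, hsx⟩, ht, htx⟩, hmin⟩ := (k₁.prod k₂).exists_isMinOn
    ⟨(t₁, t₂), ⟨⟨⟨ht₁.1.le, ht₁.2.le⟩, ht₁x⟩, ⟨ht₂.1.le, ht₂.2.le⟩, ht₂x⟩⟩ hcf.continuousOn
  have hsx' : (c₁ s).re = x := hsx
  have htx' : (c₂ t).re = x := htx
  have hmin' : ∀ s' ∈ Icc a₁ b₁, ∀ t' ∈ Icc a₂ b₂, (c₁ s').re = x → (c₂ t').re = x →
      |(c₁ s).im - (c₂ t).im| ≤ |(c₁ s').im - (c₂ t').im| := fun s' hs' t' ht' h1 h2 =>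
    hmin (show (s', t') ∈ Z₁ ×ˢ Z₂ from ⟨⟨hs', h1⟩, ht', h2⟩)
  refine ⟨s, hs, t, ht, hsx', htx', ?_⟩
  have hcs : c₁ s = ⟨x, (c₁ s).im⟩ := Complex.ext hsx' rfl
  have hct : c₂ t = ⟨x, (c₂ t).im⟩ := Complex.ext htx' rfl
  have free₁ : ∀ y ∈ Ioo (min (c₁ s).im (c₂ t).im) (max (c₁ s).im (c₂ t).im),
      (⟨x, y⟩ : ℂ) ∉ c₁ '' Icc a₁ b₁ := by
    rintro y hy ⟨r, hr, hry⟩
    have h1 := hmin' r hr t ht (by rw [hry]) htx'
    rw [hry] at h1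
    simp only at h1
    rcases le_total (c₁ s).im (c₂ t).im with hle | hle
    · rw [min_eq_left hle, max_eq_right hle] at hy
      rw [abs_of_nonpos (by linarith), abs_of_nonpos (by linarith [hy.2])] at h1
      linarith [hy.1]
    · rw [min_eq_right hle, max_eq_left hle] at hy
      rw [abs_of_nonneg (by linarith), abs_of_nonneg (by linarith [hy.1])] at h1
      linarith [hy.2]
  have free₂ : ∀ y ∈ Ioo (min (c₁ s).im (c₂ t).im) (max (c₁ s).im (c₂ t).im),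
      (⟨x, y⟩ : ℂ) ∉ c₂ '' Icc a₂ b₂ := by
    rintro y hy ⟨r, hr, hry⟩
    have h1 := hmin' s hs r hr hsx' (by rw [hry])
    rw [hry] at h1
    simp only at h1
    rcases le_total (c₁ s).im (c₂ t).im with hle | hle
    · rw [min_eq_left hle, max_eq_right hle] at hy
      rw [abs_of_nonpos (by linarith), abs_of_nonpos (by linarith [hy.1])] at h1
      linarith [hy.2]
    · rw [min_eq_right hle, max_eq_left hle] at hy
      rw [abs_of_nonneg (by linarith), abs_of_nonneg (by linarith [hy.2])] at h1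
      linarith [hy.1]
  have hbase : (⟨x, 0⟩ : ℂ) ∈ St τ₁ τ₂ := hx
  have hpt : ∀ y : ℝ, (⟨x, 0⟩ : ℂ) + y * Complex.I = ⟨x, y⟩ := fun y =>
    Complex.ext (by simp) (by simp)
  have hso := A.Ioo_of_re hs (by rw [hsx']; exact hx)
  have hto := A.symm.Ioo_of_re ht (by rw [htx']; exact hx)
  have hs2 : (⟨x, (c₁ s).im⟩ : ℂ) ∉ c₂ '' Icc a₂ b₂ := by
    rw [← hcs]; exact A.symm.disj₂ hs
  have ht1 : (⟨x, (c₂ t).im⟩ : ℂ) ∉ c₁ '' Icc a₁ b₁ := by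
    rw [← hct]; exact A.disj₂ ht
  intro y hy
  refine ⟨free₁ y hy, free₂ y hy, ?_⟩
  have e1 : arcH c₁ c₁' a₁ b₁ ⟨x, y⟩ = π * Complex.I := by
    rw [← B.v₁ t hto]
    rcases le_total (c₁ s).im (c₂ t).im with hle | hle
    · rw [min_eq_left hle, max_eq_right hle] at hy free₁
      have h1 := A.seg hbase (u := y) (v := (c₂ t).im) hy.2.le fun w hw => by
        rw [hpt]
        rcases hw.2.eq_or_lt with h | h
        · rw [h]; exact ht1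
        · exact free₁ w ⟨hy.1.trans_le hw.1, h⟩
      rw [hpt, hpt, ← hct] at h1
      exact h1
    · rw [min_eq_right hle, max_eq_left hle] at hy free₁
      have h1 := A.seg hbase (u := (c₂ t).im) (v := y) hy.1.le fun w hw => by
        rw [hpt]
        rcases hw.1.eq_or_lt with h | h
        · rw [← h]; exact ht1
        · exact free₁ w ⟨h, hw.2.trans_lt hy.2⟩
      rw [hpt, hpt, ← hct] at h1
      exact h1.symm
  have e2 : arcH c₂ c₂' a₂ b₂ ⟨x, y⟩ = -(π * Complex.I) := by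
    rw [← B.v₂ s hso]
    rcases le_total (c₁ s).im (c₂ t).im with hle | hle
    · rw [min_eq_left hle, max_eq_right hle] at hy free₂
      have h1 := A.symm.seg hbase (u := (c₁ s).im) (v := y) hy.1.le fun w hw => by
        rw [hpt]
        rcases hw.1.eq_or_lt with h | h
        · rw [← h]; exact hs2
        · exact free₂ w ⟨h, hw.2.trans_lt hy.2⟩
      rw [hpt, hpt, ← hcs] at h1
      exact h1.symm
    · rw [min_eq_right hle, max_eq_left hle] at hy free₂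
      have h1 := A.symm.seg hbase (u := y) (v := (c₁ s).im) hy.2.le fun w hw => by
        rw [hpt]
        rcases hw.2.eq_or_lt with h | h
        · rw [h]; exact hs2
        · exact free₂ w ⟨hy.1.trans_le hw.1, h⟩
      rw [hpt, hpt, ← hcs] at h1
      exact h1
  rw [e1, e2]
  ring

end Arcs

end Vale.Agent.P220.R2.H481
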