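import Vale.Agent.P220.R2.H481.Area2
import Vale.Agent.P220.R2.H481.Arc4

/-!
# The area between two arcs that cross a strip
-/

open Filter Topology Set MeasureTheory Metric
open scoped ComplexConjugate Real ENNReal

namespace Vale.Agent.P220.R2.H481

theorem area_formula_arc {x x' : ℝ → ℂ} {a b R : ℝ} (hx : Continuous x) (hx' : Continuous x')
    (hab : a ≤ b) (hR : ∀ t ∈ Icc a b, ‖x t‖ < R) :
    IntegrableOn (fun q => arcJ x x' a b q) (ball (0 : ℂ) R) ∧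
    ∫ q in ball (0 : ℂ) R, arcJ x x' a b q = π * ∫ t in a..b, x' t * conj (x t) := by
  set y : ℝ → ℂ := fun t => x (projIcc a b hab (a + t)) with hy
  set y' : ℝ → ℂ := fun t => x' (projIcc a b hab (a + t)) with hy'
  have hp : Continuous fun t : ℝ => ((projIcc a b hab (a + t) : Icc a b) : ℝ) :=
    continuous_subtype_val.comp (continuous_projIcc.comp (continuous_const.add continuous_id))
  have hyc : Continuous y := hx.comp hp
  have hyc' : Continuous y' := hx'.comp hp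
  have key := area_formula (x := y) (x' := y') (P := b - a) (R := R) hyc hyc'
    (fun t => hR _ (projIcc a b hab (a + t)).2) (by linarith)
  have e0 : ∀ G : ℂ → ℂ → ℂ, ∫ t in (0 : ℝ)..(b - a), G (y' t) (y t) =
      ∫ t in a..b, G (x' t) (x t) := by
    intro G
    have h1 := intervalIntegral.integral_comp_add_left (a := 0) (b := b - a)
      (fun t => G (x' (projIcc a b hab t)) (x (projIcc a b hab t))) a
    rw [add_zero, add_sub_cancel] at h1
    rw [show (fun t => G (y' t) (y t)) =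
      fun t => G (x' (projIcc a b hab (a + t))) (x (projIcc a b hab (a + t))) from rfl] at *
    rw [h1]
    refine intervalIntegral.integral_congr fun t ht => ?_
    rw [uIcc_of_le hab] at ht
    simp only [projIcc_of_mem hab ht]
  have e1 : (fun q => arcJ x x' a b q) = fun q => ∫ t in (0 : ℝ)..(b - a), y' t / (y t - q) := by
    funext q
    exact (e0 fun u v => u / (v - q)).symm
  have e2 := e0 fun u v => u * conj v
  rw [e1, ← e2]
  exact key

/-- the boundary term -/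
noncomputable def bdG (z : ℂ) : ℂ :=
  (((z.re * z.re + z.im * z.im) / 2 : ℝ) : ℂ) + Complex.I * ((z.re * z.im : ℝ) : ℂ)

theorem area_eq_arc {x x' : ℝ → ℂ} {a b : ℝ} (hx : ∀ t, HasDerivAt x (x' t) t)
    (hx' : Continuous x') :
    ∫ t in a..b, x' t * conj (x t) = bdG (x b) - bdG (x a) -
      2 * Complex.I * ((∫ t in a..b, (x t).im * (x' t).re : ℝ) : ℂ) := by
  have hxc : Continuous x := continuous_iff_continuousAt.2 fun t => (hx t).continuousAt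
  have hre : ∀ t, HasDerivAt (fun t => (x t).re) (x' t).re t := fun t =>
    Complex.reCLM.hasFDerivAt.comp_hasDerivAt t (hx t)
  have him : ∀ t, HasDerivAt (fun t => (x t).im) (x' t).im t := fun t =>
    Complex.imCLM.hasFDerivAt.comp_hasDerivAt t (hx t)
  have hof : ∀ {g : ℝ → ℝ} {g' t : ℝ}, HasDerivAt g g' t →
      HasDerivAt (fun t => ((g t : ℝ) : ℂ)) ((g' : ℝ) : ℂ) t := fun hg =>
    Complex.ofRealCLM.hasFDerivAt.comp_hasDerivAt _ hg
  have hd : ∀ t ∈ uIcc a b, HasDerivAt (fun t => bdG (x t))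
      ((((x' t).re * (x t).re + (x' t).im * (x t).im : ℝ) : ℂ) +
        Complex.I * (((x' t).re * (x t).im + (x t).re * (x' t).im : ℝ) : ℂ)) t := by
    intro t _
    have h1 := (((hre t).fun_mul (hre t)).fun_add ((him t).fun_mul (him t))).div_const 2
    have h2 := (hre t).fun_mul (him t)
    refine ((hof h1).fun_add ((hof h2).const_mul Complex.I)).congr_deriv ?_
    push_cast
    ring
  have hc1 : Continuous fun t => (x' t).re := Complex.continuous_re.comp hx'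
  have hc2 : Continuous fun t => (x' t).im := Complex.continuous_im.comp hx'
  have hc3 : Continuous fun t => (x t).re := Complex.continuous_re.comp hxc
  have hc4 : Continuous fun t => (x t).im := Complex.continuous_im.comp hxc
  have hcd : Continuous fun t => ((((x' t).re * (x t).re + (x' t).im * (x t).im : ℝ) : ℂ) +
        Complex.I * (((x' t).re * (x t).im + (x t).re * (x' t).im : ℝ) : ℂ)) := by
    fun_prop
  have h1 := intervalIntegral.integral_eq_sub_of_hasDerivAt hd (hcd.intervalIntegrable _ _)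
  have h2 : ∀ t, x' t * conj (x t) = ((((x' t).re * (x t).re + (x' t).im * (x t).im : ℝ) : ℂ) +
        Complex.I * (((x' t).re * (x t).im + (x t).re * (x' t).im : ℝ) : ℂ)) +
        -(2 * Complex.I) * (((x t).im * (x' t).re : ℝ) : ℂ) := by
    intro t
    apply Complex.ext
    · simp
    · simp
      ring
  simp only [h2]
  have hcc : Continuous fun t => -(2 * Complex.I) * (((x t).im * (x' t).re : ℝ) : ℂ) := by
    fun_prop
  rw [intervalIntegral.integral_add (hcd.intervalIntegrable _ _) (hcc.intervalIntegrable _ _), h1,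
    intervalIntegral.integral_const_mul, intervalIntegral.integral_ofReal]
  ring

theorem arcJ_right {x x' : ℝ → ℂ} {a b : ℝ} (hx : ∀ t, HasDerivAt x (x' t) t)
    (hx' : Continuous x') (hab : a ≤ b) {q : ℂ} (hq : ∀ t ∈ Icc a b, q.re < (x t).re) :
    arcJ x x' a b q = Complex.log (x b - q) - Complex.log (x a - q) := by
  have hxc : Continuous x := continuous_iff_continuousAt.2 fun t => (hx t).continuousAt
  have huI : uIcc a b = Icc a b := uIcc_of_le hab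
  have hne : ∀ t ∈ Icc a b, x t - q ≠ 0 := fun t ht h0 => by
    have h1 := hq t ht
    rw [sub_eq_zero.1 h0] at h1
    exact lt_irrefl _ h1
  have hd : ∀ t ∈ uIcc a b, HasDerivAt (fun t => Complex.log (x t - q))
      (x' t / (x t - q)) t := by
    intro t ht
    rw [huI] at ht
    exact ((hx t).sub_const q).clog_real (Or.inl (by simpa using hq t ht))
  have hi : IntervalIntegrable (fun t => x' t / (x t - q)) volume a b := by
    refine ContinuousOn.intervalIntegrable ?_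
    rw [huI]
    exact hx'.continuousOn.div (hxc.continuousOn.sub continuousOn_const) hne
  exact intervalIntegral.integral_eq_sub_of_hasDerivAt hd hi

theorem arcJ_left {x x' : ℝ → ℂ} {a b : ℝ} (hx : ∀ t, HasDerivAt x (x' t) t)
    (hx' : Continuous x') (hab : a ≤ b) {q : ℂ} (hq : ∀ t ∈ Icc a b, (x t).re < q.re) :
    arcJ x x' a b q = Complex.log (q - x b) - Complex.log (q - x a) := by
  have hxc : Continuous x := continuous_iff_continuousAt.2 fun t => (hx t).continuousAt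
  have huI : uIcc a b = Icc a b := uIcc_of_le hab
  have hne : ∀ t ∈ Icc a b, x t - q ≠ 0 := fun t ht h0 => by
    have h1 := hq t ht
    rw [sub_eq_zero.1 h0] at h1
    exact lt_irrefl _ h1
  have hd : ∀ t ∈ uIcc a b, HasDerivAt (fun t => Complex.log (q - x t))
      (x' t / (x t - q)) t := by
    intro t ht
    rw [huI] at ht
    have h1 := ((hx t).const_sub q).clog_real (Or.inl (by simpa using hq t ht))
    refine h1.congr_deriv ?_
    rw [← neg_sub (x t) q, neg_div_neg_eq]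
  have hi : IntervalIntegrable (fun t => x' t / (x t - q)) volume a b := by
    refine ContinuousOn.intervalIntegrable ?_
    rw [huI]
    exact hx'.continuousOn.div (hxc.continuousOn.sub continuousOn_const) hne
  exact intervalIntegral.integral_eq_sub_of_hasDerivAt hd hi

/-- straight segments -/
noncomputable def sg (P Q : ℂ) (t : ℝ) : ℂ := P + t * (Q - P)

theorem hasDerivAt_sg (P Q : ℂ) (t : ℝ) : HasDerivAt (sg P Q) (Q - P) t := by
  have h1 := (Complex.ofRealCLM.hasDerivAt (x := t)).mul_const (Q - P)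
  have h2 := h1.const_add P
  show HasDerivAt (fun t : ℝ => P + t * (Q - P)) (Q - P) t
  simpa using h2

theorem sg_zero (P Q : ℂ) : sg P Q 0 = P := by simp [sg]

theorem sg_one (P Q : ℂ) : sg P Q 1 = Q := by simp [sg]

theorem sg_re {P Q : ℂ} (h : P.re = Q.re) (t : ℝ) : (sg P Q t).re = P.re := by
  simp [sg, h]

theorem sg_norm {P Q : ℂ} {R : ℝ} (hP : ‖P‖ < R) (hQ : ‖Q‖ < R) {t : ℝ} (ht : t ∈ Icc (0 : ℝ) 1) :
    ‖sg P Q t‖ < R := by
  have h1 : P ∈ ball (0 : ℂ) R := by rw [mem_ball_iff_norm, sub_zero]; exact hP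
  have h2 : Q ∈ ball (0 : ℂ) R := by rw [mem_ball_iff_norm, sub_zero]; exact hQ
  have h3 := (convex_ball (0 : ℂ) R).add_smul_sub_mem h1 h2 ht
  rw [mem_ball_iff_norm, sub_zero, Complex.real_smul] at h3
  exact h3

theorem sg_area {P Q : ℂ} (h : P.re = Q.re) :
    ∫ t in (0 : ℝ)..1, (Q - P) * conj (sg P Q t) = bdG Q - bdG P := by
  have h1 := area_eq_arc (x := sg P Q) (x' := fun _ => Q - P) (a := 0) (b := 1)
    (hasDerivAt_sg P Q) continuous_const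
  rw [h1, sg_zero, sg_one]
  simp [h]

theorem volume_re_eq (τ : ℝ) : volume {q : ℂ | q.re = τ} = 0 := by
  have h1 : ∀ t : ℝ, HasDerivAt (fun t : ℝ => (τ : ℂ) + t * Complex.I) Complex.I t := by
    intro t
    have h1 := (Complex.ofRealCLM.hasDerivAt (x := t)).mul_const Complex.I
    have h2 := h1.const_add (τ : ℂ)
    simpa using h2
  refine measure_mono_null ?_ (volume_range_eq_zero h1)
  intro q hq
  refine ⟨q.im, ?_⟩
  have : q.re = τ := hq
  rw [← this]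
  exact Complex.re_add_im q

variable {c₁ c₁' c₂ c₂' : ℝ → ℂ} {a₁ b₁ a₂ b₂ τ₁ τ₂ : ℝ}

namespace Arcs

variable (A : Arcs c₁ c₁' a₁ b₁ c₂ c₂' a₂ b₂ τ₁ τ₂)

/-- the winding function of the boundary of the region between the arcs -/
noncomputable def bd (c₁ c₁' : ℝ → ℂ) (a₁ b₁ : ℝ) (c₂ c₂' : ℝ → ℂ) (a₂ b₂ : ℝ) (q : ℂ) : ℂ :=
  arcJ c₁ c₁' a₁ b₁ q + arcJ (sg (c₁ b₁) (c₂ b₂)) (fun _ => c₂ b₂ - c₁ b₁) 0 1 q -
    arcJ c₂ c₂' a₂ b₂ q - arcJ (sg (c₁ a₁) (c₂ a₂)) (fun _ => c₂ a₂ - c₁ a₁) 0 1 q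

/-- the region between the arcs -/
def reg (c₁ c₁' : ℝ → ℂ) (a₁ b₁ : ℝ) (c₂ c₂' : ℝ → ℂ) (a₂ b₂ τ₁ τ₂ : ℝ) : Set ℂ :=
  {q | q ∈ St τ₁ τ₂ ∧ q ∉ c₁ '' Icc a₁ b₁ ∧ q ∉ c₂ '' Icc a₂ b₂ ∧
    arcH c₁ c₁' a₁ b₁ q - arcH c₂ c₂' a₂ b₂ q = 2 * π * Complex.I}

include A

theorem re_a : (c₁ a₁).re = (c₂ a₂).re := by rw [A.h₁.s, A.h₂.s]

theorem re_b : (c₁ b₁).re = (c₂ b₂).re := by rw [A.h₁.e, A.h₂.e]

theorem re_mem₁ {t : ℝ} (ht : t ∈ Icc a₁ b₁) : (c₁ t).re ∈ Icc τ₁ τ₂ := by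
  rcases ht.1.eq_or_lt with h1 | h1
  · rw [← h1, A.h₁.s]
    exact ⟨le_rfl, A.h₁.hτ.le⟩
  · rcases ht.2.eq_or_lt with h2 | h2
    · rw [h2, A.h₁.e]
      exact ⟨A.h₁.hτ.le, le_rfl⟩
    · have := A.h₁.m t ⟨h1, h2⟩
      exact ⟨this.1.le, this.2.le⟩

theorem isOpen_reg : IsOpen (reg c₁ c₁' a₁ b₁ c₂ c₂' a₂ b₂ τ₁ τ₂) := by
  rw [isOpen_iff_mem_nhds]
  rintro q ⟨h1, h2, h3, h4⟩
  filter_upwards [A.h₁.H_loc h1 h2, A.h₂.H_loc h1 h3] with w hw₁ hw₂
  exact ⟨hw₁.1, hw₁.2.1, hw₂.2.1, by rw [hw₁.2.2, hw₂.2.2, h4]⟩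

theorem bd_eq {q : ℂ} (h1 : q ∉ c₁ '' Icc a₁ b₁) (h2 : q ∉ c₂ '' Icc a₂ b₂) (h3 : q.re ≠ τ₁)
    (h4 : q.re ≠ τ₂) (B : Below c₁ c₁' a₁ b₁ c₂ c₂' a₂ b₂) :
    bd c₁ c₁' a₁ b₁ c₂ c₂' a₂ b₂ q =
      (reg c₁ c₁' a₁ b₁ c₂ c₂' a₂ b₂ τ₁ τ₂).indicator (fun _ => 2 * π * Complex.I) q := by
  have ra : ∀ t, (sg (c₁ a₁) (c₂ a₂) t).re = τ₁ := fun t => by
    rw [sg_re A.re_a, A.h₁.s]
  have rb : ∀ t, (sg (c₁ b₁) (c₂ b₂) t).re = τ₂ := fun t => by
    rw [sg_re A.re_b, A.h₁.e]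
  rcases lt_or_gt_of_ne h3 with h3 | h3
  · -- on the left
    have hτ := A.h₁.hτ
    have hn : q ∉ reg c₁ c₁' a₁ b₁ c₂ c₂' a₂ b₂ τ₁ τ₂ := fun h => by
      have := h.1.1
      linarith
    rw [indicator_of_notMem hn, bd,
      arcJ_right A.h₁.hc A.h₁.hc' A.h₁.hab.le (fun t ht => h3.trans_le (A.re_mem₁ ht).1),
      arcJ_right A.h₂.hc A.h₂.hc' A.h₂.hab.le (fun t ht => h3.trans_le (A.symm.re_mem₁ ht).1),
      arcJ_right (hasDerivAt_sg (c₁ a₁) (c₂ a₂)) continuous_const zero_le_one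
        (fun t _ => by rw [ra]; exact h3),
      arcJ_right (hasDerivAt_sg (c₁ b₁) (c₂ b₂)) continuous_const zero_le_one
        (fun t _ => by rw [rb]; linarith), sg_zero, sg_one, sg_zero, sg_one]
    ring
  rcases lt_or_gt_of_ne h4 with h4 | h4
  · -- in the strip
    have hq : q ∈ St τ₁ τ₂ := ⟨h3, h4⟩
    have e : bd c₁ c₁' a₁ b₁ c₂ c₂' a₂ b₂ q =
        arcH c₁ c₁' a₁ b₁ q - arcH c₂ c₂' a₂ b₂ q := by
      rw [bd, arcH, arcH, arcJ_left (hasDerivAt_sg (c₁ a₁) (c₂ a₂)) continuous_const zero_le_one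
        (fun t _ => by rw [ra]; exact h3),
        arcJ_right (hasDerivAt_sg (c₁ b₁) (c₂ b₂)) continuous_const zero_le_one
        (fun t _ => by rw [rb]; exact h4), sg_zero, sg_one, sg_zero, sg_one]
      ring
    rw [e]
    rcases A.diff B hq h1 h2 with h5 | h5
    · have hn : q ∉ reg c₁ c₁' a₁ b₁ c₂ c₂' a₂ b₂ τ₁ τ₂ := fun h => by
        have h6 := h.2.2.2
        rw [h5] at h6
        have : (2 : ℂ) * π * Complex.I ≠ 0 := by simp [Real.pi_ne_zero]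
        exact this h6.symm
      rw [indicator_of_notMem hn, h5]
    · have hm : q ∈ reg c₁ c₁' a₁ b₁ c₂ c₂' a₂ b₂ τ₁ τ₂ := ⟨hq, h1, h2, h5⟩
      rw [indicator_of_mem hm, h5]
  · -- on the right
    have hτ := A.h₁.hτ
    have hn : q ∉ reg c₁ c₁' a₁ b₁ c₂ c₂' a₂ b₂ τ₁ τ₂ := fun h => by
      have := h.1.2
      linarith
    rw [indicator_of_notMem hn, bd,
      arcJ_left A.h₁.hc A.h₁.hc' A.h₁.hab.le (fun t ht => (A.re_mem₁ ht).2.trans_lt h4),
      arcJ_left A.h₂.hc A.h₂.hc' A.h₂.hab.le (fun t ht => (A.symm.re_mem₁ ht).2.trans_lt h4),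
      arcJ_left (hasDerivAt_sg (c₁ a₁) (c₂ a₂)) continuous_const zero_le_one
        (fun t _ => by rw [ra]; linarith),
      arcJ_left (hasDerivAt_sg (c₁ b₁) (c₂ b₂)) continuous_const zero_le_one
        (fun t _ => by rw [rb]; exact h4), sg_zero, sg_one, sg_zero, sg_one]
    ring

/-- the area of the region -/
theorem area_reg (B : Below c₁ c₁' a₁ b₁ c₂ c₂' a₂ b₂) {R : ℝ} (hR₁ : ∀ t ∈ Icc a₁ b₁, ‖c₁ t‖ < R)
    (hR₂ : ∀ t ∈ Icc a₂ b₂, ‖c₂ t‖ < R) :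
    volume.real (ball (0 : ℂ) R ∩ reg c₁ c₁' a₁ b₁ c₂ c₂' a₂ b₂ τ₁ τ₂) =
      (∫ t in a₂..b₂, (c₂ t).im * (c₂' t).re) - ∫ t in a₁..b₁, (c₁ t).im * (c₁' t).re := by
  have la₁ : a₁ ∈ Icc a₁ b₁ := ⟨le_rfl, A.h₁.hab.le⟩
  have lb₁ : b₁ ∈ Icc a₁ b₁ := ⟨A.h₁.hab.le, le_rfl⟩
  have la₂ : a₂ ∈ Icc a₂ b₂ := ⟨le_rfl, A.h₂.hab.le⟩
  have lb₂ : b₂ ∈ Icc a₂ b₂ := ⟨A.h₂.hab.le, le_rfl⟩
  have f1 := area_formula_arc A.h₁.cont A.h₁.hc' A.h₁.hab.le hR₁
  have f2 := area_formula_arc A.h₂.cont A.h₂.hc' A.h₂.hab.le hR₂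
  have hsc : ∀ P Q : ℂ, Continuous (sg P Q) := fun P Q =>
    continuous_iff_continuousAt.2 fun t => (hasDerivAt_sg P Q t).continuousAt
  have f3 := area_formula_arc (x := sg (c₁ b₁) (c₂ b₂)) (x' := fun _ => c₂ b₂ - c₁ b₁)
    (hsc _ _) continuous_const zero_le_one
    (fun t ht => sg_norm (hR₁ b₁ lb₁) (hR₂ b₂ lb₂) ht)
  have f4 := area_formula_arc (x := sg (c₁ a₁) (c₂ a₂)) (x' := fun _ => c₂ a₂ - c₁ a₁)
    (hsc _ _) continuous_const zero_le_one
    (fun t ht => sg_norm (hR₁ a₁ la₁) (hR₂ a₂ la₂) ht)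
  have hsum : ∫ q in ball (0 : ℂ) R, bd c₁ c₁' a₁ b₁ c₂ c₂' a₂ b₂ q =
      2 * π * Complex.I * (((∫ t in a₂..b₂, (c₂ t).im * (c₂' t).re) -
        ∫ t in a₁..b₁, (c₁ t).im * (c₁' t).re : ℝ) : ℂ) := by
    have i13 : IntegrableOn (fun q => arcJ c₁ c₁' a₁ b₁ q +
        arcJ (sg (c₁ b₁) (c₂ b₂)) (fun _ => c₂ b₂ - c₁ b₁) 0 1 q) (ball (0 : ℂ) R) :=
      f1.1.add f3.1
    have i132 : IntegrableOn (fun q => arcJ c₁ c₁' a₁ b₁ q +
        arcJ (sg (c₁ b₁) (c₂ b₂)) (fun _ => c₂ b₂ - c₁ b₁) 0 1 q - arcJ c₂ c₂' a₂ b₂ q)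
        (ball (0 : ℂ) R) := i13.sub f2.1
    simp only [bd]
    rw [integral_sub i132 f4.1, integral_sub i13 f2.1,
      integral_add f1.1 f3.1, f1.2, f2.2, f3.2, f4.2]
    simp only [sg_area A.re_a, sg_area A.re_b]
    rw [area_eq_arc A.h₁.hc A.h₁.hc', area_eq_arc A.h₂.hc A.h₂.hc']
    push_cast
    ring
  have hae : ∀ᵐ q ∂(volume.restrict (ball (0 : ℂ) R)), bd c₁ c₁' a₁ b₁ c₂ c₂' a₂ b₂ q =
      (reg c₁ c₁' a₁ b₁ c₂ c₂' a₂ b₂ τ₁ τ₂).indicator (fun _ => 2 * π * Complex.I) q := by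
    refine ae_restrict_of_ae ?_
    have n1 : ∀ᵐ q : ℂ, q ∉ range c₁ := by
      rw [ae_iff]
      simp only [not_not]
      exact volume_range_eq_zero A.h₁.hc
    have n2 : ∀ᵐ q : ℂ, q ∉ range c₂ := by
      rw [ae_iff]
      simp only [not_not]
      exact volume_range_eq_zero A.h₂.hc
    have n3 : ∀ᵐ q : ℂ, q.re ≠ τ₁ := by
      rw [ae_iff]
      simp only [ne_eq, not_not]
      exact volume_re_eq τ₁
    have n4 : ∀ᵐ q : ℂ, q.re ≠ τ₂ := by
      rw [ae_iff]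
      simp only [ne_eq, not_not]
      exact volume_re_eq τ₂
    filter_upwards [n1, n2, n3, n4] with q h1 h2 h3 h4
    exact A.bd_eq (fun h => h1 (image_subset_range _ _ h)) (fun h => h2 (image_subset_range _ _ h))
      h3 h4 B
  rw [integral_congr_ae hae, setIntegral_indicator A.isOpen_reg.measurableSet, setIntegral_const,
    Complex.real_smul] at hsum
  have h2pi : (2 : ℂ) * π * Complex.I ≠ 0 := by simp [Real.pi_ne_zero]
  have h5 : ((volume.real (ball (0 : ℂ) R ∩ reg c₁ c₁' a₁ b₁ c₂ c₂' a₂ b₂ τ₁ τ₂) : ℝ) : ℂ) =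
      (((∫ t in a₂..b₂, (c₂ t).im * (c₂' t).re) -
        ∫ t in a₁..b₁, (c₁ t).im * (c₁' t).re : ℝ) : ℂ) := by
    have := mul_right_cancel₀ h2pi (hsum.trans (mul_comm _ _))
    exact this
  exact_mod_cast h5

/-- the region is large -/
theorem le_area_reg (B : Below c₁ c₁' a₁ b₁ c₂ c₂' a₂ b₂) {R : ℝ}
    (hR₁ : ∀ t ∈ Icc a₁ b₁, ‖c₁ t‖ < R) (hR₂ : ∀ t ∈ Icc a₂ b₂, ‖c₂ t‖ < R) {ε : ℝ} (hε : 0 < ε)
    (sep : ∀ s ∈ Icc a₁ b₁, ∀ t ∈ Icc a₂ b₂, (c₁ s).re = (c₂ t).re →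
      ε ≤ |(c₁ s).im - (c₂ t).im|) :
    ε * (τ₂ - τ₁) ≤ volume.real (ball (0 : ℂ) R ∩ reg c₁ c₁' a₁ b₁ c₂ c₂' a₂ b₂ τ₁ τ₂) := by
  set U := ball (0 : ℂ) R ∩ reg c₁ c₁' a₁ b₁ c₂ c₂' a₂ b₂ τ₁ τ₂ with hU
  have hUm : MeasurableSet U := (isOpen_ball.inter A.isOpen_reg).measurableSet
  have hUfin : volume U ≠ ∞ := measure_ne_top_of_subset inter_subset_left measure_ball_lt_top.ne
  have e1 : volume U = volume (Complex.measurableEquivRealProd.symm ⁻¹' U) :=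
    (Complex.volume_preserving_equiv_real_prod.symm.measure_preimage
      hUm.nullMeasurableSet).symm
  have hVm : MeasurableSet (Complex.measurableEquivRealProd.symm ⁻¹' U) :=
    Complex.measurableEquivRealProd.symm.measurable hUm
  have e2 : volume (Complex.measurableEquivRealProd.symm ⁻¹' U) =
      ∫⁻ x, volume (Prod.mk x ⁻¹' (Complex.measurableEquivRealProd.symm ⁻¹' U)) := by
    rw [Measure.volume_eq_prod, Measure.prod_apply hVm]
  have e3 : ∫⁻ _ in Ioo τ₁ τ₂, ENNReal.ofReal ε ≤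
      ∫⁻ x, volume (Prod.mk x ⁻¹' (Complex.measurableEquivRealProd.symm ⁻¹' U)) := by
    refine le_trans ?_ (setLIntegral_le_lintegral (Ioo τ₁ τ₂) _)
    refine setLIntegral_mono' measurableSet_Ioo fun x hx => ?_
    obtain ⟨s, hs, t, ht, hsx, htx, hgap⟩ := A.gap B hx
    have h1 := sep s hs t ht (by rw [hsx, htx])
    have h2 : Ioo (min (c₁ s).im (c₂ t).im) (max (c₁ s).im (c₂ t).im) ⊆
        Prod.mk x ⁻¹' (Complex.measurableEquivRealProd.symm ⁻¹' U) := by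
      intro y hy
      obtain ⟨g1, g2, g3⟩ := hgap y hy
      have hmem : Complex.measurableEquivRealProd.symm (x, y) = (⟨x, y⟩ : ℂ) := rfl
      show Complex.measurableEquivRealProd.symm (x, y) ∈ U
      rw [hmem]
      refine ⟨?_, hx, g1, g2, g3⟩
      -- in the ball, by convexity
      have b1 : c₁ s ∈ ball (0 : ℂ) R := by rw [mem_ball_iff_norm, sub_zero]; exact hR₁ s hs
      have b2 : c₂ t ∈ ball (0 : ℂ) R := by rw [mem_ball_iff_norm, sub_zero]; exact hR₂ t ht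
      have habs : (⟨x, y⟩ : ℂ).im ^ 2 ≤ max ((c₁ s).im ^ 2) ((c₂ t).im ^ 2) := by
        show y ^ 2 ≤ _
        rcases le_total (c₁ s).im (c₂ t).im with hle | hle
        · rw [min_eq_left hle, max_eq_right hle] at hy
          rcases le_total 0 y with h0 | h0
          · exact le_max_of_le_right (by nlinarith [hy.2])
          · exact le_max_of_le_left (by nlinarith [hy.1])
        · rw [min_eq_right hle, max_eq_left hle] at hy
          rcases le_total 0 y with h0 | h0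
          · exact le_max_of_le_left (by nlinarith [hy.2])
          · exact le_max_of_le_right (by nlinarith [hy.1])
      have hR0 : 0 < R := (norm_nonneg _).trans_lt (hR₁ s hs)
      have hsq : ∀ {z : ℂ}, ‖z‖ < R ↔ z.re ^ 2 + z.im ^ 2 < R ^ 2 := by
        intro z
        rw [← sq_lt_sq₀ (norm_nonneg z) hR0.le, Complex.sq_norm, Complex.normSq_apply]
        simp only [pow_two]
      rw [mem_ball_iff_norm, sub_zero, hsq]
      rw [mem_ball_iff_norm, sub_zero, hsq, hsx] at b1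
      rw [mem_ball_iff_norm, sub_zero, hsq, htx] at b2
      have hre : (⟨x, y⟩ : ℂ).re = x := rfl
      rw [hre]
      rcases max_cases ((c₁ s).im ^ 2) ((c₂ t).im ^ 2) with hm | hm
      · rw [hm.1] at habs; linarith
      · rw [hm.1] at habs; linarith
    refine le_trans ?_ (measure_mono h2)
    rw [Real.volume_Ioo]
    refine ENNReal.ofReal_le_ofReal ?_
    rw [max_sub_min_eq_abs]
    rwa [abs_sub_comm]
  rw [setLIntegral_const, Real.volume_Ioo, ← ENNReal.ofReal_mul hε.le] at e3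
  rw [← e2, ← e1] at e3
  rw [measureReal_def]
  exact (ENNReal.ofReal_le_iff_le_toReal hUfin).1 e3

end Arcs

/-- **Two disjoint arcs that cross a strip: the area between them.** -/
theorem two_arcs {c₁ c₁' c₂ c₂' : ℝ → ℂ}
    (h₁ : ∀ t, HasDerivAt c₁ (c₁' t) t) (h₂ : ∀ t, HasDerivAt c₂ (c₂' t) t)
    (k₁ : Continuous c₁') (k₂ : Continuous c₂') (r₁ : ∀ t, c₁' t ≠ 0) (r₂ : ∀ t, c₂' t ≠ 0)
    {a₁ b₁ a₂ b₂ τ₁ τ₂ ε : ℝ} (hε : 0 < ε) (hτ : τ₁ < τ₂) (hab₁ : a₁ < b₁) (hab₂ : a₂ < b₂)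
    (i₁ : InjOn c₁ (Icc a₁ b₁)) (i₂ : InjOn c₂ (Icc a₂ b₂))
    (s₁ : (c₁ a₁).re = τ₁) (e₁ : (c₁ b₁).re = τ₂) (s₂ : (c₂ a₂).re = τ₁) (e₂ : (c₂ b₂).re = τ₂)
    (m₁ : ∀ t ∈ Ioo a₁ b₁, (c₁ t).re ∈ Ioo τ₁ τ₂) (m₂ : ∀ t ∈ Ioo a₂ b₂, (c₂ t).re ∈ Ioo τ₁ τ₂)
    (sep : ∀ s ∈ Icc a₁ b₁, ∀ t ∈ Icc a₂ b₂, (c₁ s).re = (c₂ t).re →
      ε ≤ |(c₁ s).im - (c₂ t).im|) :
    ε * (τ₂ - τ₁) ≤ |(∫ t in a₁..b₁, (c₁ t).im * (c₁' t).re) -
      ∫ t in a₂..b₂, (c₂ t).im * (c₂' t).re| := by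
  have A : Arcs c₁ c₁' a₁ b₁ c₂ c₂' a₂ b₂ τ₁ τ₂ := {
    h₁ := ⟨hab₁, hτ, h₁, k₁, r₁, i₁, s₁, e₁, m₁⟩
    h₂ := ⟨hab₂, hτ, h₂, k₂, r₂, i₂, s₂, e₂, m₂⟩
    dj := fun s hs t ht h => by
      have := sep s hs t ht (by rw [h])
      rw [h, sub_self, abs_zero] at this
      linarith }
  obtain ⟨M₁, -, hM₁⟩ := A.h₁.exists_bound
  obtain ⟨M₂, -, hM₂⟩ := A.h₂.exists_bound
  have g₁ : ∀ t ∈ Icc a₁ b₁, ‖c₁ t‖ < max M₁ M₂ := fun t ht => lt_max_of_lt_left (hM₁ t ht)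
  have g₂ : ∀ t ∈ Icc a₂ b₂, ‖c₂ t‖ < max M₁ M₂ := fun t ht => lt_max_of_lt_right (hM₂ t ht)
  rcases A.order with B | B
  · have h1 := A.area_reg B g₁ g₂
    have h2 := A.le_area_reg B g₁ g₂ hε sep
    rw [h1] at h2
    rw [abs_sub_comm]
    exact h2.trans (le_abs_self _)
  · have h1 := A.symm.area_reg B g₂ g₁
    have h2 := A.symm.le_area_reg B g₂ g₁ hε fun s hs t ht h => by
      rw [abs_sub_comm]
      exact sep t ht s hs h.symm
    rw [h1] at h2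
    exact h2.trans (le_abs_self _)

end Vale.Agent.P220.R2.H481
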