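import Mathlib

/-!
# The area formula with winding numbers
-/

open Filter Topology Set MeasureTheory Metric
open scoped ComplexConjugate Real ENNReal

namespace Vale.Agent.P220.R2.H481

theorem lintegral_inv_ball (ρ : ℝ) :
    ∫⁻ p in ball (0 : ℂ) ρ, ENNReal.ofReal ‖p‖⁻¹ ≤ ENNReal.ofReal ρ * ENNReal.ofReal (2 * π) := by
  rw [← lintegral_indicator measurableSet_ball, ← Complex.lintegral_comp_polarCoord_symm]
  have h1 : ∀ p ∈ polarCoord.target, ENNReal.ofReal p.1 •
      (ball (0 : ℂ) ρ).indicator (fun p => ENNReal.ofReal ‖p‖⁻¹) (Complex.polarCoord.symm p) ≤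
      (Ioo (0 : ℝ) ρ ×ˢ Ioo (-π) π).indicator (fun _ => (1 : ℝ≥0∞)) p := by
    rintro p hp
    rw [polarCoord_target] at hp
    have hp1 : 0 < p.1 := hp.1
    by_cases hb : Complex.polarCoord.symm p ∈ ball (0 : ℂ) ρ
    · rw [indicator_of_mem hb, Complex.norm_polarCoord_symm, abs_of_pos hp1]
      rw [mem_ball_zero_iff, Complex.norm_polarCoord_symm, abs_of_pos hp1] at hb
      rw [indicator_of_mem (show p ∈ Ioo (0 : ℝ) ρ ×ˢ Ioo (-π) π from ⟨⟨hp1, hb⟩, hp.2⟩),
        smul_eq_mul, ← ENNReal.ofReal_mul hp1.le, mul_inv_cancel₀ hp1.ne', ENNReal.ofReal_one]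
    · rw [indicator_of_notMem hb, smul_zero]
      exact zero_le
  refine (setLIntegral_mono' polarCoord.open_target.measurableSet h1).trans ?_
  refine (setLIntegral_le_lintegral _ _).trans ?_
  rw [lintegral_indicator (measurableSet_Ioo.prod measurableSet_Ioo), setLIntegral_one,
    Measure.volume_eq_prod, Measure.prod_prod, Real.volume_Ioo, Real.volume_Ioo]
  rw [sub_zero, show π - -π = 2 * π by ring]

theorem lintegral_inv_le {z : ℂ} {R : ℝ} (hz : ‖z‖ < R) :
    ∫⁻ q in ball (0 : ℂ) R, ENNReal.ofReal ‖(z - q)⁻¹‖ ≤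
      ENNReal.ofReal (2 * R) * ENNReal.ofReal (2 * π) := by
  refine le_trans ?_ (lintegral_inv_ball (2 * R))
  rw [← lintegral_indicator measurableSet_ball, ← lintegral_indicator measurableSet_ball]
  refine le_of_le_of_eq ?_ (lintegral_sub_left_eq_self
    ((ball (0 : ℂ) (2 * R)).indicator fun p => ENNReal.ofReal ‖p‖⁻¹) z)
  refine lintegral_mono fun q => ?_
  by_cases hq : q ∈ ball (0 : ℂ) R
  · have h2 : z - q ∈ ball (0 : ℂ) (2 * R) := by
      rw [mem_ball_zero_iff] at hq ⊢
      have := norm_sub_le z q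
      linarith
    rw [indicator_of_mem hq, indicator_of_mem h2, norm_inv]
  · rw [indicator_of_notMem hq]
    exact zero_le

theorem integrableOn_inv {z : ℂ} {R : ℝ} (hz : ‖z‖ < R) :
    IntegrableOn (fun q => (z - q)⁻¹) (ball (0 : ℂ) R) := by
  refine ⟨?_, ?_⟩
  · exact (measurable_const.sub measurable_id).inv.aestronglyMeasurable
  · rw [hasFiniteIntegral_iff_norm]
    exact (lintegral_inv_le hz).trans_lt (ENNReal.mul_lt_top ENNReal.ofReal_lt_top
      ENNReal.ofReal_lt_top)

theorem integral_norm_inv_le {z : ℂ} {R : ℝ} (hz : ‖z‖ < R) :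
    ∫ q in ball (0 : ℂ) R, ‖(z - q)⁻¹‖ ≤ 2 * R * (2 * π) := by
  have hR : 0 < R := (norm_nonneg z).trans_lt hz
  rw [integral_eq_lintegral_of_nonneg_ae (Eventually.of_forall fun _ => norm_nonneg _)
    (measurable_const.sub measurable_id).inv.norm.aestronglyMeasurable]
  refine ENNReal.toReal_le_of_le_ofReal (by positivity) ?_
  rw [ENNReal.ofReal_mul (by positivity)]
  exact lintegral_inv_le hz

/-- the distance from `0` to the boundary of `ball z R` in the direction `θ` -/
noncomputable def rad (z : ℂ) (R θ : ℝ) : ℝ :=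
  (z * Complex.exp (-(θ * Complex.I))).re +
    Real.sqrt (R ^ 2 - (z * Complex.exp (-(θ * Complex.I))).im ^ 2)

theorem continuous_rad (z : ℂ) (R : ℝ) : Continuous (rad z R) := by
  unfold rad
  fun_prop

theorem norm_exp_neg (θ : ℝ) : ‖Complex.exp (-(θ * Complex.I))‖ = 1 := by
  rw [Complex.norm_exp]
  simp

theorem sq_lt {z : ℂ} {R : ℝ} (hz : ‖z‖ < R) (θ : ℝ) :
    (z * Complex.exp (-(θ * Complex.I))).re ^ 2 + (z * Complex.exp (-(θ * Complex.I))).im ^ 2 <
      R ^ 2 := by
  have h1 : ‖z * Complex.exp (-(θ * Complex.I))‖ ^ 2 = ‖z‖ ^ 2 := by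
    rw [norm_mul, norm_exp_neg, mul_one]
  have h2 := Complex.sq_norm (z * Complex.exp (-(θ * Complex.I)))
  rw [Complex.normSq_apply] at h2
  have h3 : ‖z‖ ^ 2 < R ^ 2 := pow_lt_pow_left₀ hz (norm_nonneg z) two_ne_zero
  nlinarith

theorem rad_pos {z : ℂ} {R : ℝ} (hz : ‖z‖ < R) (θ : ℝ) : 0 < rad z R θ := by
  have h1 := sq_lt hz θ
  unfold rad
  set a := (z * Complex.exp (-(θ * Complex.I))).re
  set b := (z * Complex.exp (-(θ * Complex.I))).im
  have h2 : |a| < Real.sqrt (R ^ 2 - b ^ 2) := by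
    rw [← Real.sqrt_sq_eq_abs]
    exact Real.sqrt_lt_sqrt (sq_nonneg a) (by linarith)
  have := neg_abs_le a
  linarith

theorem mem_ball_iff_lt_rad {z : ℂ} {R : ℝ} (hz : ‖z‖ < R) {r : ℝ} (hr : 0 < r) (θ : ℝ) :
    (r : ℂ) * Complex.exp (θ * Complex.I) ∈ ball z R ↔ r < rad z R θ := by
  have hR : 0 < R := (norm_nonneg z).trans_lt hz
  have h1 := sq_lt hz θ
  unfold rad
  set w := z * Complex.exp (-(θ * Complex.I)) with hw
  have h2 : ‖(r : ℂ) * Complex.exp (θ * Complex.I) - z‖ = ‖(r : ℂ) - w‖ := by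
    have e1 : (r : ℂ) - w = ((r : ℂ) * Complex.exp (θ * Complex.I) - z) *
        Complex.exp (-(θ * Complex.I)) := by
      rw [sub_mul, mul_assoc, ← Complex.exp_add, add_neg_cancel, Complex.exp_zero, mul_one]
    rw [e1, norm_mul, norm_exp_neg, mul_one]
  have h3 : ‖(r : ℂ) - w‖ ^ 2 = (r - w.re) ^ 2 + w.im ^ 2 := by
    rw [Complex.sq_norm, Complex.normSq_apply]
    simp
    ring
  rw [mem_ball_iff_norm, h2]
  set s := Real.sqrt (R ^ 2 - w.im ^ 2) with hs
  have hs2 : s ^ 2 = R ^ 2 - w.im ^ 2 := Real.sq_sqrt (by nlinarith [sq_nonneg w.re])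
  have hs0 : 0 ≤ s := Real.sqrt_nonneg _
  have hsa : |w.re| < s := by
    rw [← Real.sqrt_sq_eq_abs]
    exact Real.sqrt_lt_sqrt (sq_nonneg _) (by linarith)
  have hsa' := abs_lt.1 hsa
  constructor
  · intro h
    have h4 : ‖(r : ℂ) - w‖ ^ 2 < R ^ 2 := pow_lt_pow_left₀ h (norm_nonneg _) two_ne_zero
    rw [h3] at h4
    have h5 : |r - w.re| < s := abs_lt_of_sq_lt_sq (by linarith) hs0
    have := (abs_lt.1 h5).2
    linarith
  · intro h
    have h5 : |r - w.re| < s := by
      rw [abs_lt]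
      constructor <;> linarith [hsa'.1, hsa'.2]
    have h6 : (r - w.re) ^ 2 < s ^ 2 := sq_lt_sq' (by linarith [(abs_lt.1 h5).1]) (abs_lt.1 h5).2
    refine lt_of_pow_lt_pow_left₀ 2 hR.le ?_
    rw [h3]
    linarith

theorem exp_sq_int (z : ℂ) (R : ℝ) :
    ∫ θ in (-π)..π, ((rad z R θ : ℝ) : ℂ) * Complex.exp (-(θ * Complex.I)) = π * conj z := by
  set s : ℝ → ℝ := fun θ => Real.sqrt (R ^ 2 - (z * Complex.exp (-(θ * Complex.I))).im ^ 2) with hs
  have hsc : Continuous s := by
    rw [hs]
    fun_prop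
  have hexp : Continuous fun θ : ℝ => Complex.exp (-(θ * Complex.I)) := by fun_prop
  have hrad : ∀ θ : ℝ, ((rad z R θ : ℝ) : ℂ) * Complex.exp (-(θ * Complex.I)) =
      (1 / 2) * (z * Complex.exp (-(2 * θ * Complex.I)) + conj z) +
        (s θ : ℂ) * Complex.exp (-(θ * Complex.I)) := by
    intro θ
    have e1 : (((z * Complex.exp (-(θ * Complex.I))).re : ℝ) : ℂ) =
        (1 / 2) * (z * Complex.exp (-(θ * Complex.I)) + conj z * Complex.exp (θ * Complex.I)) := by
      rw [Complex.re_eq_add_conj]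
      rw [map_mul, ← Complex.exp_conj]
      simp only [map_neg, map_mul, Complex.conj_ofReal, Complex.conj_I]
      rw [show -((θ : ℂ) * -Complex.I) = θ * Complex.I by ring]
      ring
    have e2 : Complex.exp (-(θ * Complex.I)) * Complex.exp (-(θ * Complex.I)) =
        Complex.exp (-(2 * θ * Complex.I)) := by
      rw [← Complex.exp_add]
      congr 1
      ring
    have e3 : Complex.exp (θ * Complex.I) * Complex.exp (-(θ * Complex.I)) = 1 := by
      rw [← Complex.exp_add, add_neg_cancel, Complex.exp_zero]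
    rw [rad, Complex.ofReal_add, e1]
    linear_combination (1 / 2) * z * e2 + (1 / 2) * conj z * e3
  simp only [hrad]
  have hc1 : Continuous fun θ : ℝ => (1 / 2 : ℂ) * (z * Complex.exp (-(2 * θ * Complex.I)) + conj z) := by
    fun_prop
  have hc2 : Continuous fun θ : ℝ => (s θ : ℂ) * Complex.exp (-(θ * Complex.I)) :=
    (Complex.continuous_ofReal.comp hsc).mul hexp
  rw [intervalIntegral.integral_add (hc1.intervalIntegrable _ _) (hc2.intervalIntegrable _ _)]
  -- the first integral
  have h1 : ∫ θ in (-π)..π, (1 / 2 : ℂ) * (z * Complex.exp (-(2 * θ * Complex.I)) + conj z) =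
      π * conj z := by
    have hd : ∀ θ ∈ uIcc (-π) π, HasDerivAt (fun θ : ℝ => (1 / 2 : ℂ) *
        (z * (Complex.exp (-(2 * θ * Complex.I)) / (-(2 * Complex.I))) + conj z * θ))
        ((1 / 2 : ℂ) * (z * Complex.exp (-(2 * θ * Complex.I)) + conj z)) θ := by
      intro θ _
      have a1 : HasDerivAt (fun θ : ℝ => (θ : ℂ)) 1 θ := Complex.ofRealCLM.hasDerivAt
      have a2 : HasDerivAt (fun θ : ℝ => -(2 * (θ : ℂ) * Complex.I)) (-(2 * 1 * Complex.I)) θ :=
        ((a1.const_mul 2).mul_const Complex.I).neg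
      have a3 := ((a2.cexp.div_const (-(2 * Complex.I))).const_mul z).add (a1.const_mul (conj z))
      refine (a3.const_mul (1 / 2 : ℂ)).congr_deriv ?_
      have : Complex.I ≠ 0 := Complex.I_ne_zero
      field_simp
    rw [intervalIntegral.integral_eq_sub_of_hasDerivAt hd (hc1.intervalIntegrable _ _)]
    have b1 : Complex.exp (-(2 * (π : ℂ) * Complex.I)) = 1 := by
      rw [Complex.exp_neg, Complex.exp_two_pi_mul_I, inv_one]
    have b2 : Complex.exp (-(2 * ((-π : ℝ) : ℂ) * Complex.I)) = 1 := by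
      push_cast
      rw [show -(2 * -(π : ℂ) * Complex.I) = 2 * π * Complex.I by ring, Complex.exp_two_pi_mul_I]
    rw [b1, b2]
    push_cast
    ring
  -- the second integral
  have h2 : ∫ θ in (-π)..π, (s θ : ℂ) * Complex.exp (-(θ * Complex.I)) = 0 := by
    rw [← intervalIntegral.integral_add_adjacent_intervals (hc2.intervalIntegrable (-π) 0)
      (hc2.intervalIntegrable 0 π)]
    have e1 : ∀ θ : ℝ, Complex.exp (-(((θ - π : ℝ) : ℂ) * Complex.I)) =
        -Complex.exp (-(θ * Complex.I)) := by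
      intro θ
      push_cast
      rw [show -(((θ : ℂ) - π) * Complex.I) = -(θ * Complex.I) + π * Complex.I by ring,
        Complex.exp_add, Complex.exp_pi_mul_I]
      ring
    have e2 : ∀ θ : ℝ, s (θ - π) = s θ := by
      intro θ
      simp only [hs]
      rw [e1, mul_neg, Complex.neg_im, neg_sq]
    have e3 := intervalIntegral.integral_comp_sub_right
      (fun θ : ℝ => (s θ : ℂ) * Complex.exp (-(θ * Complex.I))) π (a := 0) (b := π)
    rw [zero_sub, sub_self] at e3
    rw [← e3]
    have e4 : ∀ θ : ℝ, ((s (θ - π) : ℝ) : ℂ) * Complex.exp (-(((θ - π : ℝ) : ℂ) * Complex.I)) =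
        -((s θ : ℂ) * Complex.exp (-(θ * Complex.I))) := by
      intro θ
      rw [e1, e2]
      ring
    simp only [e4]
    rw [intervalIntegral.integral_neg, neg_add_cancel]
  rw [h1, h2, add_zero]

/-- the Newtonian field of a disc -/
theorem integral_inv_ball {z : ℂ} {R : ℝ} (hz : ‖z‖ < R) :
    ∫ q in ball (0 : ℂ) R, (z - q)⁻¹ = π * conj z := by
  have hR : 0 < R := (norm_nonneg z).trans_lt hz
  rw [← integral_indicator measurableSet_ball]
  have h1 : (∫ q : ℂ, (ball (0 : ℂ) R).indicator (fun q => (z - q)⁻¹) q) =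
      ∫ p : ℂ, (ball z R).indicator (fun p => p⁻¹) p := by
    rw [← integral_sub_left_eq_self (fun q => (ball (0 : ℂ) R).indicator (fun q => (z - q)⁻¹) q)
      volume z]
    refine integral_congr_ae (Eventually.of_forall fun p => ?_)
    simp only
    by_cases hp : p ∈ ball z R
    · have hp' : z - p ∈ ball (0 : ℂ) R := by
        rw [mem_ball_zero_iff, norm_sub_rev]
        rwa [mem_ball_iff_norm] at hp
      rw [indicator_of_mem hp, indicator_of_mem hp', sub_sub_cancel]
    · have hp' : z - p ∉ ball (0 : ℂ) R := by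
        intro h
        rw [mem_ball_zero_iff, norm_sub_rev] at h
        exact hp (mem_ball_iff_norm.2 h)
      rw [indicator_of_notMem hp, indicator_of_notMem hp']
  rw [h1, ← Complex.integral_comp_polarCoord_symm, polarCoord_target]
  -- the integrand in polar coordinates
  set G : ℝ × ℝ → ℂ := fun p => if p.1 < rad z R p.2 then Complex.exp (-(p.2 * Complex.I)) else 0
    with hG
  have h2 : ∫ p in Ioi (0 : ℝ) ×ˢ Ioo (-π) π, p.1 • (ball z R).indicator (fun p => p⁻¹)
      (Complex.polarCoord.symm p) = ∫ p in Ioi (0 : ℝ) ×ˢ Ioo (-π) π, G p := by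
    refine setIntegral_congr_fun (measurableSet_Ioi.prod measurableSet_Ioo) ?_
    rintro ⟨r, θ⟩ ⟨hr, -⟩
    have hr' : (0 : ℝ) < r := hr
    have e1 : Complex.polarCoord.symm (r, θ) = (r : ℂ) * Complex.exp (θ * Complex.I) := by
      rw [Complex.polarCoord_symm_apply, Complex.exp_mul_I]
      simp
    simp only [hG]
    rw [e1]
    by_cases hb : (r : ℂ) * Complex.exp (θ * Complex.I) ∈ ball z R
    · rw [indicator_of_mem hb, if_pos ((mem_ball_iff_lt_rad hz hr' θ).1 hb), mul_inv,
        Complex.real_smul, Complex.exp_neg]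
      have : (r : ℂ) ≠ 0 := by exact_mod_cast hr'.ne'
      field_simp
    · rw [indicator_of_notMem hb, if_neg fun h => hb ((mem_ball_iff_lt_rad hz hr' θ).2 h),
        smul_zero]
  rw [h2]
  have hradc := continuous_rad z R
  have hrad2 : ∀ θ, rad z R θ ≤ 2 * R := by
    intro θ
    have h3 := sq_lt hz θ
    unfold rad
    set a := (z * Complex.exp (-(θ * Complex.I))).re
    set b := (z * Complex.exp (-(θ * Complex.I))).im
    have h4 : a ≤ R := by
      have : |a| ≤ R := abs_le_of_sq_le_sq (by nlinarith [sq_nonneg b]) hR.le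
      exact (le_abs_self a).trans this
    have h5 : Real.sqrt (R ^ 2 - b ^ 2) ≤ R := by
      rw [Real.sqrt_le_left hR.le]
      nlinarith [sq_nonneg b]
    linarith
  have hA : MeasurableSet {p : ℝ × ℝ | p.1 < rad z R p.2} :=
    (isOpen_lt continuous_fst (hradc.comp continuous_snd)).measurableSet
  have hGm : Measurable G := by
    refine Measurable.ite hA ?_ measurable_const
    fun_prop
  have hGb : ∀ p, ‖G p‖ ≤ 1 := by
    intro p
    simp only [hG]
    split_ifs
    · rw [norm_exp_neg]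
    · simp
  have hGi : IntegrableOn G (Ioi (0 : ℝ) ×ˢ Ioo (-π) π) := by
    have h3 : IntegrableOn G (Ioc (0 : ℝ) (2 * R) ×ˢ Ioo (-π) π) := by
      refine Measure.integrableOn_of_bounded (M := 1) ?_ hGm.aestronglyMeasurable
        (Eventually.of_forall hGb)
      rw [Measure.volume_eq_prod, Measure.prod_prod, Real.volume_Ioc, Real.volume_Ioo]
      exact (ENNReal.mul_lt_top ENNReal.ofReal_lt_top ENNReal.ofReal_lt_top).ne
    refine h3.of_forall_sdiff_eq_zero (measurableSet_Ioi.prod measurableSet_Ioo) ?_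
    rintro ⟨r, θ⟩ ⟨⟨hr, hθ⟩, hn⟩
    simp only [hG]
    rw [if_neg]
    intro hlt
    exact hn ⟨⟨hr, hlt.le.trans (hrad2 θ)⟩, hθ⟩
  rw [Measure.volume_eq_prod, ← Measure.prod_restrict, integral_prod_symm]
  swap
  · rw [Measure.prod_restrict, ← Measure.volume_eq_prod]
    exact hGi
  have hinner : ∀ θ : ℝ, ∫ r in Ioi (0 : ℝ), G (r, θ) =
      ((rad z R θ : ℝ) : ℂ) * Complex.exp (-(θ * Complex.I)) := by
    intro θ
    have e1 : (fun r => G (r, θ)) = (Iio (rad z R θ)).indicator
        fun _ => Complex.exp (-(θ * Complex.I)) := by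
      funext r
      simp only [hG, indicator, mem_Iio]
    rw [e1, setIntegral_indicator measurableSet_Iio, setIntegral_const, Ioi_inter_Iio,
      measureReal_def, Real.volume_Ioo, sub_zero, ENNReal.toReal_ofReal (rad_pos hz θ).le,
      Complex.real_smul]
  simp only [hinner]
  rw [← exp_sq_int z R, intervalIntegral.integral_of_le (by linarith [Real.pi_pos]),
    integral_Ioc_eq_integral_Ioo]

/-- **The area formula.** -/
theorem area_formula {x x' : ℝ → ℂ} {P R : ℝ} (hx : Continuous x) (hx' : Continuous x')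
    (hR : ∀ t, ‖x t‖ < R) (hP : 0 ≤ P) :
    IntegrableOn (fun q => ∫ t in (0 : ℝ)..P, x' t / (x t - q)) (ball (0 : ℂ) R) ∧
    ∫ q in ball (0 : ℂ) R, (∫ t in (0 : ℝ)..P, x' t / (x t - q)) =
      π * ∫ t in (0 : ℝ)..P, x' t * conj (x t) := by
  have hR0 : 0 < R := (norm_nonneg _).trans_lt (hR 0)
  set F : ℝ → ℂ → ℂ := fun t q => x' t / (x t - q) with hF
  have hFm : Measurable (Function.uncurry F) := by
    have h1 : Measurable fun p : ℝ × ℂ => x' p.1 := hx'.measurable.comp measurable_fst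
    have h2 : Measurable fun p : ℝ × ℂ => x p.1 - p.2 :=
      (hx.measurable.comp measurable_fst).sub measurable_snd
    exact h1.div h2
  obtain ⟨M, hM⟩ := (isCompact_Icc (a := (0 : ℝ)) (b := P)).exists_bound_of_continuousOn
    hx'.continuousOn
  have hFeq : ∀ t q, F t q = x' t * (x t - q)⁻¹ := fun t q => div_eq_mul_inv _ _
  have hint : Integrable (Function.uncurry F)
      ((volume.restrict (Ioc 0 P)).prod (volume.restrict (ball (0 : ℂ) R))) := by
    rw [integrable_prod_iff hFm.aestronglyMeasurable]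
    constructor
    · refine Eventually.of_forall fun t => ?_
      simp only [Function.uncurry, hFeq]
      exact (integrableOn_inv (hR t)).const_mul (x' t)
    · have h1 : AEStronglyMeasurable (fun t => ∫ q, ‖Function.uncurry F (t, q)‖
          ∂(volume.restrict (ball (0 : ℂ) R))) (volume.restrict (Ioc 0 P)) :=
        (hFm.norm.aestronglyMeasurable (μ := (volume.restrict (Ioc 0 P)).prod
          (volume.restrict (ball (0 : ℂ) R)))).integral_prod_right'
      refine Integrable.mono' (g := fun _ => |M| * (2 * R * (2 * π))) (integrable_const _) h1 ?_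
      refine (ae_restrict_iff' measurableSet_Ioc).2 (Eventually.of_forall fun t ht => ?_)
      have h2 : ∫ q in ball (0 : ℂ) R, ‖Function.uncurry F (t, q)‖ =
          ‖x' t‖ * ∫ q in ball (0 : ℂ) R, ‖(x t - q)⁻¹‖ := by
        rw [← integral_const_mul]
        refine integral_congr_ae (Eventually.of_forall fun q => ?_)
        simp only [Function.uncurry, hFeq, norm_mul]
      rw [h2, norm_mul, norm_norm]
      have h3 : 0 ≤ ∫ q in ball (0 : ℂ) R, ‖(x t - q)⁻¹‖ :=
        integral_nonneg fun _ => norm_nonneg _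
      rw [Real.norm_of_nonneg h3]
      exact mul_le_mul ((hM t ⟨ht.1.le, ht.2⟩).trans (le_abs_self M)) (integral_norm_inv_le (hR t))
        h3 (abs_nonneg _)
  have hswap := integral_integral_swap hint
  simp only [intervalIntegral.integral_of_le hP]
  constructor
  · exact hint.integral_prod_right
  · rw [← hswap, ← integral_const_mul]
    refine integral_congr_ae (Eventually.of_forall fun t => ?_)
    simp only [hFeq]
    rw [integral_const_mul, integral_inv_ball (hR t)]
    ring

end Vale.Agent.P220.R2.H481
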