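import Vale.Agent.P220.R2.H481.Side2
import Vale.Agent.P220.R2.H481.Area1

/-!
# A regular simple closed curve encloses a nonzero area
-/

open Filter Topology Set MeasureTheory Metric
open scoped ComplexConjugate Real ENNReal

namespace Vale.Agent.P220.R2.H481

variable {x x' : ℝ → ℂ} {P : ℝ}

theorem volume_range_eq_zero (hx : ∀ t, HasDerivAt x (x' t) t) : volume (range x) = 0 := by
  set f : ℂ → ℂ := fun w => x w.re with hf
  have hfd : Differentiable ℝ f := fun w =>
    (hx w.re).differentiableAt.comp w Complex.reCLM.differentiableAt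
  have h1 : volume (f '' (LinearMap.ker Complex.imLm : Submodule ℝ ℂ)) = 0 := by
    refine addHaar_image_eq_zero_of_differentiableOn_of_addHaar_eq_zero volume
      hfd.differentiableOn ?_
    refine Measure.addHaar_submodule volume _ ?_
    intro h
    have h2 : Complex.I ∈ (LinearMap.ker Complex.imLm : Submodule ℝ ℂ) := by
      rw [h]
      trivial
    rw [LinearMap.mem_ker] at h2
    simp at h2
  refine measure_mono_null ?_ h1
  rintro _ ⟨t, rfl⟩
  exact ⟨(t : ℂ), by simp, by simp [hf]⟩

/-- the two expressions of the area -/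
theorem area_eq (hx : ∀ t, HasDerivAt x (x' t) t) (hx' : Continuous x') (hper : x P = x 0) :
    ∫ t in (0 : ℝ)..P, x' t * conj (x t) =
      -(2 * Complex.I) * ((∫ t in (0 : ℝ)..P, (x t).im * (x' t).re : ℝ) : ℂ) := by
  have hxc : Continuous x := continuous_iff_continuousAt.2 fun t => (hx t).continuousAt
  have hre : ∀ t, HasDerivAt (fun t => (x t).re) (x' t).re t := fun t =>
    Complex.reCLM.hasFDerivAt.comp_hasDerivAt t (hx t)
  have him : ∀ t, HasDerivAt (fun t => (x t).im) (x' t).im t := fun t =>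
    Complex.imCLM.hasFDerivAt.comp_hasDerivAt t (hx t)
  have hof : ∀ {g : ℝ → ℝ} {g' t : ℝ}, HasDerivAt g g' t →
      HasDerivAt (fun t => ((g t : ℝ) : ℂ)) ((g' : ℝ) : ℂ) t := fun hg =>
    Complex.ofRealCLM.hasFDerivAt.comp_hasDerivAt _ hg
  have hd : ∀ t ∈ uIcc 0 P, HasDerivAt (fun t => ((((x t).re * (x t).re + (x t).im * (x t).im) / 2 : ℝ) : ℂ) +
      Complex.I * (((x t).re * (x t).im : ℝ) : ℂ))
      ((((x' t).re * (x t).re + (x' t).im * (x t).im : ℝ) : ℂ) +
        Complex.I * (((x' t).re * (x t).im + (x t).re * (x' t).im : ℝ) : ℂ)) t := by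
    intro t _
    have h1 := (((hre t).fun_mul (hre t)).fun_add ((him t).fun_mul (him t))).div_const 2
    have h2 := (hre t).fun_mul (him t)
    refine ((hof h1).fun_add ((hof h2).const_mul Complex.I)).congr_deriv ?_
    push_cast
    ring
  have hc1 : Continuous fun t => (x' t).re := Complex.continuous_re.comp hx'
  have hc2 : Continuous fun t => (x' t).im := Complex.continuous_im.comp hx'
  have hc3 : Continuous fun t => (x t).re := Complex.continuous_re.comp hxc
  have hc4 : Continuous fun t => (x t).im := Complex.continuous_im.comp hxc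
  have hcd : Continuous fun t => ((((x' t).re * (x t).re + (x' t).im * (x t).im : ℝ) : ℂ) +
        Complex.I * (((x' t).re * (x t).im + (x t).re * (x' t).im : ℝ) : ℂ)) := by
    fun_prop
  have h1 := intervalIntegral.integral_eq_sub_of_hasDerivAt hd (hcd.intervalIntegrable _ _)
  rw [hper, sub_self] at h1
  have h2 : ∀ t, x' t * conj (x t) = ((((x' t).re * (x t).re + (x' t).im * (x t).im : ℝ) : ℂ) +
        Complex.I * (((x' t).re * (x t).im + (x t).re * (x' t).im : ℝ) : ℂ)) +
        -(2 * Complex.I) * (((x t).im * (x' t).re : ℝ) : ℂ) := by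
    intro t
    apply Complex.ext
    · simp
    · simp
      ring
  simp only [h2]
  have hcc : Continuous fun t => -(2 * Complex.I) * (((x t).im * (x' t).re : ℝ) : ℂ) := by
    fun_prop
  rw [intervalIntegral.integral_add (hcd.intervalIntegrable _ _) (hcc.intervalIntegrable _ _), h1,
    zero_add, intervalIntegral.integral_const_mul, intervalIntegral.integral_ofReal]

/-- **A regular simple closed curve encloses a nonzero area.** -/
theorem SCC.area_ne (h : SCC x x' P) : ∫ t in (0 : ℝ)..P, (x t).im * (x' t).re ≠ 0 := by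
  intro h0
  have hz : ∫ t in (0 : ℝ)..P, x' t * conj (x t) = 0 := by
    rw [area_eq h.hx h.hx' h.per0, h0]
    simp
  obtain ⟨R₀, hR₀⟩ := h.compact_range.isBounded.exists_norm_le
  set R := |R₀| + 1 with hRdef
  have hR : ∀ t, ‖x t‖ < R := fun t => by
    linarith [hR₀ _ ⟨t, rfl⟩, le_abs_self R₀]
  obtain ⟨hi, hf⟩ := area_formula h.cont h.hx' hR h.hP.le
  rw [hz, mul_zero] at hf
  obtain ⟨c, hc, hvals, q₁, hq₁, hwq₁⟩ := h.two_values
  have hi' : IntegrableOn (wind x x' P) (ball (0 : ℂ) R) := hi
  have hf' : ∫ q in ball (0 : ℂ) R, wind x x' P q = 0 := hf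
  set g : ℂ → ℝ := fun q => (wind x x' P q / c).re with hg
  have hgi : IntegrableOn g (ball (0 : ℂ) R) := (hi'.div_const c).re
  have hgf : ∫ q in ball (0 : ℂ) R, g q = 0 := by
    have h1 : ∫ q in ball (0 : ℂ) R, wind x x' P q / c = 0 := by
      rw [integral_div, hf', zero_div]
    have h2 := integral_re (𝕜 := ℂ) (hi'.div_const c)
    simp only [RCLike.re_eq_complex_re] at h2
    rw [h1, Complex.zero_re] at h2
    exact h2
  have hval : ∀ q ∉ range x, g q = 0 ∨ g q = 1 := by
    intro q hq
    rcases hvals q hq with h1 | h1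
    · left
      simp [hg, h1]
    · right
      simp [hg, h1, hc]
  have hnn : 0 ≤ᵐ[volume.restrict (ball (0 : ℂ) R)] g := by
    have h1 : ∀ᵐ q : ℂ, q ∉ range x := by
      rw [ae_iff]
      simp only [not_not]
      exact volume_range_eq_zero h.hx
    refine ae_restrict_of_ae (h1.mono fun q hq => ?_)
    rcases hval q hq with h2 | h2
    · exact h2.ge
    · rw [h2]
      exact zero_le_one
  have hae := (setIntegral_eq_zero_iff_of_nonneg_ae hnn hgi).1 hgf
  -- an open set where `g = 1`
  have hq₁R : q₁ ∈ ball (0 : ℂ) R := by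
    by_contra hcon
    rw [mem_ball_iff_norm, not_lt] at hcon
    have := winding_zero_of_ball (q := q₁) (c := 0) h.hx h.hx' h.per0
      (fun t => by rw [sub_zero]; exact hR t) hcon
    rw [hwq₁] at this
    exact hc this
  have hev : ∀ᶠ q in 𝓝 q₁, q ∈ ball (0 : ℂ) R ∧ g q ≠ 0 := by
    filter_upwards [isOpen_ball.mem_nhds hq₁R, h.wind_loc hq₁] with q hq hq2
    refine ⟨hq, ?_⟩
    simp only [hg, hq2.2, hwq₁, div_self hc, Complex.one_re]
    exact one_ne_zero
  obtain ⟨U, hU, hUo, hqU⟩ := _root_.eventually_nhds_iff.1 hev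
  have hUpos : 0 < volume U := hUo.measure_pos volume ⟨q₁, hqU⟩
  have hU0 : volume U = 0 := by
    have h1 : ∀ᵐ q : ℂ, q ∈ ball (0 : ℂ) R → g q = 0 :=
      (ae_restrict_iff' measurableSet_ball).1 hae
    rw [ae_iff] at h1
    refine measure_mono_null (fun q hq => ?_) h1
    simp only [mem_ofPred_eq, not_forall]
    exact ⟨(hU q hq).1, (hU q hq).2⟩
  exact hUpos.ne' hU0

end Vale.Agent.P220.R2.H481
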