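import Vale.Agent.P220.R2.H481.Arc5

/-!
# Indices of arcs with cuts at the two ends
-/

open Filter Topology Set MeasureTheory Metric
open scoped ComplexConjugate Real ENNReal

namespace Vale.Agent.P220.R2.H481

/-- the index of an arc with cuts in the directions `u`, `v` at the two ends -/
noncomputable def idx (c c' : ℝ → ℂ) (a b : ℝ) (u v q : ℂ) : ℂ :=
  arcJ c c' a b q - Complex.log (u * (c b - q)) + Complex.log (v * (c a - q))

/-- the domain of `idx` -/
def idom (c : ℝ → ℂ) (a b : ℝ) (u v : ℂ) : Set ℂ :=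
  {q | q ∉ c '' Icc a b ∧ u * (c b - q) ∈ Complex.slitPlane ∧
    v * (c a - q) ∈ Complex.slitPlane}

theorem arcH_eq_idx (c c' : ℝ → ℂ) (a b : ℝ) (q : ℂ) :
    arcH c c' a b q = idx c c' a b 1 (-1) q := by
  rw [arcH, idx, one_mul, neg_one_mul, neg_sub]

theorem arcJ_ball {c c' : ℝ → ℂ} (hc : ∀ t, HasDerivAt c (c' t) t) (hc' : Continuous c')
    {a b : ℝ} (hab : a ≤ b) {q₀ q : ℂ} {ρ : ℝ} (hρ : ∀ t ∈ Icc a b, ρ < ‖c t - q₀‖)
    (hqρ : ‖q - q₀‖ ≤ ρ) :
    arcJ c c' a b q - arcJ c c' a b q₀ =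
      Complex.log ((c b - q) / (c b - q₀)) - Complex.log ((c a - q) / (c a - q₀)) := by
  have hcc : Continuous c := continuous_iff_continuousAt.2 fun t => (hc t).continuousAt
  have hρ0 : 0 ≤ ρ := (norm_nonneg _).trans hqρ
  have huI : uIcc a b = Icc a b := uIcc_of_le hab
  have hne : ∀ t ∈ Icc a b, c t - q ≠ 0 := fun t ht h0 => by
    have h1 := hρ t ht
    rw [sub_eq_zero.1 h0] at h1
    linarith
  have hnc : ∀ t ∈ Icc a b, c t - q₀ ≠ 0 := fun t ht h0 => by
    have h1 := hρ t ht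
    rw [h0, norm_zero] at h1
    linarith
  have hre : ∀ t ∈ Icc a b, 0 < ((c t - q) / (c t - q₀)).re := by
    intro t ht
    have hxc := hnc t ht
    have h1 : (c t - q) / (c t - q₀) = 1 + (q₀ - q) / (c t - q₀) := by
      field_simp
      ring
    have h2 : ‖(q₀ - q) / (c t - q₀)‖ < 1 := by
      rw [norm_div, div_lt_one (norm_pos_iff.2 hxc), norm_sub_rev q₀ q]
      exact lt_of_le_of_lt hqρ (hρ t ht)
    rw [h1, Complex.add_re, Complex.one_re]
    have := neg_abs_le ((q₀ - q) / (c t - q₀)).re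
    have := Complex.abs_re_le_norm ((q₀ - q) / (c t - q₀))
    linarith
  have hd : ∀ t ∈ uIcc a b, HasDerivAt (fun t => Complex.log ((c t - q) / (c t - q₀)))
      (c' t / (c t - q) - c' t / (c t - q₀)) t := by
    intro t ht
    rw [huI] at ht
    have hc' := hnc t ht
    have hq' := hne t ht
    have h1 := (((hc t).sub_const q).fun_div ((hc t).sub_const q₀) hc').clog_real
      (Or.inl (hre t ht))
    refine h1.congr_deriv ?_
    field_simp
  have i1 : IntervalIntegrable (fun t => c' t / (c t - q)) volume a b := by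
    refine ContinuousOn.intervalIntegrable ?_
    rw [huI]
    exact hc'.continuousOn.div (hcc.continuousOn.sub continuousOn_const) hne
  have i2 : IntervalIntegrable (fun t => c' t / (c t - q₀)) volume a b := by
    refine ContinuousOn.intervalIntegrable ?_
    rw [huI]
    exact hc'.continuousOn.div (hcc.continuousOn.sub continuousOn_const) hnc
  have key := intervalIntegral.integral_eq_sub_of_hasDerivAt hd (i1.sub i2)
  rw [arcJ, arcJ, ← intervalIntegral.integral_sub i1 i2]
  exact key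

theorem log_loc {u z₀ : ℂ} (h : u * z₀ ∈ Complex.slitPlane) :
    ∀ᶠ z in 𝓝 z₀, u * z ∈ Complex.slitPlane ∧
      Complex.log (u * z) - Complex.log (u * z₀) = Complex.log (z / z₀) := by
  have hu0 : u * z₀ ≠ 0 := Complex.slitPlane_ne_zero h
  have hz0 : z₀ ≠ 0 := right_ne_zero_of_mul hu0
  have hu : u ≠ 0 := left_ne_zero_of_mul hu0
  have c1 : ContinuousAt (fun z => Complex.log (u * z)) z₀ :=
    ContinuousAt.clog (by fun_prop) h
  have c2 : ContinuousAt (fun z => Complex.log (z / z₀)) z₀ :=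
    ContinuousAt.clog (by fun_prop) (by rw [div_self hz0]; exact Complex.one_mem_slitPlane)
  have c3 : Tendsto (fun z => Complex.log (u * z) - Complex.log (u * z₀) - Complex.log (z / z₀))
      (𝓝 z₀) (𝓝 0) := by
    have h1 := (c1.sub (continuousAt_const (y := Complex.log (u * z₀)))).sub c2
    have h2 : Tendsto (fun z => Complex.log (u * z) - Complex.log (u * z₀) -
        Complex.log (z / z₀)) (𝓝 z₀)
        (𝓝 (Complex.log (u * z₀) - Complex.log (u * z₀) - Complex.log (z₀ / z₀))) := h1.tendsto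
    rwa [div_self hz0, Complex.log_one, sub_self, sub_self] at h2
  have o1 : ∀ᶠ z in 𝓝 z₀, u * z ∈ Complex.slitPlane :=
    (by fun_prop : ContinuousAt (fun z => u * z) z₀).eventually
      (Complex.isOpen_slitPlane.mem_nhds h)
  have o2 : ∀ᶠ z in 𝓝 z₀, z ≠ 0 := isOpen_ne.mem_nhds hz0
  have o3 := (Metric.tendsto_nhds.1 c3) 1 one_pos
  filter_upwards [o1, o2, o3] with z h1 h2 h3
  refine ⟨h1, ?_⟩
  rw [dist_zero_right] at h3
  have hexp : Complex.exp (Complex.log (u * z) - Complex.log (u * z₀) -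
      Complex.log (z / z₀)) = 1 := by
    rw [Complex.exp_sub, Complex.exp_sub, Complex.exp_log (Complex.slitPlane_ne_zero h1),
      Complex.exp_log hu0, Complex.exp_log (div_ne_zero h2 hz0)]
    field_simp
  obtain ⟨n, hn⟩ := Complex.exp_eq_one_iff.1 hexp
  rw [hn] at h3
  have hn0 : n = 0 := by
    by_contra hne
    have h4 : (1 : ℝ) ≤ |(n : ℝ)| := by
      exact_mod_cast Int.one_le_abs hne
    have h5 : ‖(n : ℂ) * (2 * π * Complex.I)‖ = |(n : ℝ)| * (2 * π) := by
      rw [norm_mul, Complex.norm_intCast, norm_mul, norm_mul, Complex.norm_I,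
        Complex.norm_ofNat, Complex.norm_real, Real.norm_eq_abs, abs_of_pos Real.pi_pos, mul_one]
    rw [h5] at h3
    have := Real.pi_gt_three
    nlinarith
  rw [hn0] at hn
  simp only [Int.cast_zero, zero_mul] at hn
  exact sub_eq_zero.1 hn

theorem idx_loc {c c' : ℝ → ℂ} (hc : ∀ t, HasDerivAt c (c' t) t) (hc' : Continuous c')
    {a b : ℝ} (hab : a ≤ b) {u v q₀ : ℂ} (hq₀ : q₀ ∈ idom c a b u v) :
    ∀ᶠ q in 𝓝 q₀, q ∈ idom c a b u v ∧ idx c c' a b u v q = idx c c' a b u v q₀ := by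
  have hcc : Continuous c := continuous_iff_continuousAt.2 fun t => (hc t).continuousAt
  have hK : IsCompact (c '' Icc a b) := isCompact_Icc.image hcc
  obtain ⟨h1, h2, h3⟩ := hq₀
  obtain ⟨d, hd, hball⟩ := Metric.isOpen_iff.1 hK.isClosed.isOpen_compl q₀ h1
  have hfar : ∀ t ∈ Icc a b, d / 2 < ‖c t - q₀‖ := by
    intro t ht
    by_contra hcon
    refine hball ?_ ⟨t, ht, rfl⟩
    rw [mem_ball_iff_norm]
    linarith
  have tb : Tendsto (fun q => c b - q) (𝓝 q₀) (𝓝 (c b - q₀)) :=
    (by fun_prop : Continuous fun q => c b - q).tendsto q₀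
  have ta : Tendsto (fun q => c a - q) (𝓝 q₀) (𝓝 (c a - q₀)) :=
    (by fun_prop : Continuous fun q => c a - q).tendsto q₀
  filter_upwards [Metric.ball_mem_nhds q₀ (half_pos hd), tb.eventually (log_loc h2),
    ta.eventually (log_loc h3)] with q hq2 hqb hqa
  rw [mem_ball_iff_norm] at hq2
  refine ⟨⟨fun hqx => hball (mem_ball_iff_norm.2 (by linarith)) hqx, hqb.1, hqa.1⟩, ?_⟩
  have h4 := arcJ_ball hc hc' hab hfar hq2.le
  rw [idx, idx]
  linear_combination h4 - hqb.2 + hqa.2

theorem idx_conn {c c' : ℝ → ℂ} (hc : ∀ t, HasDerivAt c (c' t) t) (hc' : Continuous c')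
    {a b : ℝ} (hab : a ≤ b) {u v : ℂ} {S : Set ℂ} (hS : IsPreconnected S)
    (hd : S ⊆ idom c a b u v) {q q' : ℂ} (hq : q ∈ S) (hq' : q' ∈ S) :
    idx c c' a b u v q = idx c c' a b u v q' := by
  refine hS.induction₂ (fun x y => idx c c' a b u v x = idx c c' a b u v y) (fun x hx => ?_)
    (fun x y z _ _ _ hxy hyz => hxy.trans hyz) (fun x y _ _ hxy => hxy.symm) hq hq'
  have := idx_loc hc hc' hab (hd hx)
  exact (this.mono fun y hy => hy.2.symm).filter_mono nhdsWithin_le_nhds

/-- the integral, when the arc misses a cut -/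
theorem arcJ_eq {c c' : ℝ → ℂ} (hc : ∀ t, HasDerivAt c (c' t) t) (hc' : Continuous c')
    {a b : ℝ} (hab : a ≤ b) {w q : ℂ}
    (hw : ∀ t ∈ Icc a b, w * (c t - q) ∈ Complex.slitPlane) :
    arcJ c c' a b q = Complex.log (w * (c b - q)) - Complex.log (w * (c a - q)) := by
  have hcc : Continuous c := continuous_iff_continuousAt.2 fun t => (hc t).continuousAt
  have huI : uIcc a b = Icc a b := uIcc_of_le hab
  have hn0 : ∀ t ∈ Icc a b, w * (c t - q) ≠ 0 := fun t ht => Complex.slitPlane_ne_zero (hw t ht)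
  have hne : ∀ t ∈ Icc a b, c t - q ≠ 0 := fun t ht => right_ne_zero_of_mul (hn0 t ht)
  have hd : ∀ t ∈ uIcc a b, HasDerivAt (fun t => Complex.log (w * (c t - q)))
      (c' t / (c t - q)) t := by
    intro t ht
    rw [huI] at ht
    have h1 := (((hc t).sub_const q).const_mul w).clog_real (hw t ht)
    refine h1.congr_deriv ?_
    rw [mul_div_mul_left _ _ (left_ne_zero_of_mul (hn0 t ht))]
  have hi : IntervalIntegrable (fun t => c' t / (c t - q)) volume a b := by
    refine ContinuousOn.intervalIntegrable ?_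
    rw [huI]
    exact hc'.continuousOn.div (hcc.continuousOn.sub continuousOn_const) hne
  exact intervalIntegral.integral_eq_sub_of_hasDerivAt hd hi

theorem arcJ_add {c c' : ℝ → ℂ} (hc : ∀ t, HasDerivAt c (c' t) t) (hc' : Continuous c')
    {a b d : ℝ} (hab : a ≤ b) (hbd : b ≤ d) {q : ℂ} (hq : q ∉ c '' Icc a d) :
    arcJ c c' a b q + arcJ c c' b d q = arcJ c c' a d q := by
  have hcc : Continuous c := continuous_iff_continuousAt.2 fun t => (hc t).continuousAt
  have hi : ∀ {x y : ℝ}, a ≤ x → x ≤ y → y ≤ d →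
      IntervalIntegrable (fun t => c' t / (c t - q)) volume x y := by
    intro x y hx hxy hy
    refine ContinuousOn.intervalIntegrable ?_
    rw [uIcc_of_le hxy]
    refine hc'.continuousOn.div (hcc.continuousOn.sub continuousOn_const) fun t ht h0 => ?_
    exact hq ⟨t, ⟨hx.trans ht.1, ht.2.trans hy⟩, sub_eq_zero.1 h0⟩
  exact intervalIntegral.integral_add_adjacent_intervals (hi le_rfl hab hbd)
    (hi hab hbd le_rfl)

/-! ### elementary facts on the cuts -/

theorem slit_of_re_pos {z : ℂ} (hz : 0 < z.re) : z ∈ Complex.slitPlane := Or.inl hz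

theorem negI_slit {z : ℂ} : -Complex.I * z ∈ Complex.slitPlane ↔ 0 < z.im ∨ z.re ≠ 0 := by
  rw [Complex.mem_slitPlane_iff]
  simp

theorem I_slit {z : ℂ} : Complex.I * z ∈ Complex.slitPlane ↔ z.im < 0 ∨ z.re ≠ 0 := by
  rw [Complex.mem_slitPlane_iff]
  simp

end Vale.Agent.P220.R2.H481
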