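import Vale.Agent.P220.R2.H481.Conf1

/-!
# Proper lines in the plane: windows and sectors
-/

open Filter Topology Set MeasureTheory Metric
open scoped ComplexConjugate Real ENNReal

namespace Vale.Agent.P220.R2.H481

/-- a proper regular injective line, from the left to the right -/
structure CLine (c c' : ℝ → ℂ) : Prop where
  hc : ∀ t, HasDerivAt c (c' t) t
  hc' : Continuous c'
  ne : ∀ t, c' t ≠ 0
  inj : Function.Injective c
  right : Tendsto (fun t => (c t).re) atTop atTop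
  left : Tendsto (fun t => (c t).re) atBot atBot

/-- a window -/
structure Win (c c' : ℝ → ℂ) (a b τ₁ τ₂ : ℝ) : Prop where
  arc : Arc c c' a b τ₁ τ₂
  hl : ∀ t, a < t → τ₁ < (c t).re
  hr : ∀ t, t < b → (c t).re < τ₂

variable {c c' : ℝ → ℂ}

namespace CLine

variable (h : CLine c c')

include h

theorem cont : Continuous c := continuous_iff_continuousAt.2 fun t => (h.hc t).continuousAt

theorem cre : Continuous fun t => (c t).re := Complex.continuous_re.comp h.cont

theorem bdd_below (u : ℝ) : ∃ m, ∀ t, u ≤ t → m ≤ (c t).re := by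
  obtain ⟨N, hN⟩ := (h.right.eventually_ge_atTop 0).exists_forall_of_atTop
  obtain ⟨M, hM⟩ := (isCompact_Icc (a := u) (b := N)).exists_bound_of_continuousOn
    h.cre.continuousOn
  refine ⟨min 0 (-M), fun t ht => ?_⟩
  rcases le_total N t with h1 | h1
  · exact (min_le_left _ _).trans (hN t h1)
  · have := hM t ⟨ht, h1⟩
    rw [Real.norm_eq_abs] at this
    exact (min_le_right _ _).trans (by linarith [neg_abs_le (c t).re])

theorem bdd_above (v : ℝ) : ∃ m, ∀ t, t ≤ v → (c t).re ≤ m := by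
  obtain ⟨N, hN⟩ := (h.left.eventually_le_atBot 0).exists_forall_of_atBot
  obtain ⟨M, hM⟩ := (isCompact_Icc (a := N) (b := v)).exists_bound_of_continuousOn
    h.cre.continuousOn
  refine ⟨max 0 M, fun t ht => ?_⟩
  rcases le_total t N with h1 | h1
  · exact (hN t h1).trans (le_max_left _ _)
  · have := hM t ⟨h1, ht⟩
    rw [Real.norm_eq_abs] at this
    exact le_trans (by linarith [le_abs_self (c t).re]) (le_max_right _ _)

theorem window (u v B : ℝ) : ∃ a b τ₁ τ₂, Win c c' a b τ₁ τ₂ ∧ a < u ∧ v < b ∧ τ₁ < -B ∧ B < τ₂ := by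
  obtain ⟨m₁, hm₁⟩ := h.bdd_below u
  obtain ⟨m₂, hm₂⟩ := h.bdd_above (max u v)
  set τ₁ := min m₁ (-B) - 1 with hτ₁
  set τ₂ := max m₂ B + 1 with hτ₂
  have g1 : τ₁ < m₁ := by linarith [min_le_left m₁ (-B)]
  have g2 : τ₁ < -B := by linarith [min_le_right m₁ (-B)]
  have g3 : m₂ < τ₂ := by linarith [le_max_left m₂ B]
  have g4 : B < τ₂ := by linarith [le_max_right m₂ B]
  set S : Set ℝ := {t | (c t).re ≤ τ₁} with hS
  have hScl : IsClosed S := isClosed_le h.cre continuous_const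
  have hSne : S.Nonempty := by
    obtain ⟨N, hN⟩ := (h.left.eventually_le_atBot τ₁).exists_forall_of_atBot
    exact ⟨N, hN N le_rfl⟩
  have hSub : ∀ t ∈ S, t < u := fun t ht => by
    by_contra hcon
    have h1 : (c t).re ≤ τ₁ := ht
    linarith [hm₁ t (not_lt.1 hcon)]
  have hSbd : BddAbove S := ⟨u, fun t ht => (hSub t ht).le⟩
  have haS : sSup S ∈ S := hScl.csSup_mem hSne hSbd
  have hau : sSup S < u := hSub _ haS
  have hal : ∀ t, sSup S < t → τ₁ < (c t).re := fun t ht => by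
    by_contra hcon
    exact absurd (le_csSup hSbd (show t ∈ S from not_lt.1 hcon)) (not_le.2 ht)
  have haeq : (c (sSup S)).re = τ₁ := by
    refine le_antisymm haS ?_
    have h1 : Tendsto (fun t => (c t).re) (𝓝[>] (sSup S)) (𝓝 (c (sSup S)).re) :=
      (h.cre.tendsto _).mono_left nhdsWithin_le_nhds
    exact ge_of_tendsto h1 (by
      filter_upwards [self_mem_nhdsWithin] with t ht
      exact (hal t ht).le)
  set S' : Set ℝ := {t | τ₂ ≤ (c t).re} with hS'
  have hScl' : IsClosed S' := isClosed_le continuous_const h.cre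
  have hSne' : S'.Nonempty := by
    obtain ⟨N, hN⟩ := (h.right.eventually_ge_atTop τ₂).exists_forall_of_atTop
    exact ⟨N, hN N le_rfl⟩
  have hSub' : ∀ t ∈ S', max u v < t := fun t ht => by
    by_contra hcon
    have h1 : τ₂ ≤ (c t).re := ht
    linarith [hm₂ t (not_lt.1 hcon)]
  have hSbd' : BddBelow S' := ⟨max u v, fun t ht => (hSub' t ht).le⟩
  have hbS : sInf S' ∈ S' := hScl'.csInf_mem hSne' hSbd'
  have hbv : max u v < sInf S' := hSub' _ hbS
  have hbl : ∀ t, t < sInf S' → (c t).re < τ₂ := fun t ht => by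
    by_contra hcon
    exact absurd (csInf_le hSbd' (show t ∈ S' from not_lt.1 hcon)) (not_le.2 ht)
  have hbeq : (c (sInf S')).re = τ₂ := by
    refine le_antisymm ?_ hbS
    have h1 : Tendsto (fun t => (c t).re) (𝓝[<] (sInf S')) (𝓝 (c (sInf S')).re) :=
      (h.cre.tendsto _).mono_left nhdsWithin_le_nhds
    exact le_of_tendsto h1 (by
      filter_upwards [self_mem_nhdsWithin] with t ht
      exact (hbl t ht).le)
  have hub : u < sInf S' := (le_max_left u v).trans_lt hbv
  refine ⟨sSup S, sInf S', τ₁, τ₂, ⟨⟨hau.trans hub, ?_, h.hc, h.hc', h.ne,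
    h.inj.injOn, haeq, hbeq, fun t ht => ⟨hal t ht.1, hbl t ht.2⟩⟩, hal, hbl⟩, hau,
    (le_max_right u v).trans_lt hbv, g2, g4⟩
  exact (hal u hau).trans (hbl u hub)

theorem far {t₀ δ : ℝ} (hδ : 0 < δ) : ∃ m > 0, ∀ s, δ ≤ |s - t₀| → m ≤ ‖c s - c t₀‖ := by
  have h1 : ∀ᶠ t in atTop, 1 ≤ ‖c t - c t₀‖ := by
    filter_upwards [h.right.eventually_ge_atTop ((c t₀).re + 1)] with t ht
    have h2 := Complex.re_le_norm (c t - c t₀)
    rw [Complex.sub_re] at h2
    linarith
  have h2 : ∀ᶠ t in atBot, 1 ≤ ‖c t - c t₀‖ := by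
    filter_upwards [h.left.eventually_le_atBot ((c t₀).re - 1)] with t ht
    have h2 := Complex.abs_re_le_norm (c t - c t₀)
    rw [Complex.sub_re] at h2
    have := neg_abs_le ((c t).re - (c t₀).re)
    linarith
  obtain ⟨N, hN⟩ := h1.exists_forall_of_atTop
  obtain ⟨N', hN'⟩ := h2.exists_forall_of_atBot
  set K : Set ℝ := Icc N' N ∩ {s | δ ≤ |s - t₀|} with hK
  have hKc : IsCompact K := isCompact_Icc.inter_right
    (isClosed_le continuous_const (by fun_prop))
  have hcase : ∀ s, δ ≤ |s - t₀| → 1 ≤ ‖c s - c t₀‖ ∨ s ∈ K := by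
    intro s hs
    rcases le_total N s with h3 | h3
    · exact Or.inl (hN s h3)
    · rcases le_total s N' with h4 | h4
      · exact Or.inl (hN' s h4)
      · exact Or.inr ⟨⟨h4, h3⟩, hs⟩
  by_cases hne : K.Nonempty
  · obtain ⟨s₁, hs₁, hmin⟩ := hKc.exists_isMinOn hne
      (f := fun s => ‖c s - c t₀‖) (h.cont.sub continuous_const).norm.continuousOn
    have hpos : 0 < ‖c s₁ - c t₀‖ := by
      rw [norm_pos_iff, sub_ne_zero]
      intro heq
      have h3 := h.inj heq
      have h4 : δ ≤ |s₁ - t₀| := hs₁.2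
      rw [h3, sub_self, abs_zero] at h4
      linarith
    refine ⟨min 1 ‖c s₁ - c t₀‖, lt_min one_pos hpos, fun s hs => ?_⟩
    rcases hcase s hs with h3 | h3
    · exact (min_le_left _ _).trans h3
    · exact (min_le_right _ _).trans (hmin h3)
  · refine ⟨1, one_pos, fun s hs => ?_⟩
    rcases hcase s hs with h3 | h3
    · exact h3
    · exact absurd ⟨s, h3⟩ hne

/-- the sectors at a point of the line -/
theorem sector (t₀ : ℝ) {K : ℝ} (hK : 0 < K) : ∃ ρ > 0, ∀ x y : ℝ, 0 < |y| → |y| < ρ →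
    |x| ≤ K * |y| → c t₀ + c' t₀ * (x + y * Complex.I) ∉ range c := by
  set η : ℝ := 1 / (2 * (K + 1)) with hη
  have hη0 : 0 < η := by positivity
  have hη1 : η * (2 * (K + 1)) = 1 := by
    rw [hη]
    field_simp
  have hv : 0 < ‖c' t₀‖ := norm_pos_iff.2 (h.ne t₀)
  have hlit := (hasDerivAt_iff_isLittleO.1 (h.hc t₀)).def (c := η * ‖c' t₀‖) (by positivity)
  obtain ⟨δ, hδ, hball⟩ := Metric.eventually_nhds_iff.1 hlit
  obtain ⟨m, hm, hfar⟩ := h.far (t₀ := t₀) hδ
  refine ⟨m / (‖c' t₀‖ * (K + 1)), by positivity, ?_⟩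
  rintro x y hy hyρ hxy ⟨s, hs⟩
  have hK1 : 0 < ‖c' t₀‖ * (K + 1) := by positivity
  rw [lt_div_iff₀ hK1] at hyρ
  have e1 : c s - c t₀ = c' t₀ * (x + y * Complex.I) := by rw [hs]; ring
  have e2 : ‖(x : ℂ) + y * Complex.I‖ ≤ (K + 1) * |y| := by
    refine (norm_add_le _ _).trans ?_
    rw [norm_mul, Complex.norm_I, mul_one, Complex.norm_real, Complex.norm_real,
      Real.norm_eq_abs, Real.norm_eq_abs]
    linarith
  have e3 : ‖c s - c t₀‖ < m := by
    rw [e1, norm_mul]
    have := mul_le_mul_of_nonneg_left e2 hv.le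
    nlinarith
  have hsδ : |s - t₀| < δ := by
    by_contra hcon
    exact absurd (hfar s (not_lt.1 hcon)) (not_le.2 e3)
  have e4 := hball (y := s) (by rw [Real.dist_eq]; exact hsδ)
  rw [e1, Complex.real_smul, Real.norm_eq_abs] at e4
  have e5 : c' t₀ * ((x : ℂ) + y * Complex.I) - ((s - t₀ : ℝ) : ℂ) * c' t₀ =
      c' t₀ * (((x - (s - t₀) : ℝ) : ℂ) + y * Complex.I) := by
    push_cast
    ring
  rw [e5, norm_mul] at e4
  have e6 : ‖((x - (s - t₀) : ℝ) : ℂ) + y * Complex.I‖ ≤ η * |s - t₀| := by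
    have : ‖c' t₀‖ * ‖((x - (s - t₀) : ℝ) : ℂ) + y * Complex.I‖ ≤ ‖c' t₀‖ * (η * |s - t₀|) := by
      linarith
    exact le_of_mul_le_mul_left this hv
  have e7 := Complex.abs_re_le_norm (((x - (s - t₀) : ℝ) : ℂ) + y * Complex.I)
  have e8 := Complex.abs_im_le_norm (((x - (s - t₀) : ℝ) : ℂ) + y * Complex.I)
  have e9 : (((x - (s - t₀) : ℝ) : ℂ) + y * Complex.I).re = x - (s - t₀) := by simp
  have e10 : (((x - (s - t₀) : ℝ) : ℂ) + y * Complex.I).im = y := by simp
  rw [e9] at e7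
  rw [e10] at e8
  have f1 : |s - t₀| ≤ |x| + η * |s - t₀| := by
    have g1 : s - t₀ = x - (x - (s - t₀)) := by ring
    calc |s - t₀| = |x - (x - (s - t₀))| := by rw [← g1]
      _ ≤ |x| + |x - (s - t₀)| := abs_sub _ _
      _ ≤ |x| + η * |s - t₀| := by linarith
  have f2 : |y| ≤ η * |s - t₀| := by linarith
  have f3 : |x| ≤ K * (η * |s - t₀|) := hxy.trans (mul_le_mul_of_nonneg_left f2 hK.le)
  have f4 : 0 < |s - t₀| := by
    rcases (abs_nonneg (s - t₀)).eq_or_lt with h0 | h0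
    · rw [← h0, mul_zero] at f2
      linarith
    · exact h0
  have f5 : |s - t₀| ≤ (K + 1) * η * |s - t₀| := by nlinarith
  have f6 : (K + 1) * η = 1 / 2 := by linarith
  rw [f6] at f5
  linarith

end CLine

end Vale.Agent.P220.R2.H481
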