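import Vale.Agent.P220.R2.H481.Conf2

/-!
# Crossing a line, and the values of the cut indices
-/

open Filter Topology Set MeasureTheory Metric
open scoped ComplexConjugate Real ENNReal

namespace Vale.Agent.P220.R2.H481

variable {c c' : ℝ → ℂ} {a b τ₁ τ₂ : ℝ}

theorem convex_wedge (K ρ : ℝ) : Convex ℝ {p : ℝ × ℝ | 0 < p.2 ∧ p.2 < ρ ∧ |p.1| ≤ K * p.2} := by
  intro p hp q hq s t hs ht hst
  have e1 : (s • p + t • q).1 = s * p.1 + t * q.1 := rfl
  have e2 : (s • p + t • q).2 = s * p.2 + t * q.2 := rfl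
  obtain ⟨hp1, hp2, hp3⟩ := hp
  obtain ⟨hq1, hq2, hq3⟩ := hq
  refine ⟨?_, ?_, ?_⟩
  · rw [e2]
    rcases hs.eq_or_lt with h | h
    · rw [← h] at hst ⊢
      have : t = 1 := by linarith
      rw [this]; linarith
    · have := mul_pos h hp1
      have := mul_nonneg ht hq1.le
      linarith
  · rw [e2]
    rcases hs.eq_or_lt with h | h
    · rw [← h] at hst ⊢
      have : t = 1 := by linarith
      rw [this]; linarith
    · have h1 := mul_lt_mul_of_pos_left hp2 h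
      have h2 := mul_le_mul_of_nonneg_left hq2.le ht
      have h3 : s * ρ + t * ρ = ρ := by rw [← add_mul, hst, one_mul]
      linarith
  · rw [e1, e2]
    have h1 := abs_add_le (s * p.1) (t * q.1)
    rw [abs_mul, abs_mul, abs_of_nonneg hs, abs_of_nonneg ht] at h1
    have h2 := mul_le_mul_of_nonneg_left hp3 hs
    have h3 := mul_le_mul_of_nonneg_left hq3 ht
    nlinarith

namespace Win

variable (w : Win c c' a b τ₁ τ₂) (h : CLine c c')

include w h

theorem sec_val {t₀ : ℝ} (ht₀ : t₀ ∈ Ioo a b) {K : ℝ} (hK : 0 < K) {σ : ℝ}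
    (hσ : σ = 1 ∨ σ = -1) : ∃ ρ > 0, ∀ x y : ℝ, 0 < y → y < ρ → |x| ≤ K * y →
      c t₀ + c' t₀ * (x + (σ * y : ℝ) * Complex.I) ∉ range c ∧
      c t₀ + c' t₀ * (x + (σ * y : ℝ) * Complex.I) ∈ St τ₁ τ₂ ∧
      arcH c c' a b (c t₀ + c' t₀ * (x + (σ * y : ℝ) * Complex.I)) = σ * (π * Complex.I) := by
  have hσ1 : |σ| = 1 := by rcases hσ with h | h <;> simp [h]
  obtain ⟨ρ₁, hρ₁, hsec⟩ := h.sector t₀ hK
  obtain ⟨d, hd, hball⟩ := Metric.isOpen_iff.1 (isOpen_St τ₁ τ₂) (c t₀) (w.arc.m t₀ ht₀)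
  have hside : IsSide c c' a b τ₁ τ₂ σ (σ * (π * Complex.I)) := by
    rcases hσ with h | h
    · rw [h]
      have := w.arc.sides_eq.1
      simpa using this
    · rw [h]
      have := w.arc.sides_eq.2
      simpa using this
  obtain ⟨μ₁, hμ₁, hμ⟩ := hside t₀ ht₀
  have hv : 0 < ‖c' t₀‖ := norm_pos_iff.2 (h.ne t₀)
  have hvK : 0 < ‖c' t₀‖ * (K + 1) := by positivity
  set ρ : ℝ := min ρ₁ (d / (‖c' t₀‖ * (K + 1))) with hρ
  have hρ0 : 0 < ρ := lt_min hρ₁ (by positivity)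
  have hin : ∀ x y : ℝ, 0 < y → y < ρ → |x| ≤ K * y →
      c t₀ + c' t₀ * (x + (σ * y : ℝ) * Complex.I) ∉ range c ∧
      c t₀ + c' t₀ * (x + (σ * y : ℝ) * Complex.I) ∈ St τ₁ τ₂ := by
    intro x y hy hyρ hx
    have ha : |σ * y| = y := by rw [abs_mul, hσ1, one_mul, abs_of_pos hy]
    refine ⟨hsec x (σ * y) (by rw [ha]; exact hy)
      (by rw [ha]; exact hyρ.trans_le (min_le_left _ _)) (by rw [ha]; exact hx), ?_⟩
    refine hball ?_
    rw [mem_ball_iff_norm, add_sub_cancel_left, norm_mul]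
    have e2 : ‖(x : ℂ) + (σ * y : ℝ) * Complex.I‖ ≤ (K + 1) * y := by
      refine (norm_add_le _ _).trans ?_
      rw [norm_mul, Complex.norm_I, mul_one, Complex.norm_real, Complex.norm_real,
        Real.norm_eq_abs, Real.norm_eq_abs, ha]
      linarith
    have e3 := hyρ.trans_le (min_le_right _ _)
    rw [lt_div_iff₀ hvK] at e3
    have := mul_le_mul_of_nonneg_left e2 hv.le
    nlinarith
  refine ⟨ρ, hρ0, fun x y hy hyρ hx => ⟨(hin x y hy hyρ hx).1, (hin x y hy hyρ hx).2, ?_⟩⟩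
  set μ : ℝ := min μ₁ (ρ / 2) with hμdef
  have hμ0 : 0 < μ := lt_min hμ₁ (by positivity)
  have hμρ : μ < ρ := (min_le_right _ _).trans_lt (by linarith)
  have hval := (hμ μ ⟨hμ0, min_le_left _ _⟩).2.2
  rw [← hval]
  have hcont : Continuous fun p : ℝ × ℝ => c t₀ + c' t₀ * (p.1 + (σ * p.2 : ℝ) * Complex.I) := by
    fun_prop
  refine w.arc.H_conn (S := (fun p : ℝ × ℝ => c t₀ + c' t₀ * (p.1 + (σ * p.2 : ℝ) * Complex.I)) ''
    {p : ℝ × ℝ | 0 < p.2 ∧ p.2 < ρ ∧ |p.1| ≤ K * p.2})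
    ((convex_wedge K ρ).isPreconnected.image _ hcont.continuousOn) ?_
    ⟨(x, y), ⟨hy, hyρ, hx⟩, rfl⟩ ⟨(0, μ), ⟨hμ0, hμρ, by simpa using by positivity⟩, ?_⟩
  · rintro _ ⟨p, ⟨hp1, hp2, hp3⟩, rfl⟩
    exact ⟨(hin p.1 p.2 hp1 hp2 hp3).2,
      fun hc => (hin p.1 p.2 hp1 hp2 hp3).1 (image_subset_range _ _ hc)⟩
  · rw [nrm]
    push_cast
    ring

/-- crossing the line -/
theorem cross {t₀ : ℝ} (ht₀ : t₀ ∈ Ioo a b) {γ : ℝ → ℂ} {v : ℂ} {s₀ : ℝ}
    (hγ : HasDerivAt γ v s₀) (h0 : γ s₀ = c t₀) (him : 0 < (v / c' t₀).im) :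
    (∀ᶠ s in 𝓝[>] s₀, γ s ∉ range c ∧ γ s ∈ St τ₁ τ₂ ∧ arcH c c' a b (γ s) = π * Complex.I) ∧
    ∀ᶠ s in 𝓝[<] s₀, γ s ∉ range c ∧ γ s ∈ St τ₁ τ₂ ∧ arcH c c' a b (γ s) = -(π * Complex.I) := by
  set β : ℂ := v / c' t₀ with hβ
  set κ : ℝ := β.im / 2 with hκ
  have hκ0 : 0 < κ := by positivity
  set K : ℝ := (|β.re| + κ) / κ with hK
  have hK0 : 0 < K := by positivity
  obtain ⟨ρ₁, hρ₁, h1⟩ := w.sec_val h ht₀ hK0 (σ := 1) (Or.inl rfl)
  obtain ⟨ρ₂, hρ₂, h2⟩ := w.sec_val h ht₀ hK0 (σ := -1) (Or.inr rfl)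
  set z : ℝ → ℂ := fun s => (γ s - c t₀) / c' t₀ with hz
  have hzd : HasDerivAt z β s₀ := (hγ.sub_const (c t₀)).div_const (c' t₀)
  have hz0 : z s₀ = 0 := by simp [hz, h0]
  have hzc : ∀ᶠ s in 𝓝 s₀, ‖z s‖ < min ρ₁ ρ₂ := by
    have h3 : Tendsto (fun s => ‖z s‖) (𝓝 s₀) (𝓝 0) := by
      have := hzd.continuousAt.norm.tendsto
      rwa [hz0, norm_zero] at this
    exact h3.eventually (gt_mem_nhds (lt_min hρ₁ hρ₂))
  have hlit := (hasDerivAt_iff_isLittleO.1 hzd).def (c := κ) hκ0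
  have hmain : ∀ᶠ s in 𝓝 s₀, |(z s).im - (s - s₀) * β.im| ≤ κ * |s - s₀| ∧
      |(z s).re - (s - s₀) * β.re| ≤ κ * |s - s₀| ∧ ‖z s‖ < min ρ₁ ρ₂ := by
    filter_upwards [hlit, hzc] with s hs hs2
    rw [hz0, sub_zero, Complex.real_smul, Real.norm_eq_abs] at hs
    have e1 := Complex.abs_im_le_norm (z s - ((s - s₀ : ℝ) : ℂ) * β)
    have e2 := Complex.abs_re_le_norm (z s - ((s - s₀ : ℝ) : ℂ) * β)
    rw [Complex.sub_im, Complex.im_ofReal_mul] at e1
    rw [Complex.sub_re, Complex.re_ofReal_mul] at e2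
    exact ⟨e1.trans hs, e2.trans hs, hs2⟩
  have hrec : ∀ s, γ s = c t₀ + c' t₀ * z s := by
    intro s
    have := h.ne t₀
    simp only [hz]
    field_simp
    ring
  have hκβ : β.im = 2 * κ := by rw [hκ]; ring
  have hKκ : K * κ = |β.re| + κ := by rw [hK]; field_simp
  constructor
  · filter_upwards [hmain.filter_mono nhdsWithin_le_nhds, self_mem_nhdsWithin] with s hs hs0
    have hs0' : s₀ < s := hs0
    obtain ⟨g1, g2, g3⟩ := hs
    have hpos : 0 < s - s₀ := by linarith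
    rw [abs_of_pos hpos] at g1 g2
    have k1 := abs_le.1 g1
    have k2 : κ * (s - s₀) ≤ (z s).im := by
      rw [hκβ] at k1
      nlinarith [k1.1]
    have k3 : 0 < (z s).im := lt_of_lt_of_le (by positivity) k2
    have k4 : |(z s).re| ≤ (|β.re| + κ) * (s - s₀) := by
      have := abs_add_le ((z s).re - (s - s₀) * β.re) ((s - s₀) * β.re)
      rw [sub_add_cancel, abs_mul, abs_of_pos hpos] at this
      nlinarith
    have k5 : |(z s).re| ≤ K * (z s).im := by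
      refine k4.trans ?_
      rw [← hKκ, mul_assoc]
      exact mul_le_mul_of_nonneg_left k2 hK0.le
    have k6 : (z s).im < ρ₁ := by
      have := Complex.abs_im_le_norm (z s)
      have := le_abs_self (z s).im
      have := min_le_left ρ₁ ρ₂
      linarith
    have k7 := h1 (z s).re (z s).im k3 k6 k5
    rw [one_mul, Complex.re_add_im, ← hrec s] at k7
    simpa using k7
  · filter_upwards [hmain.filter_mono nhdsWithin_le_nhds, self_mem_nhdsWithin] with s hs hs0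
    have hs0' : s < s₀ := hs0
    obtain ⟨g1, g2, g3⟩ := hs
    have hneg : s - s₀ < 0 := by linarith
    rw [abs_of_neg hneg] at g1 g2
    have k1 := abs_le.1 g1
    have k2 : κ * -(s - s₀) ≤ -(z s).im := by
      rw [hκβ] at k1
      nlinarith [k1.2]
    have k3 : 0 < -(z s).im := lt_of_lt_of_le (mul_pos hκ0 (by linarith)) k2
    have k4 : |(z s).re| ≤ (|β.re| + κ) * -(s - s₀) := by
      have := abs_add_le ((z s).re - (s - s₀) * β.re) ((s - s₀) * β.re)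
      rw [sub_add_cancel, abs_mul, abs_of_neg hneg] at this
      nlinarith
    have k5 : |(z s).re| ≤ K * -(z s).im := by
      refine k4.trans ?_
      rw [← hKκ, mul_assoc]
      exact mul_le_mul_of_nonneg_left k2 hK0.le
    have k6 : -(z s).im < ρ₂ := by
      have := Complex.abs_im_le_norm (z s)
      have := neg_abs_le (z s).im
      have := min_le_right ρ₁ ρ₂
      linarith
    have k7 := h2 (z s).re (-(z s).im) k3 k6 k5
    rw [neg_one_mul, neg_neg, Complex.re_add_im, ← hrec s] at k7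
    simpa using k7

end Win

end Vale.Agent.P220.R2.H481
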