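import Vale.Agent.P220.R2.H481.Conf3

/-!
# Values of the cut indices, and no return
-/

open Filter Topology Set MeasureTheory Metric
open scoped ComplexConjugate Real ENNReal

namespace Vale.Agent.P220.R2.H481

variable {c c' : ℝ → ℂ} {a b τ₁ τ₂ : ℝ}

/-- a top point of the line -/
def CTop (c : ℝ → ℂ) (σ : ℝ) : Prop := ∀ s, (c s).re = (c σ).re → (c s).im ≤ (c σ).im

theorem slit_top {c : ℝ → ℂ} (inj : Function.Injective c) {σ t : ℝ} (top : CTop c σ) (ht : t ≠ σ) :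
    -Complex.I * (c σ - c t) ∈ Complex.slitPlane := by
  rw [negI_slit]
  by_cases h : (c t).re = (c σ).re
  · left
    rw [Complex.sub_im]
    rcases (top t h).eq_or_lt with h1 | h1
    · exact absurd (inj (Complex.ext h h1)) ht
    · linarith
  · right
    rw [Complex.sub_re]
    intro h1
    exact h (by linarith)

/-- the points of the ray are not on the line -/
theorem ray_off {c : ℝ → ℂ} {σ : ℝ} (top : CTop c σ) {y : ℝ} (hy : 0 < y) :
    c σ + y * Complex.I ∉ range c := by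
  rintro ⟨s, hs⟩
  have h1 := top s (by rw [hs]; simp)
  rw [hs] at h1
  simp at h1
  linarith

namespace CLine

variable (h : CLine c c')

include h

theorem domL {σ t : ℝ} (hal : ∀ t, a < t → (c a).re < (c t).re) (haσ : a < σ) (top : CTop c σ)
    (ht : σ < t) : c t ∈ idom c a σ (-Complex.I) (-1) := by
  refine ⟨?_, slit_top h.inj top ht.ne', ?_⟩
  · rintro ⟨s, hs, hst⟩
    have := h.inj hst
    linarith [hs.2]
  · have := hal t (haσ.trans ht)
    exact Or.inl (by simpa using this)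

theorem valL {σ t : ℝ} (hal : ∀ t, a < t → (c a).re < (c t).re) (haσ : a < σ) (top : CTop c σ)
    (ht : σ < t) : idx c c' a σ (-Complex.I) (-1) (c t) = -(π / 2 * Complex.I) := by
  obtain ⟨m, hm⟩ := h.bdd_above σ
  obtain ⟨N, hN⟩ := ((h.right.eventually_gt_atTop m).and (eventually_gt_atTop σ)).exists
  rw [idx_conn h.hc h.hc' haσ.le (S := c '' Ioi σ)
    (isPreconnected_Ioi.image _ h.cont.continuousOn) (by
      rintro _ ⟨s, hs, rfl⟩
      exact h.domL hal haσ top hs) ⟨t, ht, rfl⟩ ⟨N, hN.2, rfl⟩]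
  have h1 : ∀ s ∈ Icc a σ, (c s).re < (c N).re := fun s hs => (hm s hs.2).trans_lt hN.1
  have h2 : 0 < (c N - c σ).re := by
    rw [Complex.sub_re]
    linarith [h1 σ ⟨haσ.le, le_rfl⟩]
  rw [idx, arcJ_left h.hc h.hc' haσ.le h1, show -Complex.I * (c σ - c N) =
    Complex.I * (c N - c σ) by ring, log_I_mul h2, neg_one_mul, neg_sub]
  ring

theorem domR {σ t : ℝ} (hbl : ∀ t, t < b → (c t).re < (c b).re) (hσb : σ < b) (top : CTop c σ)
    (ht : t < σ) : c t ∈ idom c σ b 1 (-Complex.I) := by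
  refine ⟨?_, ?_, slit_top h.inj top ht.ne⟩
  · rintro ⟨s, hs, hst⟩
    have := h.inj hst
    linarith [hs.1]
  · have := hbl t (ht.trans hσb)
    rw [one_mul]
    exact Or.inl (by rw [Complex.sub_re]; linarith)

theorem valR {σ t : ℝ} (hbl : ∀ t, t < b → (c t).re < (c b).re) (hσb : σ < b) (top : CTop c σ)
    (ht : t < σ) : idx c c' σ b 1 (-Complex.I) (c t) = -(π / 2 * Complex.I) := by
  obtain ⟨m, hm⟩ := h.bdd_below σ
  obtain ⟨N, hN⟩ := ((h.left.eventually_lt_atBot m).and (eventually_lt_atBot σ)).exists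
  rw [idx_conn h.hc h.hc' hσb.le (S := c '' Iio σ)
    (isPreconnected_Iio.image _ h.cont.continuousOn) (by
      rintro _ ⟨s, hs, rfl⟩
      exact h.domR hbl hσb top hs) ⟨t, ht, rfl⟩ ⟨N, hN.2, rfl⟩]
  have h1 : ∀ s ∈ Icc σ b, (c N).re < (c s).re := fun s hs => hN.1.trans_le (hm s hs.1)
  have h2 : 0 < (c σ - c N).re := by
    rw [Complex.sub_re]
    linarith [h1 σ ⟨le_rfl, hσb.le⟩]
  rw [idx, arcJ_right h.hc h.hc' hσb.le h1, log_neg_I_mul h2, one_mul]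
  ring

end CLine

namespace Win

variable (w : Win c c' a b τ₁ τ₂) (h : CLine c c')

include w h

/-- the cut index near the arc between the two rays -/
theorem near_idx {σ₁ σ₂ t₀ : ℝ} (ha : a < σ₁) (hb : σ₂ < b) (h1 : σ₁ < t₀) (h2 : t₀ < σ₂)
    (top₁ : CTop c σ₁) (top₂ : CTop c σ₂) : ∀ᶠ q in 𝓝 (c t₀), q ∉ range c →
    idx c c' σ₁ σ₂ (-Complex.I) (-Complex.I) q = arcH c c' a b q + π * Complex.I := by
  have hal : ∀ t, a < t → (c a).re < (c t).re := fun t ht => by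
    rw [w.arc.s]; exact w.hl t ht
  have hbl : ∀ t, t < b → (c t).re < (c b).re := fun t ht => by
    rw [w.arc.e]; exact w.hr t ht
  filter_upwards [idx_loc h.hc h.hc' ha.le (h.domL hal ha top₁ h1),
    idx_loc h.hc h.hc' hb.le (h.domR hbl hb top₂ h2)] with q hL hR hq
  have e1 := hL.2
  have e2 := hR.2
  rw [h.valL hal ha top₁ h1] at e1
  rw [h.valR hbl hb top₂ h2] at e2
  have hqK : q ∉ c '' Icc a b := fun hc => hq (image_subset_range _ _ hc)
  have hqK' : q ∉ c '' Icc a σ₂ := fun hc => hq (image_subset_range _ _ hc)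
  have h12 : σ₁ < σ₂ := h1.trans h2
  have s1 := arcJ_add h.hc h.hc' ha.le h12.le hqK'
  have s2 := arcJ_add h.hc h.hc' (ha.trans h12).le hb.le hqK
  rw [idx] at e1 e2 ⊢
  rw [arcH]
  rw [one_mul] at e2
  rw [neg_one_mul, neg_sub] at e1
  linear_combination -e1 - e2 + s1 + s2

end Win

namespace CLine

variable (h : CLine c c')

include h

/-- **An orbit of a field that is positively transverse to the line does not return.** -/
theorem no_return {V : ℂ → ℂ} (htr : ∀ t, 0 < (V (c t) / c' t).im) {γ : ℝ → ℂ}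
    (hγ : ∀ s, HasDerivAt γ (V (γ s)) s) {σ : ℝ} (h0 : γ 0 = c σ) {s₁ : ℝ} (hs₁ : 0 < s₁) :
    γ s₁ ∉ range c := by
  rintro ⟨t₁, ht₁⟩
  have hγc : Continuous γ := continuous_iff_continuousAt.2 fun t => (hγ t).continuousAt
  have hcr : ∀ {t s : ℝ}, γ s = c t → ∀ {a b τ₁ τ₂ : ℝ}, Win c c' a b τ₁ τ₂ → t ∈ Ioo a b →
      (∀ᶠ s' in 𝓝[>] s, γ s' ∉ range c ∧ γ s' ∈ St τ₁ τ₂ ∧ arcH c c' a b (γ s') = π * Complex.I) ∧
      ∀ᶠ s' in 𝓝[<] s, γ s' ∉ range c ∧ γ s' ∈ St τ₁ τ₂ ∧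
        arcH c c' a b (γ s') = -(π * Complex.I) := by
    intro t s hts a b τ₁ τ₂ w ht
    refine w.cross h ht (hγ s) hts ?_
    rw [hts]
    exact htr t
  obtain ⟨B, hB⟩ := (isCompact_Icc (a := (0 : ℝ)) (b := s₁)).exists_bound_of_continuousOn
    hγc.continuousOn
  have hre : ∀ s ∈ Icc 0 s₁, |(γ s).re| ≤ B := fun s hs =>
    (Complex.abs_re_le_norm _).trans (hB s hs)
  obtain ⟨N, hN⟩ := (h.right.eventually_gt_atTop B).exists_forall_of_atTop
  obtain ⟨N', hN'⟩ := (h.left.eventually_lt_atBot (-B)).exists_forall_of_atBot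
  have hKc : IsCompact (c '' Icc N' N) := isCompact_Icc.image h.cont
  have hK : ∀ s ∈ Icc 0 s₁, γ s ∈ range c → γ s ∈ c '' Icc N' N := by
    rintro s hs ⟨t, ht⟩
    have h1 := abs_le.1 (hre s hs)
    rw [← ht] at h1
    refine ⟨t, ⟨?_, ?_⟩, ht⟩
    · by_contra hcon
      linarith [hN' t (not_le.1 hcon).le, h1.1]
    · by_contra hcon
      linarith [hN t (not_le.1 hcon).le, h1.2]
  -- the first return
  obtain ⟨a₀, b₀, τ₁', τ₂', w₀, ha₀, hb₀, -, -⟩ := h.window σ σ 0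
  obtain ⟨hcr0, -⟩ := hcr h0 w₀ ⟨ha₀, hb₀⟩
  obtain ⟨δ, hδ, hδ2⟩ := (mem_nhdsGT_iff_exists_Ioo_subset).1 hcr0
  have hδ0 : (0 : ℝ) < δ := hδ
  set T : Set ℝ := Icc δ s₁ ∩ γ ⁻¹' (c '' Icc N' N) with hT
  have hTc : IsCompact T := isCompact_Icc.inter_right (hKc.isClosed.preimage hγc)
  have hδs : δ ≤ s₁ := by
    by_contra hcon
    exact (hδ2 (show s₁ ∈ Ioo 0 δ from ⟨hs₁, not_le.1 hcon⟩)).1 ⟨t₁, ht₁⟩
  have hTne : T.Nonempty := ⟨s₁, ⟨hδs, le_rfl⟩, hK s₁ ⟨hs₁.le, le_rfl⟩ ⟨t₁, ht₁⟩⟩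
  obtain ⟨s', ⟨⟨hs'1, hs'2⟩, ⟨t', ht', hst'⟩⟩, hmin⟩ := hTc.exists_isMinOn hTne continuousOn_id
  have hs'0 : 0 < s' := hδ0.trans_le hs'1
  have hfree : ∀ s ∈ Ioo 0 s', γ s ∉ range c := by
    intro s hs hsc
    rcases lt_or_ge s δ with h1 | h1
    · exact (hδ2 (show s ∈ Ioo 0 δ from ⟨hs.1, h1⟩)).1 hsc
    · have h2 : s ∈ T := ⟨⟨h1, (hs.2.trans_le hs'2).le⟩,
        hK s ⟨hs.1.le, (hs.2.trans_le hs'2).le⟩ hsc⟩
      have h3 : s' ≤ s := hmin h2
      linarith [hs.2]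
  -- a large window
  obtain ⟨a, b, τ₁, τ₂, w, ha, hb, hτ1, hτ2⟩ := h.window (min σ t') (max σ t') B
  have haσ : a < σ := ha.trans_le (min_le_left _ _)
  have hat : a < t' := ha.trans_le (min_le_right _ _)
  have hσb : σ < b := (le_max_left _ _).trans_lt hb
  have htb : t' < b := (le_max_right _ _).trans_lt hb
  obtain ⟨hr, -⟩ := hcr h0 w ⟨haσ, hσb⟩
  obtain ⟨-, hl⟩ := hcr hst'.symm w ⟨hat, htb⟩
  have i1 : ∀ᶠ s in 𝓝[>] (0 : ℝ), s ∈ Ioo 0 s' := Ioo_mem_nhdsGT hs'0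
  have i2 : ∀ᶠ s in 𝓝[<] s', s ∈ Ioo 0 s' := Ioo_mem_nhdsLT hs'0
  obtain ⟨x, hx1, hx2⟩ := (hr.and i1).exists
  obtain ⟨y, hy1, hy2⟩ := (hl.and i2).exists
  have hconn := w.arc.H_conn (S := γ '' Ioo 0 s') (isPreconnected_Ioo.image _ hγc.continuousOn) (by
    rintro _ ⟨s, hs, rfl⟩
    refine ⟨?_, fun hc => hfree s hs (image_subset_range _ _ hc)⟩
    have h1 := abs_le.1 (hre s ⟨hs.1.le, (hs.2.trans_le hs'2).le⟩)
    exact ⟨by linarith [h1.1], by linarith [h1.2]⟩) ⟨x, hx2, rfl⟩ ⟨y, hy2, rfl⟩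
  rw [hx1.2.2, hy1.2.2] at hconn
  exact pi_I_ne hconn

end CLine

end Vale.Agent.P220.R2.H481
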