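import Vale.Agent.P220.R2.H481.Conf4

/-!
# Confinement of the orbits between two vertical rays
-/

open Filter Topology Set MeasureTheory Metric
open scoped ComplexConjugate Real ENNReal ContDiff

namespace Vale.Agent.P220.R2.H481

namespace CLine

variable {c c' : ℝ → ℂ} (h : CLine c c')

include h

theorem confine {V : ℂ → ℂ} (htr : ∀ t, 0 < (V (c t) / c' t).im) {γ : ℝ → ℂ}
    (hγ : ∀ s, HasDerivAt γ (V (γ s)) s) {σ₁ σ₂ σ : ℝ} (h1 : σ₁ < σ) (h2 : σ < σ₂)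
    (top₁ : CTop c σ₁) (top₂ : CTop c σ₂) (h0 : γ 0 = c σ)
    (off₁ : ∀ s : ℝ, 0 < s → ∀ y : ℝ, 0 ≤ y → γ s ≠ c σ₁ + y * Complex.I)
    (off₂ : ∀ s : ℝ, 0 < s → ∀ y : ℝ, 0 ≤ y → γ s ≠ c σ₂ + y * Complex.I) {s : ℝ} (hs : 0 < s) :
    (∃ t ∈ Icc σ₁ σ₂, (c t).re ≤ (γ s).re) ∧ ∃ t ∈ Icc σ₁ σ₂, (γ s).re ≤ (c t).re := by
  have hγc : Continuous γ := continuous_iff_continuousAt.2 fun t => (hγ t).continuousAt
  obtain ⟨a, b, τ₁, τ₂, w, ha, hb, -, -⟩ := h.window σ₁ σ₂ 0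
  have h12 : σ₁ < σ₂ := h1.trans h2
  have hσ : σ ∈ Ioo a b := ⟨ha.trans h1, h2.trans hb⟩
  have himσ : 0 < (V (γ 0) / c' σ).im := by rw [h0]; exact htr σ
  obtain ⟨hcr, -⟩ := w.cross h hσ (hγ 0) h0 himσ
  have hnear : ∀ᶠ q in 𝓝 (γ 0), q ∉ range c →
      idx c c' σ₁ σ₂ (-Complex.I) (-Complex.I) q = arcH c c' a b q + π * Complex.I := by
    rw [h0]
    exact w.near_idx h ha hb h1 h2 top₁ top₂
  have hnear' : ∀ᶠ s in 𝓝[>] (0 : ℝ), γ s ∉ range c →
      idx c c' σ₁ σ₂ (-Complex.I) (-Complex.I) (γ s) = arcH c c' a b (γ s) + π * Complex.I :=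
    (hγc.continuousAt.eventually hnear).filter_mono nhdsWithin_le_nhds
  obtain ⟨s', ⟨hs'1, hs'2⟩, hs'0⟩ := ((hcr.and hnear').and self_mem_nhdsWithin).exists
  have hs'0' : 0 < s' := hs'0
  have hval : idx c c' σ₁ σ₂ (-Complex.I) (-Complex.I) (γ s') = 2 * (π * Complex.I) := by
    rw [hs'2 hs'1.1, hs'1.2.2]
    ring
  have hslit : ∀ {τ : ℝ}, (∀ s : ℝ, 0 < s → ∀ y : ℝ, 0 ≤ y → γ s ≠ c τ + y * Complex.I) →
      ∀ r : ℝ, 0 < r → -Complex.I * (c τ - γ r) ∈ Complex.slitPlane := by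
    intro τ hoff r hr
    rw [negI_slit]
    by_contra hcon
    push Not at hcon
    obtain ⟨g1, g2⟩ := hcon
    rw [Complex.sub_im] at g1
    rw [Complex.sub_re] at g2
    refine hoff r hr ((γ r).im - (c τ).im) (by linarith) ?_
    apply Complex.ext
    · simp
      linarith
    · simp
  have hdom : γ '' Ioi 0 ⊆ idom c σ₁ σ₂ (-Complex.I) (-Complex.I) := by
    rintro _ ⟨r, hr, rfl⟩
    exact ⟨fun hc => h.no_return htr hγ h0 hr (image_subset_range _ _ hc),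
      hslit off₂ r hr, hslit off₁ r hr⟩
  have hG := idx_conn h.hc h.hc' h12.le (isPreconnected_Ioi.image _ hγc.continuousOn) hdom
    ⟨s, hs, rfl⟩ ⟨s', hs'0, rfl⟩
  rw [hval] at hG
  have hne : (2 : ℂ) * (π * Complex.I) ≠ 0 := by simp [Real.pi_ne_zero]
  constructor
  · by_contra hcon
    push Not at hcon
    have w1 : 0 < (c σ₁ - γ s).re := by
      rw [Complex.sub_re]; linarith [hcon σ₁ ⟨le_rfl, h12.le⟩]
    have w2 : 0 < (c σ₂ - γ s).re := by
      rw [Complex.sub_re]; linarith [hcon σ₂ ⟨h12.le, le_rfl⟩]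
    rw [idx, arcJ_right h.hc h.hc' h12.le hcon, log_neg_I_mul w1, log_neg_I_mul w2] at hG
    apply hne
    rw [← hG]
    ring
  · by_contra hcon
    push Not at hcon
    have w1 : 0 < (γ s - c σ₁).re := by
      rw [Complex.sub_re]; linarith [hcon σ₁ ⟨le_rfl, h12.le⟩]
    have w2 : 0 < (γ s - c σ₂).re := by
      rw [Complex.sub_re]; linarith [hcon σ₂ ⟨h12.le, le_rfl⟩]
    rw [idx, arcJ_left h.hc h.hc' h12.le hcon,
      show -Complex.I * (c σ₁ - γ s) = Complex.I * (γ s - c σ₁) by ring,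
      show -Complex.I * (c σ₂ - γ s) = Complex.I * (γ s - c σ₂) by ring,
      log_I_mul w1, log_I_mul w2] at hG
    apply hne
    rw [← hG]
    ring

end CLine

/-! ### the rays are orbits -/

theorem ray_orbit {g : ℝ × ℝ → ℝ} (hg : ContDiff ℝ ∞ g) {γ : ℝ → ℝ × ℝ}
    (hγ : ∀ s, HasDerivAt γ (-Real.sin (g (γ s)), Real.cos (g (γ s))) s) {x₁ y₁ : ℝ}
    (hg₁ : ∀ y, y₁ ≤ y → g (x₁, y) = 0) {s₀ v₀ : ℝ} (h : γ s₀ = (x₁, v₀)) (hv : y₁ ≤ v₀) {s : ℝ}
    (hs : s₀ - (v₀ - y₁) ≤ s) : γ s = (x₁, v₀ + (s - s₀)) := by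
  set W : ℝ × ℝ → ℝ × ℝ := fun p => (-Real.sin (g p), Real.cos (g p)) with hW
  have hWs : ContDiff ℝ 1 W :=
    ((Real.contDiff_sin.comp (hg.of_le (by simp))).neg).prodMk
      (Real.contDiff_cos.comp (hg.of_le (by simp)))
  set β : ℝ → ℝ × ℝ := fun s => (x₁, v₀ + (s - s₀)) with hβ
  have hβd : ∀ s, HasDerivAt β (0, 1) s := fun s =>
    (hasDerivAt_const s x₁).prodMk (((hasDerivAt_id s).sub_const s₀).const_add v₀)
  have hβW : ∀ r, s₀ - (v₀ - y₁) ≤ r → HasDerivAt β (W (β r)) r := by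
    intro r hr
    have h1 : g (β r) = 0 := hg₁ _ (by linarith)
    have h2 : W (β r) = (0, 1) := by
      simp only [hW, h1, Real.sin_zero, Real.cos_zero, neg_zero]
    rw [h2]
    exact hβd r
  have hγc : Continuous γ := continuous_iff_continuousAt.2 fun t => (hγ t).continuousAt
  have hβc : Continuous β := continuous_iff_continuousAt.2 fun t => (hβd t).continuousAt
  set I : Set ℝ := Icc (min s s₀) (max s s₀) with hI
  have hK : IsCompact (γ '' I ∪ β '' I) :=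
    (isCompact_Icc.image hγc).union (isCompact_Icc.image hβc)
  obtain ⟨K, hK⟩ := (hWs.locallyLipschitz.locallyLipschitzOn
    (s := γ '' I ∪ β '' I)).exists_lipschitzOnWith_of_compact hK
  have h0 : γ s₀ = β s₀ := by rw [h, hβ]; simp
  have mγ : ∀ r ∈ I, γ r ∈ γ '' I ∪ β '' I := fun r hr => Or.inl ⟨r, hr, rfl⟩
  have mβ : ∀ r ∈ I, β r ∈ γ '' I ∪ β '' I := fun r hr => Or.inr ⟨r, hr, rfl⟩
  rcases le_total s s₀ with hle | hle
  · have hIe : I = Icc s s₀ := by rw [hI, min_eq_left hle, max_eq_right hle]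
    have key := ODE_solution_unique_of_mem_Icc_left (v := fun _ => W)
      (s := fun _ => γ '' I ∪ β '' I) (K := K) (f := γ) (g := β) (a := s) (b := s₀)
      (fun _ _ => hK) hγc.continuousOn (fun r _ => (hγ r).hasDerivWithinAt)
      (fun r hr => mγ r (by rw [hIe]; exact ⟨hr.1.le, hr.2⟩)) hβc.continuousOn
      (fun r hr => (hβW r (by linarith [hr.1])).hasDerivWithinAt)
      (fun r hr => mβ r (by rw [hIe]; exact ⟨hr.1.le, hr.2⟩)) h0
    exact key ⟨le_rfl, hle⟩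
  · have hIe : I = Icc s₀ s := by rw [hI, min_eq_right hle, max_eq_left hle]
    have key := ODE_solution_unique_of_mem_Icc_right (v := fun _ => W)
      (s := fun _ => γ '' I ∪ β '' I) (K := K) (f := γ) (g := β) (a := s₀) (b := s)
      (fun _ _ => hK) hγc.continuousOn (fun r _ => (hγ r).hasDerivWithinAt)
      (fun r hr => mγ r (by rw [hIe]; exact ⟨hr.1, hr.2.le⟩)) hβc.continuousOn
      (fun r hr => (hβW r (by linarith [hr.1])).hasDerivWithinAt)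
      (fun r hr => mβ r (by rw [hIe]; exact ⟨hr.1, hr.2.le⟩)) h0
    exact key ⟨hle, le_rfl⟩

/-- from the real plane to the complex plane -/
noncomputable def toC : (ℝ × ℝ) ≃L[ℝ] ℂ := Complex.equivRealProdCLM.symm

theorem toC_re (p : ℝ × ℝ) : (toC p).re = p.1 := rfl

theorem toC_im (p : ℝ × ℝ) : (toC p).im = p.2 := rfl

/-- **Confinement.** -/
theorem confinement {g : ℝ × ℝ → ℝ} (hg : ContDiff ℝ ∞ g) {c c' : ℝ → ℝ × ℝ}
    (hc : ∀ σ, HasDerivAt c (c' σ) σ) (hcc : Continuous c') (hinj : Function.Injective c)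
    (hangle : ∀ σ, 0 < (c' σ).1 * Real.cos (g (c σ)) + (c' σ).2 * Real.sin (g (c σ)))
    (hr : Tendsto (fun σ => (c σ).1) atTop atTop) (hl : Tendsto (fun σ => (c σ).1) atBot atBot)
    {σ₁ σ₂ : ℝ} (ray₁ : ∀ σ, (c σ).1 = (c σ₁).1 → (c σ).2 ≤ (c σ₁).2)
    (ray₂ : ∀ σ, (c σ).1 = (c σ₂).1 → (c σ).2 ≤ (c σ₂).2)
    (hg₁ : ∀ y, (c σ₁).2 ≤ y → g ((c σ₁).1, y) = 0)
    (hg₂ : ∀ y, (c σ₂).2 ≤ y → g ((c σ₂).1, y) = 0) {γ : ℝ → ℝ × ℝ}
    (hγ : ∀ s, HasDerivAt γ (-Real.sin (g (γ s)), Real.cos (g (γ s))) s) {σ₀ : ℝ}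
    (hσ₀ : σ₀ ∈ Icc σ₁ σ₂) (h0 : γ 0 = c σ₀) : ∃ C, ∀ s ≥ 0, |(γ s).1| ≤ C := by
  have hend : ∀ τ : ℝ, σ₀ = τ → (∀ y, (c τ).2 ≤ y → g ((c τ).1, y) = 0) →
      ∃ C, ∀ s ≥ 0, |(γ s).1| ≤ C := by
    intro τ hτ hgτ
    rw [hτ] at h0
    refine ⟨|(c τ).1|, fun s hs => ?_⟩
    rw [ray_orbit hg hγ hgτ (s₀ := 0) (v₀ := (c τ).2) h0 le_rfl (s := s) (by linarith)]
  rcases hσ₀.1.eq_or_lt with h1 | h1
  · exact hend σ₁ h1.symm hg₁
  rcases hσ₀.2.eq_or_lt with h2 | h2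
  · exact hend σ₂ h2 hg₂
  -- the complex picture
  have hC : CLine (fun t => toC (c t)) (fun t => toC (c' t)) := {
    hc := fun t => toC.hasFDerivAt.comp_hasDerivAt t (hc t)
    hc' := toC.continuous.comp hcc
    ne := fun t h => by
      have h3 := hangle t
      have h4 : c' t = 0 := by simpa using h
      rw [h4] at h3
      simp at h3
    inj := fun s t h => hinj (toC.injective h)
    right := hr
    left := hl }
  set V : ℂ → ℂ := fun z => toC (-Real.sin (g (z.re, z.im)), Real.cos (g (z.re, z.im))) with hV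
  have hVt : ∀ p : ℝ × ℝ, V (toC p) = toC (-Real.sin (g p), Real.cos (g p)) := fun p => rfl
  have htr : ∀ t, 0 < (V (toC (c t)) / toC (c' t)).im := by
    intro t
    rw [hVt, Complex.div_im, toC_im, toC_re, toC_re, toC_im]
    have h3 := hangle t
    have h4 : 0 < Complex.normSq (toC (c' t)) := Complex.normSq_pos.2 (hC.ne t)
    have h5 : Real.cos (g (c t)) * (c' t).1 / Complex.normSq (toC (c' t)) -
        -Real.sin (g (c t)) * (c' t).2 / Complex.normSq (toC (c' t)) =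
        ((c' t).1 * Real.cos (g (c t)) + (c' t).2 * Real.sin (g (c t))) /
          Complex.normSq (toC (c' t)) := by ring
    rw [h5]
    exact div_pos h3 h4
  have hγ' : ∀ s, HasDerivAt (fun s => toC (γ s)) (V (toC (γ s))) s := fun s =>
    toC.hasFDerivAt.comp_hasDerivAt s (hγ s)
  have h0' : toC (γ 0) = toC (c σ₀) := by rw [h0]
  have hno : ∀ s : ℝ, 0 < s → toC (γ s) ∉ range fun t => toC (c t) := fun s hs =>
    hC.no_return htr hγ' h0' hs
  have hray : ∀ τ : ℝ, σ₀ ≠ τ → (∀ σ, (c σ).1 = (c τ).1 → (c σ).2 ≤ (c τ).2) →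
      (∀ y, (c τ).2 ≤ y → g ((c τ).1, y) = 0) → ∀ s : ℝ, 0 < s → ∀ y : ℝ, 0 ≤ y →
      toC (γ s) ≠ toC (c τ) + y * Complex.I := by
    intro τ hτ hrayτ hgτ s hs y hy heq
    have e1 : γ s = ((c τ).1, (c τ).2 + y) := by
      have e2 : (toC (γ s)).re = (c τ).1 := by rw [heq]; simp [toC_re]
      have e3 : (toC (γ s)).im = (c τ).2 + y := by rw [heq]; simp [toC_im]
      exact Prod.ext e2 e3
    rcases lt_or_ge y s with hlt | hge
    · have e4 := ray_orbit hg hγ hgτ e1 (by linarith) (s := s - y) (by linarith)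
      refine hno (s - y) (by linarith) ⟨τ, ?_⟩
      show toC (c τ) = toC (γ (s - y))
      rw [e4]
      congr 1
      exact Prod.ext rfl (by simp)
    · have e4 := ray_orbit hg hγ hgτ e1 (by linarith) (s := 0) (by linarith)
      rw [h0] at e4
      have e5 := hrayτ σ₀ (by rw [e4])
      have e6 : (c σ₀).2 = (c τ).2 + y - s := by rw [e4]; ring
      have e7 : y = s := by linarith
      refine hτ (hinj (Prod.ext ?_ ?_))
      · rw [e4]
      · rw [e6, e7]; ring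
  have hcc' : Continuous fun t => |(c t).1| :=
    (continuous_fst.comp (continuous_iff_continuousAt.2 fun t => (hc t).continuousAt)).abs
  obtain ⟨M, hM⟩ := (isCompact_Icc (a := σ₁) (b := σ₂)).exists_bound_of_continuousOn
    hcc'.continuousOn
  have hM' : ∀ t ∈ Icc σ₁ σ₂, |(c t).1| ≤ M := fun t ht => by
    have := hM t ht
    rwa [Real.norm_eq_abs, abs_abs] at this
  refine ⟨M, fun s hs => ?_⟩
  rcases hs.le.eq_or_lt with h3 | h3
  · rw [← h3, h0]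
    exact hM' σ₀ hσ₀
  · obtain ⟨⟨t, ht, ht2⟩, ⟨t', ht', ht'2⟩⟩ := hC.confine htr hγ' h1 h2
      (fun σ hσ => ray₁ σ hσ) (fun σ hσ => ray₂ σ hσ) h0'
      (hray σ₁ h1.ne' ray₁ hg₁) (hray σ₂ h2.ne ray₂ hg₂) h3
    have f1 : (c t).1 ≤ (γ s).1 := ht2
    have f2 : (γ s).1 ≤ (c t').1 := ht'2
    have f3 := abs_le.1 (hM' t ht)
    have f4 := abs_le.1 (hM' t' ht')
    exact abs_le.2 ⟨by linarith [f3.1], by linarith [f4.2]⟩

end Vale.Agent.P220.R2.H481
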