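import Mathlib

/-!
# P220: exact Lagrangians and Hamiltonian isotopies in `T*Q`, `Q ⊂ E` a closed submanifold

`E` is a Euclidean space and `Q ⊂ E` a compact smooth submanifold. A covector of `Q` at `q` is
written as the tangent vector `p` which represents it, `v ↦ ⟪p, v⟫`, so that
`T*Q = {(q, p) | q ∈ Q, p ∈ T_q Q} ⊂ E × E`, with canonical one-form `λ = ⟪p, dq⟫` and
`ω = dλ`.
-/

open Set
open scoped ContDiff RealInnerProductSpace

namespace Vale.Agent.P220.R2.H481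

/-- A vector `v` is tangent to `K` at `x` if it is the velocity of a smooth curve in `K`. -/
def tan {F : Type} [NormedAddCommGroup F] [NormedSpace ℝ F] (K : Set F) (x : F) : Set F :=
  {v | ∃ γ : ℝ → F, ContDiff ℝ ∞ γ ∧ (∀ t, γ t ∈ K) ∧ γ 0 = x ∧ HasDerivAt γ v 0}

/-- `K` is a smooth `n`-dimensional submanifold of `F` (without boundary): every point of `K` has a
relatively open neighbourhood `K ∩ U` which is diffeomorphic to an open subset `V` of `ℝⁿ`, by
mutually inverse maps `g` and `ψ` that are restrictions of smooth maps on open sets. -/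
def IsSubmanifold {F : Type} [NormedAddCommGroup F] [NormedSpace ℝ F] (n : ℕ) (K : Set F) :
    Prop :=
  ∀ x ∈ K, ∃ (U : Set F) (V : Set (EuclideanSpace ℝ (Fin n)))
    (g : F → EuclideanSpace ℝ (Fin n)) (ψ : EuclideanSpace ℝ (Fin n) → F),
    IsOpen U ∧ x ∈ U ∧ IsOpen V ∧ ContDiffOn ℝ ∞ g U ∧ ContDiffOn ℝ ∞ ψ V ∧
    (∀ y ∈ K ∩ U, g y ∈ V ∧ ψ (g y) = y) ∧ ∀ w ∈ V, ψ w ∈ K ∩ U ∧ g (ψ w) = w

variable {E : Type} [NormedAddCommGroup E] [InnerProductSpace ℝ E]

/-- The cotangent bundle of `Q`: pairs `(q, p)` with `q ∈ Q` and `p` tangent to `Q` at `q`, which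
stands for the covector `v ↦ ⟪p, v⟫`. -/
def cotangent (Q : Set E) : Set (E × E) := {z | z.1 ∈ Q ∧ z.2 ∈ tan Q z.1}

/-- The zero section. -/
def zeroSection (Q : Set E) : Set (E × E) := {z | z.1 ∈ Q ∧ z.2 = 0}

/-- The canonical one-form `λ = ⟪p, dq⟫` at `z = (q, p)`. -/
def lam (z v : E × E) : ℝ := ⟪z.2, v.1⟫

/-- The canonical symplectic form `ω = dλ`. -/
def om (v w : E × E) : ℝ := ⟪v.2, w.1⟫ - ⟪w.2, v.1⟫

/-- A smooth time-dependent Hamiltonian on `T*Q`, supported at all times in one compact set. -/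
structure IsHam (Q : Set E) (H : ℝ × (E × E) → ℝ) : Prop where
  /-- smooth (the restriction to `T*Q` of a smooth function on `E × E`) -/
  smooth : ContDiff ℝ ∞ H
  /-- compactly supported -/
  supp : ∃ K : Set (E × E), IsCompact K ∧ ∀ s, ∀ z ∈ cotangent Q, z ∉ K → H (s, z) = 0

/-- `φ s`, `0 ≤ s ≤ 1`, is the flow on `T*Q` of the Hamiltonian vector field of `H`, given by
`ω(X_H, w) = - dH(w)` for all `w` tangent to `T*Q`. -/
def IsFlow (Q : Set E) (H : ℝ × (E × E) → ℝ) (φ : ℝ → E × E → E × E) : Prop :=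
  ∀ z ∈ cotangent Q, φ 0 z = z ∧ ∀ s ∈ Icc (0 : ℝ) 1, φ s z ∈ cotangent Q ∧
    ∃ v : E × E, HasDerivWithinAt (fun r => φ r z) v (Icc 0 1) s ∧
      v ∈ tan (cotangent Q) (φ s z) ∧
      ∀ w ∈ tan (cotangent Q) (φ s z), om v w = - fderiv ℝ (fun y => H (s, y)) (φ s z) w

/-- `L` is the image of the zero section of `T*Q` under the time-one map of a compactly supported
smooth time-dependent Hamiltonian. -/
def HamIsotopicToZero (Q : Set E) (L : Set (E × E)) : Prop :=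
  ∃ (H : ℝ × (E × E) → ℝ) (φ : ℝ → E × E → E × E), IsHam Q H ∧ IsFlow Q H φ ∧
    φ 1 '' zeroSection Q = L

/-- `L` is a closed exact Lagrangian submanifold of `T*Q`, where `n = dim Q`. -/
structure IsExactLagrangian (n : ℕ) (Q : Set E) (L : Set (E × E)) : Prop where
  /-- contained in `T*Q` -/
  sub : L ⊆ cotangent Q
  /-- compact -/
  compact : IsCompact L
  /-- an embedded submanifold of dimension `n = dim Q` -/
  mfd : IsSubmanifold n L
  /-- the canonical one-form is the differential of a smooth function on `L` -/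
  exact : ∃ f : E × E → ℝ, ContDiff ℝ ∞ f ∧ ∀ z ∈ L, ∀ v ∈ tan L z, fderiv ℝ f z v = lam z v

/-- A smooth vector field on `Q`. -/
structure IsVectorField (Q : Set E) (X : E → E) : Prop where
  /-- smooth -/
  smooth : ContDiff ℝ ∞ X
  /-- tangent to `Q` -/
  tangent : ∀ q ∈ Q, X q ∈ tan Q q

/-- The closure of every forward and of every backward half-orbit of `X` contains a zero of `X`.
-/
def ZeroLimits (Q : Set E) (X : E → E) : Prop :=
  ∀ γ : ℝ → E, γ 0 ∈ Q → (∀ t, HasDerivAt γ (X (γ t)) t) → ∀ ε > 0,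
    (∃ t ≥ 0, ∃ q ∈ Q, X q = 0 ∧ ‖γ t - q‖ < ε) ∧ ∃ t ≤ 0, ∃ q ∈ Q, X q = 0 ∧ ‖γ t - q‖ < ε

/-- The map `(q, p) ↦ (q, p(X(q)))` is an injective immersion of `L` into `Q × ℝ`. -/
structure IsMomentumEmbedded (L : Set (E × E)) (X : E → E) : Prop where
  /-- injective -/
  inj : ∀ z ∈ L, ∀ z' ∈ L, z.1 = z'.1 → ⟪z.2, X z.1⟫ = ⟪z'.2, X z'.1⟫ → z = z'
  /-- an immersion -/
  imm : ∀ z ∈ L, ∀ v ∈ tan L z, v.1 = 0 →
    fderiv ℝ (fun y : E × E => (⟪y.2, X y.1⟫ : ℝ)) z v = 0 → v = 0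

end Vale.Agent.P220.R2.H481
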