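import Vale.Agent.P220.R2.H481.Mfd

/-!
# Extension of smooth maps from submanifolds, left inverses of embeddings
-/

open Set Filter Topology
open scoped ContDiff RealInnerProductSpace Manifold

namespace Vale.Agent.P220.R2.H481

variable {F G H : Type} [NormedAddCommGroup F] [NormedSpace ℝ F] [FiniteDimensional ℝ F]
  [NormedAddCommGroup G] [NormedSpace ℝ G] [NormedAddCommGroup H] [NormedSpace ℝ H]
  {n : ℕ} {K : Set F} {x : F}

/-- smooth maps with values in given convex sets, from local ones -/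
theorem exists_convex_ext {t : F → Set G} (ht : ∀ y, Convex ℝ (t y))
    (hloc : ∀ x : F, ∃ g : F → G, ContDiff ℝ ∞ g ∧ ∀ᶠ y in 𝓝 x, g y ∈ t y) :
    ∃ g : F → G, ContDiff ℝ ∞ g ∧ ∀ y, g y ∈ t y := by
  obtain ⟨g, hg⟩ := exists_contMDiffMap_forall_mem_convex_of_local (n := (⊤ : ℕ∞)) 𝓘(ℝ, F) ht
    fun x => by
      obtain ⟨g, hg, hg'⟩ := hloc x
      exact ⟨_, hg', g, hg.contMDiff.contMDiffOn, fun y hy => hy⟩
  exact ⟨g, g.contMDiff.contDiff, hg⟩

/-- extension of a function that is locally, on the closed set `K`, the restriction of a smooth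
function -/
theorem exists_ext (hK : IsClosed K) {f : F → G}
    (hloc : ∀ x ∈ K, ∃ g : F → G, ContDiff ℝ ∞ g ∧ ∀ᶠ y in 𝓝 x, y ∈ K → g y = f y) :
    ∃ g : F → G, ContDiff ℝ ∞ g ∧ ∀ y ∈ K, g y = f y := by
  obtain ⟨g, hg, hg'⟩ := exists_convex_ext (F := F) (G := G)
    (t := fun y => {v | y ∈ K → v = f y}) (fun y => by
      by_cases hy : y ∈ K
      · have : {v : G | y ∈ K → v = f y} = {f y} := by
          ext v; simp [hy]
        rw [this]; exact convex_singleton _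
      · have : {v : G | y ∈ K → v = f y} = univ := by
          ext v; simp [hy]
        rw [this]; exact convex_univ) (fun x => by
      by_cases hx : x ∈ K
      · exact hloc x hx
      · refine ⟨fun _ => 0, contDiff_const, ?_⟩
        filter_upwards [hK.isOpen_compl.mem_nhds hx] with y hy hyK
        exact absurd hyK hy)
  exact ⟨g, hg, hg'⟩

theorem exists_loc_left_inv [FiniteDimensional ℝ G] {f : F → G} (hf : ContDiff ℝ ∞ f) {x₀ : F}
    (hx : Function.Injective (fderiv ℝ f x₀)) :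
    ∃ T : G → F, ContDiff ℝ ∞ T ∧ ∀ᶠ x in 𝓝 x₀, T (f x) = x := by
  obtain ⟨g, hg⟩ := LinearMap.exists_leftInverse_of_injective
    (fderiv ℝ f x₀ : F →ₗ[ℝ] G) (LinearMap.ker_eq_bot.2 hx)
  set L : G →L[ℝ] F := LinearMap.toContinuousLinearMap g with hL
  have hLg : ∀ v, L (fderiv ℝ f x₀ v) = v := fun v => by
    have := LinearMap.congr_fun hg v
    exact this
  have h1 : ContDiff ℝ ∞ (fun x => L (f x)) := L.contDiff.comp hf
  have h2 : fderiv ℝ (fun x => L (f x)) x₀ = L.comp (fderiv ℝ f x₀) :=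
    (L.hasFDerivAt.comp x₀ (hf.differentiable (by simp) x₀).hasFDerivAt).fderiv
  have h3 : Function.Injective (fderiv ℝ (fun x => L (f x)) x₀) := by
    intro v v' hv
    rw [h2] at hv
    simpa only [ContinuousLinearMap.comp_apply, hLg] using hv
  obtain ⟨U, hU, T, hT, hT'⟩ := Vale.Agent.P220.H64.exists_loc_inv h1 h3
  obtain ⟨T', hT1, hT2⟩ := exists_germ_ext hU hT
  refine ⟨fun z => T' (L z), hT1.comp L.contDiff, ?_⟩
  have hc : Tendsto (fun x => L (f x)) (𝓝 x₀) (𝓝 (L (f x₀))) := h1.continuous.tendsto x₀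
  filter_upwards [hT', hc.eventually hT2] with x e1 e2
  rw [e2, e1]

/-- an embedding of a compact submanifold has smooth local left inverses -/
theorem exists_local_inv [FiniteDimensional ℝ G] (hK : IsSubmanifold n K) (hKc : IsCompact K)
    {Φ : F → G} (hΦ : ContDiff ℝ ∞ Φ) (hinj : InjOn Φ K) (hx : x ∈ K)
    (himm : ∀ v ∈ tan K x, fderiv ℝ Φ x v = 0 → v = 0) :
    ∃ T : G → F, ContDiff ℝ ∞ T ∧ ∀ᶠ y in 𝓝 (Φ x), ∀ z ∈ K, Φ z = y → T y = z := by
  obtain ⟨g, ψ, hc⟩ := hK.chart hx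
  have h1 : ContDiff ℝ ∞ (Φ ∘ ψ) := hΦ.comp hc.hψ
  have h2 : fderiv ℝ (Φ ∘ ψ) 0 = (fderiv ℝ Φ x).comp (fderiv ℝ ψ 0) := by
    have := (hΦ.differentiable (by simp) x).hasFDerivAt
    rw [← hc.ψ0] at this
    have := (this.comp 0 (hc.hasFDerivAt_ψ 0)).fderiv
    rwa [hc.ψ0] at this
  have h3 : Function.Injective (fderiv ℝ (Φ ∘ ψ) 0) := by
    rw [h2, injective_iff_map_eq_zero]
    intro w hw
    have h1 : fderiv ℝ ψ 0 w = 0 := himm _ (by rw [hc.tan_eq]; exact ⟨w, rfl⟩) hw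
    exact hc.inj_ψ (by rw [h1, map_zero])
  obtain ⟨T, hT, hT'⟩ := exists_loc_left_inv h1 h3
  refine ⟨ψ ∘ T, hc.hψ.comp hT, ?_⟩
  -- points of `K` whose image is close to `Φ x` are close to `x`
  have key : ∀ U ∈ 𝓝 x, ∀ᶠ y in 𝓝 (Φ x), ∀ z ∈ K, Φ z = y → z ∈ U := by
    intro U hU
    have hC : IsCompact (K ∩ (interior U)ᶜ) := hKc.inter_right isOpen_interior.isClosed_compl
    have hC2 : IsClosed (Φ '' (K ∩ (interior U)ᶜ)) := (hC.image hΦ.continuous).isClosed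
    have hn : Φ x ∉ Φ '' (K ∩ (interior U)ᶜ) := by
      rintro ⟨z, ⟨hz, hzU⟩, hzx⟩
      rw [hinj hz hx hzx] at hzU
      exact hzU (mem_interior_iff_mem_nhds.2 hU)
    filter_upwards [hC2.isOpen_compl.mem_nhds hn] with y hy z hz hzy
    by_contra hzU
    exact hy ⟨z, ⟨hz, fun h => hzU (interior_subset h)⟩, hzy⟩
  have hgc : Tendsto g (𝓝 x) (𝓝 0) := by
    have := hc.hg.continuous.tendsto x
    rwa [hc.g0] at this
  filter_upwards [key _ (hc.right.and (hgc.eventually hT'))] with y hy z hz hzy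
  obtain ⟨h4, h5⟩ := hy z hz hzy
  have h6 : ψ (g z) = z := h4 hz
  simp only [Function.comp_apply, h6, hzy] at h5
  simp only [Function.comp_apply]
  rw [h5, h6]

/-- functions on the image of an embedding -/
theorem exists_transfer [FiniteDimensional ℝ G] (hK : IsSubmanifold n K) (hKc : IsCompact K)
    {Φ : F → G} (hΦ : ContDiff ℝ ∞ Φ) (hinj : InjOn Φ K)
    (himm : ∀ x ∈ K, ∀ v ∈ tan K x, fderiv ℝ Φ x v = 0 → v = 0) {b : F → H}
    (hb : ContDiff ℝ ∞ b) : ∃ β : G → H, ContDiff ℝ ∞ β ∧ ∀ z ∈ K, β (Φ z) = b z := by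
  have hloc : ∀ y ∈ Φ '' K, ∃ g : G → H, ContDiff ℝ ∞ g ∧ ∀ᶠ y' in 𝓝 y, y' ∈ Φ '' K →
      g y' = b (Function.invFunOn Φ K y') := by
    rintro y ⟨x, hx, rfl⟩
    obtain ⟨T, hT, hT'⟩ := exists_local_inv hK hKc hΦ hinj hx (himm x hx)
    refine ⟨b ∘ T, hb.comp hT, ?_⟩
    filter_upwards [hT'] with y hy hyK
    have h1 := Function.invFunOn_mem (mem_image Φ K y |>.1 hyK)
    have h2 := Function.invFunOn_eq (mem_image Φ K y |>.1 hyK)
    rw [Function.comp_apply, hy _ h1 h2]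
  obtain ⟨β, hβ, hβ'⟩ := exists_ext (hKc.image hΦ.continuous).isClosed hloc
  refine ⟨β, hβ, fun z hz => ?_⟩
  have h1 : ∃ a ∈ K, Φ a = Φ z := ⟨z, hz, rfl⟩
  rw [hβ' _ ⟨z, hz, rfl⟩, hinj (Function.invFunOn_mem h1) hz (Function.invFunOn_eq h1)]

end Vale.Agent.P220.R2.H481
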