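import Vale.Agent.P220.R2.H481.Mfd

/-!
# Integral curves of tangent vector fields stay in closed sets
-/

open Set Filter Topology
open scoped ContDiff RealInnerProductSpace

namespace Vale.Agent.P220.R2.H481

section Euclid

variable {F : Type} [NormedAddCommGroup F] [InnerProductSpace ℝ F] [FiniteDimensional ℝ F]
  {K : Set F}

omit [FiniteDimensional ℝ F] in
/-- at a nearest point the displacement is orthogonal to tangent vectors -/
theorem inner_nearest {x p v : F} (h : ∀ y ∈ K, ‖x - p‖ ≤ ‖x - y‖)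
    (hv : v ∈ tan K p) : ⟪x - p, v⟫ = 0 := by
  obtain ⟨γ, h1, h2, h3, h4⟩ := hv
  have h5 : HasDerivAt (fun t => ‖x - γ t‖ ^ 2) (2 * ⟪x - γ 0, -v⟫) 0 := by
    have : HasDerivAt (fun t => x - γ t) (-v) 0 := h4.const_sub x
    exact this.norm_sq
  have h6 : IsLocalMin (fun t => ‖x - γ t‖ ^ 2) 0 := by
    refine Eventually.of_forall fun t => ?_
    have := h (γ t) (h2 t)
    rw [← h3] at this
    show ‖x - γ 0‖ ^ 2 ≤ ‖x - γ t‖ ^ 2
    gcongr
  have h7 := h6.hasDerivAt_eq_zero h5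
  rw [h3, inner_neg_right] at h7
  linarith

theorem invariant_euclid (hK : IsClosed K) {Y : F → F} (hY : ContDiff ℝ ∞ Y)
    (htan : ∀ x ∈ K, Y x ∈ tan K x) {γ : ℝ → F} {T : ℝ}
    (hγ : ∀ t ∈ Icc 0 T, HasDerivWithinAt γ (Y (γ t)) (Icc 0 T) t)
    (h0 : γ 0 ∈ K) : ∀ t ∈ Icc 0 T, γ t ∈ K := by
  by_cases hT : 0 ≤ T
  swap
  · intro t ht
    exact absurd (ht.1.trans ht.2) hT
  have hγc : ContinuousOn γ (Icc 0 T) := fun t ht => (hγ t ht).continuousWithinAt
  -- a ball containing the curve and all nearest points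
  obtain ⟨R, hR⟩ : ∃ R : ℝ, ∀ t ∈ Icc 0 T, ‖γ t - γ 0‖ ≤ R :=
    ((isCompact_Icc).image_of_continuousOn (hγc.sub continuousOn_const)).isBounded.exists_norm_le
      |>.imp fun R hR t ht => hR _ ⟨t, ht, rfl⟩
  set B := Metric.closedBall (γ 0) (2 * R) with hB
  have hR0 : 0 ≤ R := by
    have := hR 0 ⟨le_rfl, hT⟩
    rwa [sub_self, norm_zero] at this
  have hBc : Convex ℝ B := convex_closedBall _ _
  obtain ⟨C, hC⟩ := (isCompact_closedBall (γ 0) (2 * R)).exists_bound_of_continuousOn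
    (hY.continuous_fderiv (by simp)).continuousOn
  have hlip : ∀ y ∈ B, ∀ z ∈ B, ‖Y y - Y z‖ ≤ C * ‖y - z‖ := fun y hy z hz =>
    hBc.norm_image_sub_le_of_norm_fderiv_le (fun w _ => hY.differentiable (by simp) w)
      (fun w hw => hC w hw) hz hy
  -- nearest points
  have hnear : ∀ t, ∃ p ∈ K, ∀ y ∈ K, ‖γ t - p‖ ≤ ‖γ t - y‖ := by
    intro t
    obtain ⟨p, hp, hp'⟩ := hK.exists_infDist_eq_dist ⟨γ 0, h0⟩ (γ t)
    refine ⟨p, hp, fun y hy => ?_⟩
    rw [← dist_eq_norm, ← dist_eq_norm, ← hp']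
    exact Metric.infDist_le_dist_of_mem hy
  choose p hpK hp using hnear
  have hpB : ∀ t ∈ Icc 0 T, p t ∈ B := by
    intro t ht
    rw [hB, Metric.mem_closedBall, dist_eq_norm]
    have h1 := hp t (γ 0) h0
    calc ‖p t - γ 0‖ = ‖(γ t - γ 0) - (γ t - p t)‖ := by congr 1; abel
      _ ≤ ‖γ t - γ 0‖ + ‖γ t - p t‖ := norm_sub_le _ _
      _ ≤ 2 * R := by linarith [hR t ht]
  have hγB : ∀ t ∈ Icc 0 T, γ t ∈ B := by
    intro t ht
    rw [hB, Metric.mem_closedBall, dist_eq_norm]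
    linarith [hR t ht]
  have hp2 : ∀ s t, ‖γ s - p s‖ ^ 2 ≤ ‖γ s - p t‖ ^ 2 := fun s t => by
    have := hp s (p t) (hpK t)
    gcongr
  have hcont : ContinuousOn (fun t => ‖γ t - p t‖ ^ 2) (Icc 0 T) := by
    have e : ∀ t, ‖γ t - p t‖ = Metric.infDist (γ t) K := by
      intro t
      refine le_antisymm ?_ ?_
      · refine (Metric.le_infDist ⟨_, h0⟩).2 fun y hy => ?_
        rw [dist_eq_norm]
        exact hp t y hy
      · rw [← dist_eq_norm]
        exact Metric.infDist_le_dist_of_mem (hpK t)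
    simp only [e]
    exact ((Metric.continuous_infDist_pt K).comp_continuousOn hγc).pow 2
  have key := le_gronwallBound_of_liminf_deriv_right_le (f := fun t => ‖γ t - p t‖ ^ 2)
    (f' := fun t => 2 * ⟪γ t - p t, Y (γ t)⟫) (δ := 0) (K := 2 * C) (ε := 0) (a := 0) (b := T)
    hcont (fun x hx r hr => by
      have hd : HasDerivWithinAt (fun t => ‖γ t - p x‖ ^ 2) (2 * ⟪γ x - p x, Y (γ x)⟫)
          (Icc 0 T) x := ((hγ x (Ico_subset_Icc_self hx)).sub_const (p x)).norm_sq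
      have hd2 : HasDerivWithinAt (fun t => ‖γ t - p x‖ ^ 2) (2 * ⟪γ x - p x, Y (γ x)⟫)
          (Ioi x) x := hd.mono_of_mem_nhdsWithin (Icc_mem_nhdsGT_of_mem hx)
      have h1 := (hasDerivWithinAt_iff_tendsto_slope' (by simp)).1 hd2
      have h2 : ∀ᶠ z in 𝓝[>] x, slope (fun t => ‖γ t - p x‖ ^ 2) x z < r :=
        h1.eventually (Iio_mem_nhds hr)
      refine Eventually.frequently ?_
      filter_upwards [h2, self_mem_nhdsWithin] with z hz hzx
      refine lt_of_le_of_lt ?_ hz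
      rw [slope_def_field, div_eq_inv_mul]
      have h3 : (0 : ℝ) ≤ (z - x)⁻¹ := inv_nonneg.2 (sub_nonneg.2 (le_of_lt hzx))
      have h5 := hp2 z x
      exact mul_le_mul_of_nonneg_left (sub_le_sub_right h5 _) h3) (by
        have h1 := hp 0 (γ 0) h0
        rw [sub_self, norm_zero] at h1
        have h2 : ‖γ 0 - p 0‖ = 0 := le_antisymm h1 (norm_nonneg _)
        simp only [h2]
        norm_num) (fun x hx => by
      have hx' := Ico_subset_Icc_self hx
      have h1 : ⟪γ x - p x, Y (p x)⟫ = 0 := inner_nearest (hp x) (htan _ (hpK x))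
      have h2 : ⟪γ x - p x, Y (γ x)⟫ = ⟪γ x - p x, Y (γ x) - Y (p x)⟫ := by
        rw [inner_sub_right, h1, sub_zero]
      have h3 : ⟪γ x - p x, Y (γ x) - Y (p x)⟫ ≤ ‖γ x - p x‖ * (C * ‖γ x - p x‖) :=
        (real_inner_le_norm _ _).trans
          (mul_le_mul_of_nonneg_left (hlip _ (hγB x hx') _ (hpB x hx')) (norm_nonneg _))
      show 2 * ⟪γ x - p x, Y (γ x)⟫ ≤ 2 * C * ‖γ x - p x‖ ^ 2 + 0
      rw [h2]
      nlinarith)
  intro t ht
  have h1 := key t ht
  rw [gronwallBound_ε0_δ0] at h1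
  have h2 : ‖γ t - p t‖ = 0 := by
    have : ‖γ t - p t‖ ^ 2 = 0 := le_antisymm h1 (by positivity)
    exact pow_eq_zero_iff (by norm_num) |>.1 this
  rw [sub_eq_zero.1 (norm_eq_zero.1 h2)]
  exact hpK t

end Euclid

section General

variable {F : Type} [NormedAddCommGroup F] [NormedSpace ℝ F] {K : Set F}

theorem tan_image {F' : Type} [NormedAddCommGroup F'] [NormedSpace ℝ F'] (e : F ≃L[ℝ] F')
    {x v : F} (hv : v ∈ tan K x) : e v ∈ tan (e '' K) (e x) := by
  obtain ⟨γ, h1, h2, h3, h4⟩ := hv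
  exact ⟨fun t => e (γ t), e.contDiff.comp h1, fun t => ⟨_, h2 t, rfl⟩,
    congrArg e h3,
    (e : F →L[ℝ] F').hasFDerivAt.comp_hasDerivAt 0 h4⟩

theorem tan_neg {x v : F} (hv : v ∈ tan K x) : -v ∈ tan K x := by
  obtain ⟨γ, h1, h2, h3, h4⟩ := hv
  refine ⟨fun t => γ (-t), h1.comp contDiff_neg, fun t => h2 _, by simpa using h3, ?_⟩
  have h5 : HasDerivAt (fun t : ℝ => -t) (-1) 0 := hasDerivAt_neg 0
  have h6 : HasDerivAt γ v (-0) := by rwa [neg_zero]
  have h7 := h6.scomp 0 h5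
  rw [neg_one_smul] at h7
  exact h7

variable [FiniteDimensional ℝ F]

/-- integral curves of a vector field tangent to the closed set `K` stay in `K` -/
theorem invariant_Icc (hK : IsClosed K) {Y : F → F} (hY : ContDiff ℝ ∞ Y)
    (htan : ∀ x ∈ K, Y x ∈ tan K x) {γ : ℝ → F} {T : ℝ}
    (hγ : ∀ t ∈ Icc 0 T, HasDerivWithinAt γ (Y (γ t)) (Icc 0 T) t)
    (h0 : γ 0 ∈ K) : ∀ t ∈ Icc 0 T, γ t ∈ K := by
  let e : F ≃L[ℝ] EuclideanSpace ℝ (Fin (Module.finrank ℝ F)) := toEuclidean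
  have h1 := invariant_euclid (K := e '' K) (e.isClosed_image.2 hK)
    (Y := fun y => e (Y (e.symm y))) (e.contDiff.comp (hY.comp e.symm.contDiff))
    (by
      rintro _ ⟨x, hx, rfl⟩
      rw [e.symm_apply_apply]
      exact tan_image e (htan x hx)) (γ := fun t => e (γ t)) (T := T) (fun t ht => by
        simp only [e.symm_apply_apply]
        exact (e : F →L[ℝ] EuclideanSpace ℝ (Fin (Module.finrank ℝ F))).hasFDerivAt.comp_hasDerivWithinAt
          t (hγ t ht)) ⟨_, h0, rfl⟩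
  intro t ht
  obtain ⟨y, hy, hy2⟩ := h1 t ht
  rwa [← e.injective hy2]

theorem invariant (hK : IsClosed K) {Y : F → F} (hY : ContDiff ℝ ∞ Y)
    (htan : ∀ x ∈ K, Y x ∈ tan K x) {γ : ℝ → F} (hγ : ∀ t, HasDerivAt γ (Y (γ t)) t)
    (h0 : γ 0 ∈ K) (t : ℝ) : γ t ∈ K := by
  rcases le_total 0 t with ht | ht
  · exact invariant_Icc hK hY htan (T := t) (fun s _ => (hγ s).hasDerivWithinAt) h0 t
      ⟨ht, le_rfl⟩
  · have h1 := invariant_Icc hK (Y := fun x => -Y x) hY.neg (fun x hx => tan_neg (htan x hx))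
      (γ := fun s => γ (-s)) (T := -t) (fun s _ => by
        have h5 : HasDerivAt (fun s : ℝ => -s) (-1) s := hasDerivAt_neg s
        have h6 := (hγ (-s)).scomp s h5
        rw [neg_one_smul] at h6
        exact h6.hasDerivWithinAt) (by simpa using h0) (-t) ⟨by linarith, le_rfl⟩
    simpa using h1

end General

end Vale.Agent.P220.R2.H481
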