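import Vale.Agent.P220.R2.H481.Ext

/-!
# Smooth families of orthogonal projections onto the tangent spaces
-/

open Set Filter Topology
open scoped ContDiff RealInnerProductSpace

namespace Vale.Agent.P220.R2.H481

variable {E : Type} [NormedAddCommGroup E] [InnerProductSpace ℝ E] [FiniteDimensional ℝ E]
  {n : ℕ} {Q : Set E}

/-- `P q` is, for `q ∈ Q`, the orthogonal projection onto the tangent space of `Q` at `q` -/
structure IsProj (Q : Set E) (P : E → E →L[ℝ] E) : Prop where
  smooth : ContDiff ℝ ∞ P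
  mem : ∀ q ∈ Q, ∀ v, P q v ∈ tan Q q
  id : ∀ q ∈ Q, ∀ v ∈ tan Q q, P q v = v
  symm : ∀ q ∈ Q, ∀ v w, ⟪P q v, w⟫ = ⟪v, P q w⟫

/-- transposed of a linear map `ℝⁿ → E`, as a continuous linear function of it -/
noncomputable def transp (n : ℕ) : (Rn n →L[ℝ] E) →L[ℝ] (E →L[ℝ] Rn n) :=
  ∑ j : Fin n, ((ContinuousLinearMap.smulRightL ℝ E (Rn n)).flip
    (EuclideanSpace.single j (1 : ℝ))).comp ((innerSL ℝ : E →L[ℝ] E →L[ℝ] ℝ).comp
      (ContinuousLinearMap.apply ℝ E (EuclideanSpace.single j (1 : ℝ) : Rn n)))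

omit [FiniteDimensional ℝ E] in
theorem transp_apply (A : Rn n →L[ℝ] E) (v : E) :
    transp n A v = ∑ j : Fin n, (⟪A (EuclideanSpace.single j 1), v⟫ : ℝ) •
      (EuclideanSpace.single j (1 : ℝ) : Rn n) := by
  simp [transp]

omit [FiniteDimensional ℝ E] in
theorem inner_transp (A : Rn n →L[ℝ] E) (v : E) (w : Rn n) :
    ⟪transp n A v, w⟫ = ⟪v, A w⟫ := by
  rw [transp_apply, sum_inner]
  have h1 : w = ∑ j : Fin n, w j • (EuclideanSpace.single j (1 : ℝ) : Rn n) := by
    ext i
    simp [Finset.sum_apply, Pi.single_apply]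
  have h2 : A w = ∑ j : Fin n, w j • A (EuclideanSpace.single j (1 : ℝ)) := by
    conv_lhs => rw [h1]
    rw [map_sum]
    simp only [map_smul]
  rw [h2, inner_sum]
  refine Finset.sum_congr rfl fun j _ => ?_
  rw [inner_smul_left, inner_smul_right, real_inner_comm]
  simp [EuclideanSpace.inner_single_left]
  ring

theorem exists_proj (hQ : IsSubmanifold n Q) (hQc : IsClosed Q) : ∃ P, IsProj Q P := by
  -- local formula
  have hloc : ∀ x ∈ Q, ∃ P : E → E →L[ℝ] E, ContDiff ℝ ∞ P ∧ ∀ᶠ q in 𝓝 x, q ∈ Q →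
      (∀ v, P q v ∈ tan Q q) ∧ (∀ v ∈ tan Q q, P q v = v) ∧ ∀ v w, ⟪P q v, w⟫ = ⟪v, P q w⟫ := by
    intro x hx
    obtain ⟨g, ψ, hc⟩ := hQ.chart hx
    set A : E → Rn n →L[ℝ] E := fun q => fderiv ℝ ψ (g q) with hA
    have hAs : ContDiff ℝ ∞ A := (hc.hψ.fderiv_right (m := ∞) (by simp)).comp hc.hg
    set B : E → E →L[ℝ] Rn n := fun q => transp n (A q) with hB
    have hBs : ContDiff ℝ ∞ B := (transp (E := E) n).contDiff.comp hAs
    set C : E → Rn n →L[ℝ] Rn n := fun q => (B q).comp (A q) with hC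
    have hCs : ContDiff ℝ ∞ C := hBs.clm_comp hAs
    have hCinj : ∀ q, Function.Injective (A q) → Function.Injective (C q) := by
      intro q hq
      rw [injective_iff_map_eq_zero]
      intro w hw
      have h1 : ⟪C q w, w⟫ = ⟪A q w, A q w⟫ := inner_transp _ _ _
      rw [hw, inner_zero_left] at h1
      have h2 : A q w = 0 := inner_self_eq_zero.1 h1.symm
      exact hq (by rw [h2, map_zero])
    set P : E → E →L[ℝ] E := fun q => ((A q).comp (C q).inverse).comp (B q) with hP
    set U : Set E := {q | (C q).det ≠ 0} with hU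
    have hUo : IsOpen U :=
      isOpen_ne.preimage (ContinuousLinearMap.continuous_det.comp hCs.continuous)
    have hequiv : ∀ q ∈ U, ∃ e : Rn n ≃L[ℝ] Rn n, (e : Rn n →L[ℝ] Rn n) = C q := fun q hq =>
      ⟨_, ContinuousLinearMap.coe_toContinuousLinearEquivOfDetNeZero (C q) hq⟩
    have hAx : Function.Injective (A x) := by
      have := hc.inj_ψ
      rw [hA]
      show Function.Injective (fderiv ℝ ψ (g x))
      rwa [hc.g0]
    have hxU : x ∈ U := Vale.Agent.P220.H64.det_ne_zero_of_injective (hCinj x hAx)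
    have hPU : ContDiffOn ℝ ∞ P U := by
      intro q hq
      refine ContDiffAt.contDiffWithinAt ?_
      obtain ⟨e, he⟩ := hequiv q hq
      have h1 : ContDiffAt ℝ ∞ (fun q => (C q).inverse) q := by
        have h2 : ContDiffAt ℝ ∞ ContinuousLinearMap.inverse (C q) := by
          rw [← he]
          exact contDiffAt_map_inverse e
        exact h2.comp q hCs.contDiffAt
      exact (hAs.contDiffAt.clm_comp h1).clm_comp hBs.contDiffAt
    obtain ⟨P', hP', hPP⟩ := exists_germ_ext (hUo.mem_nhds hxU) hPU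
    refine ⟨P', hP', ?_⟩
    filter_upwards [hPP, hUo.mem_nhds hxU, hc.shift] with q h1 h2 h3 hqQ
    obtain ⟨e, he⟩ := hequiv q h2
    have hcq := h3 hqQ
    have htan : tan Q q = range (A q) := by
      rw [hcq.tan_eq]
      congr 1
      have h4 : HasFDerivAt (fun w => ψ (w + g q)) (fderiv ℝ ψ (g q)) 0 := by
        have h5 := hc.hasFDerivAt_ψ (0 + g q)
        have h6 : HasFDerivAt (fun w : Rn n => w + g q) (ContinuousLinearMap.id ℝ (Rn n)) 0 :=
          (hasFDerivAt_id 0).add_const _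
        have h7 := h5.comp 0 h6
        rw [zero_add] at h7
        exact h7
      exact congrArg _ h4.fderiv
    have hinv : ∀ w, (C q).inverse (C q w) = w := by
      intro w
      rw [← he, ContinuousLinearMap.inverse_equiv]
      exact e.symm_apply_apply w
    have hinv' : ∀ w, C q ((C q).inverse w) = w := by
      intro w
      rw [← he, ContinuousLinearMap.inverse_equiv]
      exact e.apply_symm_apply w
    have hCsym : ∀ w w', ⟪C q w, w'⟫ = ⟪w, C q w'⟫ := by
      intro w w'
      have e1 : ⟪C q w, w'⟫ = ⟪A q w, A q w'⟫ := inner_transp _ _ _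
      have e2 : ⟪C q w', w⟫ = ⟪A q w', A q w⟫ := inner_transp _ _ _
      rw [e1, real_inner_comm, ← e2, real_inner_comm]
    rw [h1]
    refine ⟨fun v => ?_, fun v hv => ?_, fun v w => ?_⟩
    · rw [htan]
      exact ⟨(C q).inverse (B q v), rfl⟩
    · rw [htan] at hv
      obtain ⟨w, rfl⟩ := hv
      show A q ((C q).inverse (C q w)) = A q w
      rw [hinv]
    · show ⟪A q ((C q).inverse (B q v)), w⟫ = ⟪v, A q ((C q).inverse (B q w))⟫
      have e1 : ⟪A q ((C q).inverse (B q v)), w⟫ = ⟪(C q).inverse (B q v), B q w⟫ := by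
        rw [real_inner_comm, real_inner_comm (B q w)]
        exact (inner_transp _ _ _).symm
      have e2 : ⟪v, A q ((C q).inverse (B q w))⟫ = ⟪B q v, (C q).inverse (B q w)⟫ :=
        (inner_transp _ _ _).symm
      rw [e1, e2]
      conv_lhs => rw [← hinv' (B q w)]
      conv_rhs => rw [← hinv' (B q v)]
      rw [hCsym]
  classical
  choose P hPs hP using hloc
  obtain ⟨P', hP', hPP⟩ := exists_ext (F := E) (G := E →L[ℝ] E) hQc
    (f := fun q => if hq : q ∈ Q then P q hq q else 0) (fun x hx => by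
      refine ⟨P x hx, hPs x hx, ?_⟩
      filter_upwards [hP x hx] with q h1 hq
      obtain ⟨a1, a2, a3⟩ := h1 hq
      obtain ⟨b1, b2, b3⟩ := (hP q hq).self_of_nhds hq
      rw [dif_pos hq]
      -- both are the orthogonal projection
      refine ContinuousLinearMap.ext fun v => ?_
      have h2 : ∀ w, ⟪P x hx q v, w⟫ = ⟪P q hq q v, w⟫ := by
        intro w
        have e1 : P x hx q v = P q hq q (P x hx q v) := (b2 _ (a1 v)).symm
        rw [e1, b3, a3, a2 _ (b1 w), ← b3]
      exact ext_inner_right ℝ h2)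
  refine ⟨P', hP', fun q hq v => ?_, fun q hq v hv => ?_, fun q hq v w => ?_⟩
  · rw [hPP q hq, dif_pos hq]
    exact ((hP q hq).self_of_nhds hq).1 v
  · rw [hPP q hq, dif_pos hq]
    exact ((hP q hq).self_of_nhds hq).2.1 v hv
  · rw [hPP q hq, dif_pos hq]
    exact ((hP q hq).self_of_nhds hq).2.2 v w

end Vale.Agent.P220.R2.H481
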