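import Mathlib

/-!
# The winding numbers of a regular simple closed curve take two values
-/

open Filter Topology Set MeasureTheory intervalIntegral
open scoped ComplexConjugate Real

namespace Vale.Agent.P220.R2.H481

/-- `x` is a regular simple closed curve of class `C¹`, of period `P` -/
structure SCC (x x' : ℝ → ℂ) (P : ℝ) : Prop where
  hP : 0 < P
  hx : ∀ t, HasDerivAt x (x' t) t
  hx' : Continuous x'
  per : ∀ t, x (t + P) = x t
  ne : ∀ t, x' t ≠ 0
  inj : ∀ s t, x s = x t → ∃ k : ℤ, t - s = k * P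

/-- the winding number, times `2πi` -/
noncomputable def wind (x x' : ℝ → ℂ) (P : ℝ) (q : ℂ) : ℂ := ∫ t in (0 : ℝ)..P, x' t / (x t - q)

variable {x x' : ℝ → ℂ} {P : ℝ}

theorem winding_zero_of_ball {q c : ℂ} {ρ : ℝ} (hx : ∀ t, HasDerivAt x (x' t) t)
    (hx' : Continuous x') (hper : x P = x 0) (hc : ∀ t, ‖x t - c‖ < ρ) (hq : ρ ≤ ‖q - c‖) :
    wind x x' P q = 0 := by
  have hxc : Continuous x := continuous_iff_continuousAt.2 fun t => (hx t).continuousAt
  have hne : ∀ t, x t ≠ q := fun t h => by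
    have := hc t
    rw [h] at this
    linarith
  have hcq : c - q ≠ 0 := by
    intro h
    have h1 : q - c = 0 := by rw [← neg_sub, h, neg_zero]
    rw [h1, norm_zero] at hq
    have := hc 0
    have := norm_nonneg (x 0 - c)
    linarith
  have hre : ∀ t, 0 < ((x t - q) / (c - q)).re := by
    intro t
    have h1 : (x t - q) / (c - q) = 1 + (x t - c) / (c - q) := by
      field_simp
      ring
    have h2 : ‖(x t - c) / (c - q)‖ < 1 := by
      rw [norm_div, div_lt_one (norm_pos_iff.2 hcq), norm_sub_rev c q]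
      exact (hc t).trans_le hq
    rw [h1, Complex.add_re, Complex.one_re]
    have := neg_abs_le ((x t - c) / (c - q)).re
    have := Complex.abs_re_le_norm ((x t - c) / (c - q))
    linarith
  have hslit : ∀ t, (x t - q) / (c - q) ∈ Complex.slitPlane := fun t => Or.inl (hre t)
  have hd : ∀ t ∈ uIcc 0 P, HasDerivAt (fun t => Complex.log ((x t - q) / (c - q)))
      (x' t / (x t - q)) t := by
    intro t _
    have h1 := (((hx t).sub_const q).div_const (c - q)).clog_real (hslit t)
    refine h1.congr_deriv ?_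
    have := sub_ne_zero.2 (hne t)
    field_simp
  have hlc : Continuous fun t => x' t / (x t - q) :=
    hx'.div (hxc.sub continuous_const) fun t => sub_ne_zero.2 (hne t)
  rw [wind, integral_eq_sub_of_hasDerivAt hd (hlc.intervalIntegrable _ _), hper, sub_self]

theorem winding_eq_of_ball {q c : ℂ} {ρ : ℝ} (hx : ∀ t, HasDerivAt x (x' t) t)
    (hx' : Continuous x') (hper : x P = x 0) (hc : ∀ t, ρ < ‖x t - c‖) (hq : ‖q - c‖ ≤ ρ) :
    wind x x' P q = wind x x' P c := by
  have hxc : Continuous x := continuous_iff_continuousAt.2 fun t => (hx t).continuousAt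
  have hρ : 0 ≤ ρ := (norm_nonneg _).trans hq
  have hne : ∀ t, x t ≠ q := fun t h => by
    have := hc t
    rw [h] at this
    linarith
  have hnc : ∀ t, x t ≠ c := fun t h => by
    have := hc t
    rw [h, sub_self, norm_zero] at this
    linarith
  have hre : ∀ t, 0 < ((x t - q) / (x t - c)).re := by
    intro t
    have hxc := sub_ne_zero.2 (hnc t)
    have h1 : (x t - q) / (x t - c) = 1 + (c - q) / (x t - c) := by
      field_simp
      ring
    have h2 : ‖(c - q) / (x t - c)‖ < 1 := by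
      rw [norm_div, div_lt_one (norm_pos_iff.2 hxc), norm_sub_rev c q]
      exact lt_of_le_of_lt hq (hc t)
    rw [h1, Complex.add_re, Complex.one_re]
    have := neg_abs_le ((c - q) / (x t - c)).re
    have := Complex.abs_re_le_norm ((c - q) / (x t - c))
    linarith
  have hslit : ∀ t, (x t - q) / (x t - c) ∈ Complex.slitPlane := fun t => Or.inl (hre t)
  have hd : ∀ t ∈ uIcc 0 P, HasDerivAt (fun t => Complex.log ((x t - q) / (x t - c)))
      (x' t / (x t - q) - x' t / (x t - c)) t := by
    intro t _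
    have hc' := sub_ne_zero.2 (hnc t)
    have hq' := sub_ne_zero.2 (hne t)
    have h1 := (((hx t).sub_const q).fun_div ((hx t).sub_const c) hc').clog_real (hslit t)
    refine h1.congr_deriv ?_
    field_simp
  have hlq : Continuous fun t => x' t / (x t - q) :=
    hx'.div (hxc.sub continuous_const) fun t => sub_ne_zero.2 (hne t)
  have hlc : Continuous fun t => x' t / (x t - c) :=
    hx'.div (hxc.sub continuous_const) fun t => sub_ne_zero.2 (hnc t)
  have i1 := hlq.intervalIntegrable (μ := volume) 0 P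
  have i2 := hlc.intervalIntegrable (μ := volume) 0 P
  have := integral_eq_sub_of_hasDerivAt hd (i1.sub i2)
  rw [hper, sub_self, integral_sub i1 i2, sub_eq_zero] at this
  exact this

namespace SCC

variable (h : SCC x x' P)

include h

theorem cont : Continuous x := continuous_iff_continuousAt.2 fun t => (h.hx t).continuousAt

theorem per0 : x P = x 0 := by
  have := h.per 0
  rwa [zero_add] at this

theorem per' (t : ℝ) : x' (t + P) = x' t := by
  have h1 : HasDerivAt (fun s => x (s + P)) (x' (t + P)) t := by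
    have h2 : HasDerivAt (fun s : ℝ => s + P) 1 t := (hasDerivAt_id t).add_const P
    have := (h.hx (t + P)).scomp t h2
    simpa [Function.comp_def] using this
  have h2 : (fun s => x (s + P)) = x := funext h.per
  rw [h2] at h1
  exact h1.unique (h.hx t)

theorem perZ (k : ℤ) (t : ℝ) : x (t + k * P) = x t := by
  have h1 : Function.Periodic x P := h.per
  have := h1.int_mul k t
  rwa [mul_comm] at this ⊢

theorem exists_rep (t : ℝ) : ∃ s ∈ Icc 0 P, x s = x t ∧ x' s = x' t := by
  have h1 : Function.Periodic (fun t => (x t, x' t)) P := fun t => by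
    simp only [h.per, h.per']
  obtain ⟨y, hy, hy2⟩ := h1.exists_mem_Ico₀ h.hP t
  have h2 := Prod.ext_iff.1 hy2
  exact ⟨y, ⟨hy.1, hy.2.le⟩, h2.1.symm, h2.2.symm⟩

theorem range_eq : range x = x '' Icc 0 P := by
  ext q
  constructor
  · rintro ⟨t, rfl⟩
    obtain ⟨s, hs, h1, -⟩ := h.exists_rep t
    exact ⟨s, hs, h1⟩
  · rintro ⟨t, -, rfl⟩
    exact ⟨t, rfl⟩

theorem compact_range : IsCompact (range x) := by
  rw [h.range_eq]
  exact isCompact_Icc.image h.cont

/-- the winding number is locally constant -/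
theorem wind_loc {q₀ : ℂ} (hq : q₀ ∉ range x) :
    ∀ᶠ q in 𝓝 q₀, q ∉ range x ∧ wind x x' P q = wind x x' P q₀ := by
  have hcl : IsClosed (range x) := h.compact_range.isClosed
  obtain ⟨d, hd, hball⟩ := Metric.isOpen_iff.1 hcl.isOpen_compl q₀ hq
  have hfar : ∀ t, d / 2 < ‖x t - q₀‖ := by
    intro t
    by_contra hcon
    refine hball ?_ ⟨t, rfl⟩
    rw [mem_ball_iff_norm]
    linarith
  filter_upwards [Metric.ball_mem_nhds q₀ (half_pos hd)] with q hq2
  rw [mem_ball_iff_norm] at hq2
  refine ⟨fun hqx => hball (mem_ball_iff_norm.2 (by linarith)) hqx, ?_⟩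
  exact winding_eq_of_ball h.hx h.hx' h.per0 hfar hq2.le

theorem wind_conn {S : Set ℂ} (hS : IsPreconnected S) (hd : ∀ q ∈ S, q ∉ range x) {q q' : ℂ}
    (hq : q ∈ S) (hq' : q' ∈ S) : wind x x' P q = wind x x' P q' := by
  refine hS.induction₂ (fun a b => wind x x' P a = wind x x' P b) (fun a ha => ?_)
    (fun a b c _ _ _ hab hbc => hab.trans hbc) (fun a b _ _ hab => hab.symm) hq hq'
  have := h.wind_loc (hd a ha)
  exact (this.mono fun b hb => hb.2.symm).filter_mono nhdsWithin_le_nhds

/-- a lower bound for the speed -/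
theorem exists_speed : ∃ c > 0, ∀ t, c ≤ ‖x' t‖ := by
  obtain ⟨s, hs, hmin⟩ := isCompact_Icc.exists_isMinOn (s := Icc 0 P) ⟨0, le_rfl, h.hP.le⟩
    (f := fun t => ‖x' t‖) h.hx'.norm.continuousOn
  refine ⟨‖x' s‖, norm_pos_iff.2 (h.ne s), fun t => ?_⟩
  obtain ⟨r, hr, -, h2⟩ := h.exists_rep t
  rw [← h2]
  exact hmin hr

/-- short arcs are nearly straight -/
theorem exists_short : ∃ δ > 0, δ ≤ P / 4 ∧ ∀ t s, |s| ≤ δ →
    ‖x (t + s) - x t - s * x' t‖ ≤ 1 / 2 * |s| * ‖x' t‖ := by
  obtain ⟨c, hc, hc2⟩ := h.exists_speed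
  have huc : UniformContinuousOn x' (Icc (-P) (2 * P)) :=
    isCompact_Icc.uniformContinuousOn_of_continuous h.hx'.continuousOn
  obtain ⟨δ, hδ, hδ2⟩ := Metric.uniformContinuousOn_iff.1 huc (c / 2) (by positivity)
  have hPpos := h.hP
  refine ⟨min (δ / 2) (P / 4), lt_min (by positivity) (by positivity), min_le_right _ _, ?_⟩
  -- first for `t ∈ [0, P]`
  have key : ∀ t ∈ Icc 0 P, ∀ s, |s| ≤ min (δ / 2) (P / 4) →
      ‖x (t + s) - x t - s * x' t‖ ≤ 1 / 2 * |s| * ‖x' t‖ := by
    intro t ht s hs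
    have hs1 : |s| ≤ δ / 2 := hs.trans (min_le_left _ _)
    have hs2 : |s| ≤ P / 4 := hs.trans (min_le_right _ _)
    have hd : ∀ r ∈ uIcc 0 s, HasDerivWithinAt (fun r : ℝ => x (t + r) - r * x' t)
        (x' (t + r) - x' t) (uIcc 0 s) r := by
      intro r _
      have h2 : HasDerivAt (fun r : ℝ => t + r) 1 r := (hasDerivAt_id r).const_add t
      have h3 := (h.hx (t + r)).scomp r h2
      have h4 : HasDerivAt (fun r : ℝ => (r : ℂ) * x' t) (x' t) r := by
        have := (Complex.ofRealCLM.hasDerivAt (x := r)).mul_const (x' t)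
        simpa using this
      have h5 := h3.sub h4
      simp only [one_smul] at h5
      exact h5.hasDerivWithinAt
    have hb : ∀ r ∈ uIcc 0 s, ‖x' (t + r) - x' t‖ ≤ c / 2 := by
      intro r hr
      have hr1 : |r| ≤ |s| := by
        have := abs_sub_left_of_mem_uIcc hr
        simpa using this
      have hrs := abs_le.1 (hr1.trans hs2)
      have h1 := hδ2 (t + r) ⟨by linarith [ht.1], by linarith [ht.2]⟩ t
        ⟨by linarith [ht.1], by linarith [ht.2]⟩ (by
          rw [Real.dist_eq, add_sub_cancel_left]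
          exact (hr1.trans hs1).trans_lt (by linarith))
      rw [dist_eq_norm] at h1
      exact h1.le
    have h6 := (convex_uIcc (0 : ℝ) s).norm_image_sub_le_of_norm_hasDerivWithin_le hd hb
      left_mem_uIcc right_mem_uIcc
    have h7 : x (t + s) - s * x' t - (x (t + 0) - ((0 : ℝ) : ℂ) * x' t) =
        x (t + s) - x t - s * x' t := by
      rw [add_zero]
      push_cast
      ring
    rw [h7, sub_zero, Real.norm_eq_abs] at h6
    refine h6.trans ?_
    have h8 := hc2 t
    have h9 := abs_nonneg s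
    nlinarith
  intro t s hs
  have h1 : Function.Periodic (fun t => (x (t + s), (x t, x' t))) P := fun t => by
    simp only [h.per, h.per']
    rw [show t + P + s = t + s + P by ring, h.per]
  obtain ⟨y, hy, hy2⟩ := h1.exists_mem_Ico₀ h.hP t
  have h2 := Prod.ext_iff.1 hy2
  have h3 := Prod.ext_iff.1 h2.2
  have h4 := key y ⟨hy.1, hy.2.le⟩ s hs
  simp only at h2 h3
  rw [h2.1, h3.1, h3.2]
  exact h4

/-- points that are not close along the curve are far from each other -/
theorem exists_far {δ : ℝ} (hδ : 0 < δ) : ∃ m > 0, ∀ t s, δ ≤ |s| → |s| ≤ P / 2 →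
    m ≤ ‖x (t + s) - x t‖ := by
  have hPpos := h.hP
  set K : Set (ℝ × ℝ) := Icc 0 P ×ˢ {s | δ ≤ |s| ∧ |s| ≤ P / 2} with hK
  have hKc : IsCompact K := by
    refine isCompact_Icc.prod ?_
    refine (isCompact_Icc (a := -(P / 2)) (b := P / 2)).of_isClosed_subset ?_ ?_
    · exact (isClosed_le continuous_const continuous_abs).inter
        (isClosed_le continuous_abs continuous_const)
    · rintro s ⟨-, hs⟩
      exact abs_le.1 hs
  have hfc : Continuous fun p : ℝ × ℝ => ‖x (p.1 + p.2) - x p.1‖ :=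
    ((h.cont.comp (continuous_fst.add continuous_snd)).sub (h.cont.comp continuous_fst)).norm
  by_cases hKn : K.Nonempty
  · obtain ⟨p, hp, hmin⟩ := hKc.exists_isMinOn hKn hfc.continuousOn
    refine ⟨‖x (p.1 + p.2) - x p.1‖, ?_, ?_⟩
    · rw [gt_iff_lt, norm_pos_iff, sub_ne_zero]
      intro heq
      obtain ⟨k, hk⟩ := h.inj _ _ heq
      obtain ⟨-, hp2, hp3⟩ := hp
      have h1 : |p.2| = |(k : ℝ)| * P := by
        have : p.2 = -(k * P) := by linarith
        rw [this, abs_neg, abs_mul, abs_of_pos hPpos]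
      have hk0 : k ≠ 0 := by
        rintro rfl
        simp at h1
        rw [h1] at hp2
        simp at hp2
        linarith
      have hk1 : (1 : ℝ) ≤ |(k : ℝ)| := by exact_mod_cast Int.one_le_abs hk0
      rw [h1] at hp3
      nlinarith
    · intro t s hs1 hs2
      have h1 : Function.Periodic (fun t => (x (t + s), x t)) P := fun t => by
        simp only [h.per]
        rw [show t + P + s = t + s + P by ring, h.per]
      obtain ⟨y, hy, hy2⟩ := h1.exists_mem_Ico₀ h.hP t
      have h2 := Prod.ext_iff.1 hy2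
      simp only at h2
      rw [h2.1, h2.2]
      exact hmin (⟨⟨hy.1, hy.2.le⟩, hs1, hs2⟩ : (y, s) ∈ K)
  · refine ⟨1, one_pos, fun t s hs1 hs2 => ?_⟩
    exact absurd ⟨(0, s), ⟨le_rfl, hPpos.le⟩, hs1, hs2⟩ hKn

theorem near_rep (t s : ℝ) : ∃ r, |r| ≤ P / 2 ∧ x (t + r) = x s := by
  have hPpos := h.hP
  obtain ⟨k, hk⟩ : ∃ k : ℤ, |(s - t) - k * P| ≤ P / 2 := by
    refine ⟨round ((s - t) / P), ?_⟩
    have h1 := abs_sub_round ((s - t) / P)
    have h2 : (s - t) - round ((s - t) / P) * P = ((s - t) / P - round ((s - t) / P)) * P := by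
      field_simp
    rw [h2, abs_mul, abs_of_pos hPpos]
    nlinarith
  refine ⟨(s - t) - k * P, hk, ?_⟩
  have h1 := h.perZ (-k) s
  rw [← h1]
  congr 1
  push_cast
  ring

/-- the normal segments of a small length meet the curve only at their base points -/
theorem tube : ∃ ε₀ > 0, ∀ ε : ℝ, ε ≠ 0 → |ε| ≤ ε₀ → ∀ t,
    x t + ε * Complex.I * x' t ∉ range x := by
  obtain ⟨δ, hδ, -, hshort⟩ := h.exists_short
  obtain ⟨m, hm, hfar⟩ := h.exists_far hδ
  obtain ⟨M, hM⟩ := isCompact_Icc.exists_bound_of_continuousOn (s := Icc 0 P) h.hx'.continuousOn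
  have hM' : ∀ t, ‖x' t‖ ≤ |M| + 1 := by
    intro t
    obtain ⟨r, hr, -, h2⟩ := h.exists_rep t
    rw [← h2]
    linarith [hM r hr, le_abs_self M]
  have hM0 : 0 < |M| + 1 := by positivity
  refine ⟨m / (2 * (|M| + 1)), by positivity, fun ε hε0 hε t hmem => ?_⟩
  obtain ⟨s, hs⟩ := hmem
  obtain ⟨r, hr, hrs⟩ := h.near_rep t s
  have heq : x (t + r) - x t = ε * Complex.I * x' t := by rw [hrs, hs]; ring
  have hn : ‖x (t + r) - x t‖ = |ε| * ‖x' t‖ := by
    rw [heq, norm_mul, norm_mul, Complex.norm_I, mul_one, Complex.norm_real, Real.norm_eq_abs]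
  by_cases hrδ : |r| ≤ δ
  · -- short arcs
    have h1 := hshort t r hrδ
    rw [heq] at h1
    have h2 : ε * Complex.I * x' t - r * x' t = (ε * Complex.I - r) * x' t := by ring
    rw [h2, norm_mul] at h1
    have h3 : 0 < ‖x' t‖ := norm_pos_iff.2 (h.ne t)
    have h4 : ‖(ε : ℂ) * Complex.I - r‖ ≤ 1 / 2 * |r| := le_of_mul_le_mul_right h1 h3
    have h5 := Complex.abs_re_le_norm ((ε : ℂ) * Complex.I - r)
    have h6 := Complex.abs_im_le_norm ((ε : ℂ) * Complex.I - r)
    simp at h5 h6
    have h7 : 0 < |ε| := abs_pos.2 hε0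
    have h8 := abs_nonneg r
    linarith
  · have h1 := hfar t r (not_le.1 hrδ).le hr
    rw [hn] at h1
    have h2 := hM' t
    have h3 : |ε| * ‖x' t‖ ≤ m / (2 * (|M| + 1)) * (|M| + 1) :=
      mul_le_mul hε h2 (norm_nonneg _) (by positivity)
    have h4 : m / (2 * (|M| + 1)) * (|M| + 1) = m / 2 := by field_simp
    linarith

end SCC

end Vale.Agent.P220.R2.H481
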