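import Vale.Agent.P220.R2.H481.Side

/-!
# The winding numbers of a regular simple closed curve take two values, part 2
-/

open Filter Topology Set MeasureTheory intervalIntegral
open scoped ComplexConjugate Real

namespace Vale.Agent.P220.R2.H481

variable {x x' : ℝ → ℂ} {P : ℝ}

/-- the point at the distance `μ|x'|` on the normal -/
noncomputable def nrm (x x' : ℝ → ℂ) (μ t : ℝ) : ℂ := x t + μ * Complex.I * x' t

namespace SCC

variable (h : SCC x x' P)

include h

theorem continuous_nrm : Continuous fun p : ℝ × ℝ => nrm x x' p.1 p.2 := by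
  unfold nrm
  have h1 := h.cont
  have h2 := h.hx'
  fun_prop

theorem sides {ε₀ : ℝ} (ht : ∀ ε : ℝ, ε ≠ 0 → |ε| ≤ ε₀ → ∀ t, nrm x x' ε t ∉ range x)
    {σ : ℝ} (hσ : σ = 1 ∨ σ = -1) {ε ε' : ℝ} (hε : ε ∈ Ioc 0 ε₀) (hε' : ε' ∈ Ioc 0 ε₀)
    (t t' : ℝ) : wind x x' P (nrm x x' (σ * ε) t) = wind x x' P (nrm x x' (σ * ε') t') := by
  have hpre : IsPreconnected ((fun p : ℝ × ℝ => nrm x x' (σ * p.1) p.2) ''
      (Ioc 0 ε₀ ×ˢ (univ : Set ℝ))) := by
    refine IsPreconnected.image ?_ _ ?_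
    · exact ((convex_Ioc (0 : ℝ) ε₀).prod convex_univ).isPreconnected
    · have h1 := h.continuous_nrm
      exact (h1.comp (by fun_prop : Continuous fun p : ℝ × ℝ => (σ * p.1, p.2))).continuousOn
  refine h.wind_conn hpre ?_ ⟨(ε, t), ⟨hε, mem_univ _⟩, rfl⟩ ⟨(ε', t'), ⟨hε', mem_univ _⟩, rfl⟩
  rintro _ ⟨⟨μ, s⟩, ⟨hμ, -⟩, rfl⟩
  have hσ1 : |σ| = 1 := by rcases hσ with h | h <;> simp [h]
  refine ht _ ?_ ?_ s
  · intro h0
    have : |σ * μ| = μ := by rw [abs_mul, hσ1, one_mul, abs_of_pos hμ.1]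
    simp only at h0
    rw [h0, abs_zero] at this
    linarith [hμ.1]
  · simp only [abs_mul, hσ1, one_mul, abs_of_pos hμ.1]
    exact hμ.2

/-- every point off the curve is on one of the two sides -/
theorem nearest {ε₀ : ℝ} (hε₀ : 0 < ε₀) {q : ℂ} (hq : q ∉ range x) :
    ∃ (t σ ε : ℝ), (σ = 1 ∨ σ = -1) ∧ ε ∈ Ioc 0 ε₀ ∧
      wind x x' P q = wind x x' P (nrm x x' (σ * ε) t) := by
  obtain ⟨_, ⟨t, rfl⟩, hmin⟩ := h.compact_range.exists_isMinOn ⟨x 0, 0, rfl⟩
    (f := fun y => ‖y - q‖) (by fun_prop)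
  have hmin' : ∀ s, ‖x t - q‖ ≤ ‖x s - q‖ := fun s => hmin ⟨s, rfl⟩
  -- orthogonality
  have h1 : HasDerivAt (fun s => ‖x s - q‖ ^ 2) (2 * inner ℝ (x t - q) (x' t)) t :=
    ((h.hx t).sub_const q).norm_sq
  have h2 : IsLocalMin (fun s => ‖x s - q‖ ^ 2) t := by
    refine Eventually.of_forall fun s => ?_
    have := hmin' s
    show ‖x t - q‖ ^ 2 ≤ ‖x s - q‖ ^ 2
    gcongr
  have h3 := h2.hasDerivAt_eq_zero h1
  have h4 : (inner ℝ (x t - q) (x' t) : ℝ) = 0 := by linarith
  have hv : x' t ≠ 0 := h.ne t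
  -- the coordinate on the normal
  set l : ℝ := ((q - x t) / (Complex.I * x' t)).re with hl
  have h5 : ((q - x t) / (Complex.I * x' t)).im = 0 := by
    have e1 : (q - x t) / (Complex.I * x' t) = Complex.I * ((x t - q) / x' t) := by
      field_simp
      rw [Complex.I_sq]
      ring
    have e2 : ((x t - q) / x' t).re = 0 := by
      have e3 : (inner ℝ (x t - q) (x' t) : ℝ) = ((x t - q) * conj (x' t)).re := by
        rw [real_inner_comm, Complex.inner]
      rw [e3] at h4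
      have e4 : (x t - q) / x' t = ((x t - q) * conj (x' t)) / ((Complex.normSq (x' t) : ℝ) : ℂ) := by
        rw [← Complex.mul_conj]
        have : conj (x' t) ≠ 0 := (map_ne_zero _).2 hv
        field_simp
      rw [e4, Complex.div_ofReal_re, h4, zero_div]
    rw [e1]
    simp [e2]
  have h6 : q = x t + l * Complex.I * x' t := by
    have e1 : (q - x t) / (Complex.I * x' t) = l := by
      apply Complex.ext
      · simp [hl]
      · rw [h5]; simp
    have e2 : q - x t = l * (Complex.I * x' t) := by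
      rw [← e1]
      field_simp
    linear_combination e2
  have hl0 : l ≠ 0 := by
    intro h0
    rw [h0] at h6
    refine hq ⟨t, ?_⟩
    rw [h6]
    simp
  obtain ⟨σ, hσ, hσl⟩ : ∃ σ : ℝ, (σ = 1 ∨ σ = -1) ∧ l = σ * |l| := by
    rcases lt_or_gt_of_ne hl0 with hlt | hgt
    · exact ⟨-1, Or.inr rfl, by rw [abs_of_neg hlt]; ring⟩
    · exact ⟨1, Or.inl rfl, by rw [abs_of_pos hgt]; ring⟩
  have hlpos : 0 < |l| := abs_pos.2 hl0
  set ε : ℝ := min |l| ε₀ with hε
  have hεpos : 0 < ε := lt_min hlpos hε₀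
  refine ⟨t, σ, ε, hσ, ⟨hεpos, min_le_right _ _⟩, ?_⟩
  have hpre : IsPreconnected ((fun μ : ℝ => nrm x x' (σ * μ) t) '' Icc ε |l|) := by
    refine IsPreconnected.image isPreconnected_Icc _ ?_
    have h1 := h.continuous_nrm
    exact (h1.comp (by fun_prop : Continuous fun μ : ℝ => (σ * μ, t))).continuousOn
  have hq' : q = nrm x x' (σ * |l|) t := by
    rw [nrm, ← hσl]
    exact h6
  have hσ1 : |σ| = 1 := by rcases hσ with h | h <;> simp [h]
  rw [hq']
  refine h.wind_conn hpre ?_ ⟨|l|, ⟨min_le_left _ _, le_rfl⟩, rfl⟩ ⟨ε, ⟨le_rfl, min_le_left _ _⟩, rfl⟩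
  rintro _ ⟨μ, ⟨hμ1, hμ2⟩, rfl⟩ ⟨s, hs⟩
  have e1 := hmin' s
  rw [hs, hq'] at e1
  have e2 : x t - nrm x x' (σ * |l|) t = -((σ * |l| : ℝ) * Complex.I * x' t) := by
    rw [nrm]
    push_cast
    ring
  have e3 : nrm x x' (σ * μ) t - nrm x x' (σ * |l|) t =
      (σ * (μ - |l|) : ℝ) * Complex.I * x' t := by
    rw [nrm, nrm]
    push_cast
    ring
  simp only at e1
  rw [e2, e3, norm_neg, norm_mul, norm_mul, norm_mul, norm_mul, Complex.norm_I, mul_one, mul_one,
    Complex.norm_real, Complex.norm_real, Real.norm_eq_abs, Real.norm_eq_abs, abs_mul, abs_mul,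
    hσ1, one_mul, one_mul, abs_abs] at e1
  have e4 : |l| ≤ |μ - (|l|)| := le_of_mul_le_mul_right e1 (norm_pos_iff.2 hv)
  rw [abs_of_nonpos (show μ - (|l|) ≤ 0 by linarith)] at e4
  linarith

/-- the integral along a short arc -/
theorem arc_integral {δ : ℝ} (hδ : 0 < δ) (hshort : ∀ t s, |s| ≤ δ →
    ‖x (t + s) - x t - s * x' t‖ ≤ 1 / 2 * |s| * ‖x' t‖) {σ : ℝ} (hσ : σ = 1 ∨ σ = -1) {ε : ℝ}
    (hε : 0 < ε) : ∫ t in (-δ)..δ, x' t / (x t - nrm x x' (σ * ε) 0) =
      Complex.log (σ * Complex.I * ((x δ - x 0) / x' 0) + ε) -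
        Complex.log (σ * Complex.I * ((x (-δ) - x 0) / x' 0) + ε) := by
  have hv : x' 0 ≠ 0 := h.ne 0
  have hσ2 : (σ : ℂ) * σ = 1 := by
    rcases hσ with h | h <;> simp [h]
  have hσ0 : (σ : ℂ) ≠ 0 := by
    rintro h0
    rw [h0] at hσ2
    simp at hσ2
  -- the arc in the normalized coordinate
  have hre : ∀ t, |t| ≤ δ → |((x t - x 0) / x' 0).re - t| ≤ 1 / 2 * |t| := by
    intro t ht
    have h1 := hshort 0 t ht
    rw [zero_add] at h1
    have h2 : (x t - x 0) / x' 0 - t = (x t - x 0 - t * x' 0) / x' 0 := by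
      field_simp
    have h3 : ‖(x t - x 0) / x' 0 - t‖ ≤ 1 / 2 * |t| := by
      rw [h2, norm_div, div_le_iff₀ (norm_pos_iff.2 hv)]
      exact h1
    have h4 := Complex.abs_re_le_norm ((x t - x 0) / x' 0 - t)
    rw [Complex.sub_re, Complex.ofReal_re] at h4
    exact h4.trans h3
  have hslit : ∀ t, |t| ≤ δ → σ * Complex.I * ((x t - x 0) / x' 0) + ε ∈ Complex.slitPlane := by
    intro t ht
    by_cases ht0 : t = 0
    · rw [ht0, sub_self, zero_div, mul_zero, zero_add]
      exact Or.inl (by simpa using hε)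
    · right
      have h1 := hre t ht
      have h2 : ((x t - x 0) / x' 0).re ≠ 0 := by
        intro h0
        rw [h0, zero_sub, abs_neg] at h1
        have := abs_pos.2 ht0
        linarith
      have h3 : ((σ : ℂ) * Complex.I * ((x t - x 0) / x' 0) + ε).im =
          σ * ((x t - x 0) / x' 0).re := by
        simp
      rw [h3]
      refine mul_ne_zero ?_ h2
      rcases hσ with h | h <;> simp [h]
  have hrel : ∀ t, x t - nrm x x' (σ * ε) 0 =
      (σ * Complex.I * ((x t - x 0) / x' 0) + ε) * (-(σ * Complex.I) * x' 0) := by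
    intro t
    rw [nrm]
    push_cast
    have e1 : (x t - x 0) / x' 0 * x' 0 = x t - x 0 := by field_simp
    linear_combination (σ * σ * Complex.I * Complex.I) * e1 +
      (x t - x 0) * Complex.I * Complex.I * hσ2 + (x t - x 0) * Complex.I_mul_I
  have hne : ∀ t ∈ uIcc (-δ) δ, x t - nrm x x' (σ * ε) 0 ≠ 0 := by
    intro t ht
    rw [uIcc_of_le (by linarith)] at ht
    rw [hrel]
    refine mul_ne_zero (Complex.slitPlane_ne_zero (hslit t (abs_le.2 ht))) ?_
    exact mul_ne_zero (neg_ne_zero.2 (mul_ne_zero hσ0 Complex.I_ne_zero)) hv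
  have hd : ∀ t ∈ uIcc (-δ) δ, HasDerivAt
      (fun t => Complex.log (σ * Complex.I * ((x t - x 0) / x' 0) + ε))
      (x' t / (x t - nrm x x' (σ * ε) 0)) t := by
    intro t ht
    have ht' := ht
    rw [uIcc_of_le (by linarith)] at ht'
    have h1 := (((((h.hx t).sub_const (x 0)).div_const (x' 0)).const_mul
      ((σ : ℂ) * Complex.I)).add_const (ε : ℂ)).clog_real (hslit t (abs_le.2 ht'))
    refine h1.congr_deriv ?_
    have h2 := hne t ht
    rw [hrel] at h2 ⊢
    have h3 := Complex.slitPlane_ne_zero (hslit t (abs_le.2 ht'))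
    rw [div_eq_div_iff h3 h2]
    have e1 : x' t / x' 0 * x' 0 = x' t := by field_simp
    linear_combination (-(σ * σ * Complex.I * Complex.I) *
      (σ * Complex.I * ((x t - x 0) / x' 0) + ε)) * e1 -
      x' t * (σ * Complex.I * ((x t - x 0) / x' 0) + ε) * Complex.I * Complex.I * hσ2 -
      x' t * (σ * Complex.I * ((x t - x 0) / x' 0) + ε) * Complex.I_mul_I
  have hint : ContinuousOn (fun t => x' t / (x t - nrm x x' (σ * ε) 0)) (uIcc (-δ) δ) :=
    h.hx'.continuousOn.div (h.cont.continuousOn.sub continuousOn_const) hne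
  rw [integral_eq_sub_of_hasDerivAt hd hint.intervalIntegrable]

omit h in
theorem log_sub_of_pos {z : ℂ} (hz : 0 < z.im) : Complex.log z - Complex.log (-z) = π * Complex.I := by
  apply Complex.ext
  · simp [Complex.log_re]
  · simp [Complex.log_im, Complex.arg_neg_eq_arg_sub_pi_of_im_pos hz]

omit h in
theorem log_sub_of_neg {z : ℂ} (hz : z.im < 0) :
    Complex.log z - Complex.log (-z) = -(π * Complex.I) := by
  apply Complex.ext
  · simp [Complex.log_re]
  · simp [Complex.log_im, Complex.arg_neg_eq_arg_add_pi_of_im_neg hz]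

/-- the winding numbers on the two sides are different -/
theorem jump {ε₀ : ℝ} (hε₀ : 0 < ε₀)
    (ht : ∀ ε : ℝ, ε ≠ 0 → |ε| ≤ ε₀ → ∀ t, nrm x x' ε t ∉ range x) :
    wind x x' P (nrm x x' (1 * ε₀) 0) - wind x x' P (nrm x x' (-1 * ε₀) 0) =
      2 * π * Complex.I := by
  obtain ⟨δ, hδ, hδP, hshort⟩ := h.exists_short
  obtain ⟨m, hm, hfar⟩ := h.exists_far hδ
  obtain ⟨M, hM⟩ := isCompact_Icc.exists_bound_of_continuousOn (s := Icc 0 P) h.hx'.continuousOn
  have hPpos := h.hP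
  have hM' : ∀ t, ‖x' t‖ ≤ |M| + 1 := by
    intro t
    obtain ⟨r, hr, -, h2⟩ := h.exists_rep t
    rw [← h2]
    linarith [hM r hr, le_abs_self M]
  have hM0 : 0 < |M| + 1 := by positivity
  set K : ℝ := |M| + 1 with hK
  have hv : x' 0 ≠ 0 := h.ne 0
  have hvn : 0 < ‖x' 0‖ := norm_pos_iff.2 hv
  set A : ℂ := (x δ - x 0) / x' 0 with hA
  set B : ℂ := (x (-δ) - x 0) / x' 0 with hB
  have hre : ∀ t, |t| ≤ δ → |((x t - x 0) / x' 0).re - t| ≤ 1 / 2 * |t| := by
    intro t ht
    have h1 := hshort 0 t ht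
    rw [zero_add] at h1
    have h2 : (x t - x 0) / x' 0 - t = (x t - x 0 - t * x' 0) / x' 0 := by
      field_simp
    have h3 : ‖(x t - x 0) / x' 0 - t‖ ≤ 1 / 2 * |t| := by
      rw [h2, norm_div, div_le_iff₀ (norm_pos_iff.2 hv)]
      exact h1
    have h4 := Complex.abs_re_le_norm ((x t - x 0) / x' 0 - t)
    rw [Complex.sub_re, Complex.ofReal_re] at h4
    exact h4.trans h3
  have hAre : 0 < A.re := by
    have := hre δ (by rw [abs_of_pos hδ])
    rw [abs_of_pos hδ] at this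
    have := (abs_le.1 this).1
    simp only [hA]
    linarith
  have hBre : B.re < 0 := by
    have := hre (-δ) (by rw [abs_neg, abs_of_pos hδ])
    rw [abs_neg, abs_of_pos hδ] at this
    have := (abs_le.1 this).2
    simp only [hB]
    linarith
  -- the distance from the base point on the long arc
  have hlong : ∀ t ∈ Icc δ (P - δ), m ≤ ‖x t - x 0‖ := by
    intro t ht
    rcases le_total t (P / 2) with h1 | h1
    · have := hfar 0 t (by rw [abs_of_pos (hδ.trans_le ht.1)]; exact ht.1)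
        (by rw [abs_of_pos (hδ.trans_le ht.1)]; exact h1)
      rwa [zero_add] at this
    · have h2 : |t - P| = P - t := by
        rw [abs_of_nonpos (by linarith [ht.2]), neg_sub]
      have := hfar 0 (t - P) (by rw [h2]; linarith [ht.2]) (by rw [h2]; linarith)
      rw [zero_add] at this
      have h3 := h.per (t - P)
      rw [sub_add_cancel] at h3
      rwa [← h3] at this
  -- the decomposition of the winding number
  have hdec : ∀ σ : ℝ, (σ = 1 ∨ σ = -1) → ∀ ε ∈ Ioc 0 ε₀,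
      wind x x' P (nrm x x' (σ * ε₀) 0) =
      (Complex.log (σ * Complex.I * A + ε) - Complex.log (σ * Complex.I * B + ε)) +
        ∫ t in δ..(P - δ), x' t / (x t - nrm x x' (σ * ε) 0) := by
    intro σ hσ ε hε
    rw [h.sides ht hσ ⟨hε₀, le_rfl⟩ hε 0 0, ← h.arc_integral hδ hshort hσ hε.1]
    have hσ1 : |σ| = 1 := by rcases hσ with h | h <;> simp [h]
    have hnr : nrm x x' (σ * ε) 0 ∉ range x := by
      refine ht _ ?_ ?_ 0
      · intro h0
        have : |σ * ε| = ε := by rw [abs_mul, hσ1, one_mul, abs_of_pos hε.1]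
        rw [h0, abs_zero] at this
        linarith [hε.1]
      · rw [abs_mul, hσ1, one_mul, abs_of_pos hε.1]
        exact hε.2
    have hcont : Continuous fun t => x' t / (x t - nrm x x' (σ * ε) 0) :=
      h.hx'.div (h.cont.sub continuous_const) fun t h0 => hnr ⟨t, sub_eq_zero.1 h0⟩
    rw [integral_add_adjacent_intervals (hcont.intervalIntegrable _ _)
      (hcont.intervalIntegrable _ _), wind]
    have hp : Function.Periodic (fun t => x' t / (x t - nrm x x' (σ * ε) 0)) P := fun t => by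
      simp only [h.per, h.per']
    have h1 := hp.intervalIntegral_add_eq 0 (-δ)
    rw [zero_add] at h1
    rw [h1, show -δ + P = P - δ by ring]
  -- the integrals along the long arc
  have hout : Tendsto (fun ε : ℝ => (∫ t in δ..(P - δ), x' t / (x t - nrm x x' (1 * ε) 0)) -
      ∫ t in δ..(P - δ), x' t / (x t - nrm x x' (-1 * ε) 0)) (𝓝[>] 0) (𝓝 0) := by
    have hbound : ∀ᶠ ε : ℝ in 𝓝[>] 0, ‖(∫ t in δ..(P - δ), x' t / (x t - nrm x x' (1 * ε) 0)) -
        ∫ t in δ..(P - δ), x' t / (x t - nrm x x' (-1 * ε) 0)‖ ≤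
        (K * (2 * ε * K) / (m / 2 * (m / 2))) * |P - δ - δ| := by
      have h0 : ∀ᶠ ε : ℝ in 𝓝[>] 0, ε < m / (2 * K) :=
        (eventually_lt_nhds (by positivity)).filter_mono nhdsWithin_le_nhds
      filter_upwards [h0, self_mem_nhdsWithin] with ε hε hε0
      have hε0' : (0 : ℝ) < ε := hε0
      have hεm : ε * K ≤ m / 2 := by
        rw [lt_div_iff₀ (by positivity)] at hε
        linarith
      have hd : ∀ σ : ℝ, (σ = 1 ∨ σ = -1) → ∀ t ∈ Icc δ (P - δ),
          m / 2 ≤ ‖x t - nrm x x' (σ * ε) 0‖ := by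
        intro σ hσ t ht
        have hσ1 : |σ| = 1 := by rcases hσ with h | h <;> simp [h]
        have e1 : x t - nrm x x' (σ * ε) 0 = (x t - x 0) - (σ * ε : ℝ) * Complex.I * x' 0 := by
          rw [nrm]; ring
        have e2 : ‖((σ * ε : ℝ) : ℂ) * Complex.I * x' 0‖ ≤ m / 2 := by
          rw [norm_mul, norm_mul, Complex.norm_I, mul_one, Complex.norm_real, Real.norm_eq_abs,
            abs_mul, hσ1, one_mul, abs_of_pos hε0']
          exact (mul_le_mul_of_nonneg_left (hM' 0) hε0'.le).trans hεm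
        have e3 := hlong t ht
        have e4 := norm_sub_norm_le (x t - x 0) (((σ * ε : ℝ) : ℂ) * Complex.I * x' 0)
        rw [e1]
        linarith
      have hle : δ ≤ P - δ := by linarith
      have hci : ∀ σ : ℝ, (σ = 1 ∨ σ = -1) → IntervalIntegrable
          (fun t => x' t / (x t - nrm x x' (σ * ε) 0)) volume δ (P - δ) := by
        intro σ hσ
        refine ContinuousOn.intervalIntegrable ?_
        rw [uIcc_of_le hle]
        refine h.hx'.continuousOn.div (h.cont.continuousOn.sub continuousOn_const)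
          fun t ht h0 => ?_
        have := hd σ hσ t ht
        rw [h0, norm_zero] at this
        linarith
      rw [← integral_sub (hci 1 (Or.inl rfl)) (hci (-1) (Or.inr rfl))]
      refine norm_integral_le_of_norm_le_const fun t ht => ?_
      rw [uIoc_of_le hle] at ht
      have ht' : t ∈ Icc δ (P - δ) := ⟨ht.1.le, ht.2⟩
      have h1 := hd 1 (Or.inl rfl) t ht'
      have h2 := hd (-1) (Or.inr rfl) t ht'
      have n1 : x t - nrm x x' (1 * ε) 0 ≠ 0 := norm_pos_iff.1 (by linarith)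
      have n2 : x t - nrm x x' (-1 * ε) 0 ≠ 0 := norm_pos_iff.1 (by linarith)
      have e1 : x' t / (x t - nrm x x' (1 * ε) 0) - x' t / (x t - nrm x x' (-1 * ε) 0) =
          x' t * (2 * ε * Complex.I * x' 0) /
            ((x t - nrm x x' (1 * ε) 0) * (x t - nrm x x' (-1 * ε) 0)) := by
        rw [div_sub_div _ _ n1 n2]
        congr 1
        rw [nrm, nrm]
        push_cast
        ring
      rw [e1, norm_div, norm_mul (x' t), norm_mul (x t - nrm x x' (1 * ε) 0)]
      have e2 : ‖2 * (ε : ℂ) * Complex.I * x' 0‖ ≤ 2 * ε * K := by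
        rw [norm_mul, norm_mul, norm_mul, Complex.norm_I, mul_one, Complex.norm_real,
          Real.norm_eq_abs, abs_of_pos hε0', Complex.norm_ofNat]
        exact mul_le_mul_of_nonneg_left (hM' 0) (by positivity)
      have e3 : ‖x' t‖ * ‖2 * (ε : ℂ) * Complex.I * x' 0‖ ≤ K * (2 * ε * K) :=
        mul_le_mul (hM' t) e2 (norm_nonneg _) hM0.le
      have e4 : m / 2 * (m / 2) ≤ ‖x t - nrm x x' (1 * ε) 0‖ * ‖x t - nrm x x' (-1 * ε) 0‖ :=
        mul_le_mul h1 h2 (by positivity) (norm_nonneg _)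
      exact div_le_div₀ (by positivity) e3 (by positivity) e4
    refine squeeze_zero_norm' hbound ?_
    have h1 : Tendsto (fun ε : ℝ => (K * (2 * ε * K) / (m / 2 * (m / 2))) * |P - δ - δ|) (𝓝 0)
        (𝓝 ((K * (2 * 0 * K) / (m / 2 * (m / 2))) * |P - δ - δ|)) :=
      (by fun_prop : Continuous fun ε : ℝ =>
        (K * (2 * ε * K) / (m / 2 * (m / 2))) * |P - δ - δ|).tendsto 0
    have h2 : (K * (2 * 0 * K) / (m / 2 * (m / 2))) * |P - δ - δ| = 0 := by simp
    rw [h2] at h1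
    exact h1.mono_left nhdsWithin_le_nhds
  -- the logarithms
  have hlog : ∀ z : ℂ, z.im ≠ 0 → Tendsto (fun ε : ℝ => Complex.log (z + ε)) (𝓝[>] 0)
      (𝓝 (Complex.log z)) := by
    intro z hz
    have h1 : ContinuousAt (fun ε : ℝ => Complex.log (z + ε)) 0 := by
      refine ContinuousAt.clog (by fun_prop) ?_
      right
      simpa using hz
    have h2 := h1.tendsto
    simp only [Complex.ofReal_zero, add_zero] at h2
    exact h2.mono_left nhdsWithin_le_nhds
  have hA1 : ((1 : ℝ) * Complex.I * A).im ≠ 0 := by simp [hAre.ne']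
  have hA2 : ((-1 : ℝ) * Complex.I * A).im ≠ 0 := by simp [hAre.ne']
  have hB1 : ((1 : ℝ) * Complex.I * B).im ≠ 0 := by simp [hBre.ne]
  have hB2 : ((-1 : ℝ) * Complex.I * B).im ≠ 0 := by simp [hBre.ne]
  have hlim := (((hlog _ hA1).sub (hlog _ hB1)).sub ((hlog _ hA2).sub (hlog _ hB2))).add hout
  have hconst : (fun ε : ℝ => (Complex.log ((1 : ℝ) * Complex.I * A + ε) -
      Complex.log ((1 : ℝ) * Complex.I * B + ε) - (Complex.log ((-1 : ℝ) * Complex.I * A + ε) -
      Complex.log ((-1 : ℝ) * Complex.I * B + ε))) +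
      ((∫ t in δ..(P - δ), x' t / (x t - nrm x x' (1 * ε) 0)) -
      ∫ t in δ..(P - δ), x' t / (x t - nrm x x' (-1 * ε) 0))) =ᶠ[𝓝[>] 0]
      fun _ => wind x x' P (nrm x x' (1 * ε₀) 0) - wind x x' P (nrm x x' (-1 * ε₀) 0) := by
    filter_upwards [Ioc_mem_nhdsGT hε₀] with ε hε
    rw [hdec 1 (Or.inl rfl) ε hε, hdec (-1) (Or.inr rfl) ε hε]
    ring
  have huniq := tendsto_nhds_unique (hlim.congr' hconst) tendsto_const_nhds
  rw [← huniq]
  have e1 : ((-1 : ℝ) : ℂ) * Complex.I * A = -(((1 : ℝ) : ℂ) * Complex.I * A) := by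
    push_cast; ring
  have e2 : ((-1 : ℝ) : ℂ) * Complex.I * B = -(((1 : ℝ) : ℂ) * Complex.I * B) := by
    push_cast; ring
  rw [e1, e2]
  have h1 := log_sub_of_pos (z := ((1 : ℝ) : ℂ) * Complex.I * A) (by simpa using hAre)
  have h2 := log_sub_of_neg (z := ((1 : ℝ) : ℂ) * Complex.I * B) (by simpa using hBre)
  linear_combination h1 - h2

/-- **The winding numbers off a simple closed curve take exactly two values, one of them zero.** -/
theorem two_values : ∃ c : ℂ, c ≠ 0 ∧ (∀ q ∉ range x, wind x x' P q = 0 ∨ wind x x' P q = c) ∧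
    ∃ q ∉ range x, wind x x' P q = c := by
  obtain ⟨ε₀, hε₀, ht⟩ := h.tube
  have ht' : ∀ ε : ℝ, ε ≠ 0 → |ε| ≤ ε₀ → ∀ t, nrm x x' ε t ∉ range x := ht
  have hj := h.jump hε₀ ht'
  set a := wind x x' P (nrm x x' (1 * ε₀) 0) with ha
  set b := wind x x' P (nrm x x' (-1 * ε₀) 0) with hb
  have hvals : ∀ q ∉ range x, wind x x' P q = a ∨ wind x x' P q = b := by
    intro q hq
    obtain ⟨t, σ, ε, hσ, hε, hw⟩ := h.nearest hε₀ hq
    rw [hw, h.sides ht' hσ hε ⟨hε₀, le_rfl⟩ t 0]
    rcases hσ with rfl | rfl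
    · exact Or.inl rfl
    · exact Or.inr rfl
  have hmem : ∀ σ : ℝ, (σ = 1 ∨ σ = -1) → nrm x x' (σ * ε₀) 0 ∉ range x := by
    intro σ hσ
    refine ht' _ ?_ ?_ 0
    · rcases hσ with rfl | rfl <;> simp [hε₀.ne']
    · rcases hσ with rfl | rfl <;> simp [abs_of_pos hε₀]
  -- a far point
  obtain ⟨R, hR⟩ := h.compact_range.isBounded.exists_norm_le
  have hR' : ∀ t, ‖x t - 0‖ < |R| + 1 := fun t => by
    rw [sub_zero]
    linarith [hR _ ⟨t, rfl⟩, le_abs_self R]
  have hfarn : ‖(((|R| + 1 : ℝ) : ℂ)) - 0‖ = |R| + 1 := by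
    rw [sub_zero, Complex.norm_real, Real.norm_eq_abs, abs_of_pos (by positivity)]
  have hfar0 : wind x x' P ((|R| + 1 : ℝ) : ℂ) = 0 :=
    winding_zero_of_ball h.hx h.hx' h.per0 hR' hfarn.ge
  have hfarmem : ((|R| + 1 : ℝ) : ℂ) ∉ range x := by
    rintro ⟨t, ht⟩
    have := hR' t
    rw [ht, hfarn] at this
    exact lt_irrefl _ this
  have hab : a ≠ b := by
    intro h0
    rw [h0, sub_self] at hj
    have := hj.symm
    simp [Real.pi_ne_zero] at this
  rcases hvals _ hfarmem with h0 | h0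
  · rw [hfar0] at h0
    refine ⟨b, fun hb0 => hab (by rw [← h0, hb0]), fun q hq => ?_, _, hmem (-1) (Or.inr rfl), rfl⟩
    rw [h0]
    exact hvals q hq
  · rw [hfar0] at h0
    refine ⟨a, fun ha0 => hab (by rw [← h0, ha0]), fun q hq => ?_, _, hmem 1 (Or.inl rfl), rfl⟩
    rw [h0]
    exact (hvals q hq).symm

end SCC

end Vale.Agent.P220.R2.H481
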