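import Vale.Agent.P220.R2.H57.Leaf

/-!
A one-momentum Lagrangian projects onto the base.
-/

open Set Filter Topology
open scoped ContDiff Manifold

set_option linter.unusedSectionVars false

namespace Vale.Agent.P220.R2.H481

open H57 (IsRet Tn Setup)

/-- two points of a retract near `w` whose difference is in the kernel of `dr_w` are equal -/
theorem isRet_inj {F : Type} [NormedAddCommGroup F] [NormedSpace ℝ F] [FiniteDimensional ℝ F]
    {S U : Set F} {r : F → F} (hr : IsRet S U r) (w : F) :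
    ∃ O ∈ 𝓝 w, ∀ a ∈ O, ∀ b ∈ O, a ∈ S → b ∈ S → fderiv ℝ r w (a - b) = 0 → a = b := by
  have h1 : HasStrictFDerivAt r (fderiv ℝ r w) w :=
    hr.smooth.contDiffAt.hasStrictFDerivAt (by simp)
  have h2 := h1.isLittleO.def (show (0 : ℝ) < 1 / 2 by norm_num)
  rw [nhds_prod_eq] at h2
  obtain ⟨O, hO, hO2⟩ := eventually_prod_self_iff'.1 h2
  refine ⟨O, hO, fun a ha b hb haS hbS hab => ?_⟩
  have h3 := hO2 a ha b hb
  simp only at h3
  rw [hr.fix a haS, hr.fix b hbS, hab, sub_zero] at h3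
  have h4 : ‖a - b‖ = 0 := by
    have := norm_nonneg (a - b)
    linarith
  exact sub_eq_zero.1 (norm_eq_zero.1 h4)

variable {E : Type} [NormedAddCommGroup E] [InnerProductSpace ℝ E] [FiniteDimensional ℝ E]

/-- at a transverse point the projection of `L` is onto a neighbourhood -/
theorem open_at {D : Setup E} {z : E × E} (hz : z ∈ D.L)
    (htr : ∀ v ∈ Tn D.ρ z, v.1 = 0 → v = 0) :
    ∃ O ∈ 𝓝 z.1, ∀ q ∈ O, q ∈ D.Q → ∃ y ∈ D.L, y.1 = q := by
  have : CompleteSpace E := FiniteDimensional.complete ℝ E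
  set w := z.1 with hw
  have hwQ : w ∈ D.Q := D.sub z hz
  -- every tangent vector of `Q` is the projection of a tangent vector of `L`
  have hsurj : ∀ a ∈ Tn D.r w, ∃ v ∈ Tn D.ρ z, v.1 = a := by
    let B : Tn D.ρ z →ₗ[ℝ] Tn D.r w :=
      { toFun := fun v => ⟨v.1.1, D.tan_fst hz v.2⟩
        map_add' := fun _ _ => rfl
        map_smul' := fun _ _ => rfl }
    have hB : Function.Injective B := by
      rw [injective_iff_map_eq_zero]
      intro v hv
      have h1 : v.1.1 = 0 := congrArg Subtype.val hv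
      exact Subtype.ext (htr v.1 v.2 h1)
    have hfr : Module.finrank ℝ (Tn D.ρ z) = Module.finrank ℝ (Tn D.r w) := by
      rw [D.dL z hz, D.dQ w hwQ]
    have hB2 := (LinearMap.injective_iff_surjective_of_finrank_eq_finrank hfr).1 hB
    intro a ha
    obtain ⟨v, hv⟩ := hB2 ⟨a, ha⟩
    exact ⟨v.1, v.2, congrArg Subtype.val hv⟩
  obtain ⟨O₁, hO₁, hinj⟩ := isRet_inj D.hQ w
  -- the auxiliary map
  set A := fderiv ℝ D.r w with hA
  set F : (E × E) × E → E := fun p => (D.ρ p.1).1 + (p.2 - A p.2) with hF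
  have hFs : ContDiff ℝ ∞ F :=
    (contDiff_fst.comp (D.hL.smooth.comp contDiff_fst)).add
      (contDiff_snd.sub (A.contDiff.comp contDiff_snd))
  have hF0 : F (z, 0) = w := by
    simp only [hF, map_zero, sub_zero, add_zero]
    rw [D.hL.fix z hz]
  have hFd : HasFDerivAt F (((ContinuousLinearMap.fst ℝ E E).comp ((fderiv ℝ D.ρ z).comp
      (ContinuousLinearMap.fst ℝ (E × E) E))) + (ContinuousLinearMap.snd ℝ (E × E) E -
        A.comp (ContinuousLinearMap.snd ℝ (E × E) E))) (z, 0) := by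
    have h1 : HasFDerivAt (fun p : (E × E) × E => D.ρ p.1) ((fderiv ℝ D.ρ z).comp
        (ContinuousLinearMap.fst ℝ (E × E) E)) (z, 0) := by
      have h0 : HasFDerivAt D.ρ (fderiv ℝ D.ρ z) ((z, (0 : E)) : (E × E) × E).1 :=
        D.hL.hasFDerivAt z
      exact h0.comp (z, (0 : E)) hasFDerivAt_fst
    have h2 : HasFDerivAt (fun p : (E × E) × E => A p.2) (A.comp
        (ContinuousLinearMap.snd ℝ (E × E) E)) (z, 0) := by
      have h0 : HasFDerivAt A A ((z, (0 : E)) : (E × E) × E).2 := A.hasFDerivAt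
      exact h0.comp (z, (0 : E)) hasFDerivAt_snd
    have h3 : HasFDerivAt (fun p : (E × E) × E => (D.ρ p.1).1) ((ContinuousLinearMap.fst ℝ E E).comp
        ((fderiv ℝ D.ρ z).comp (ContinuousLinearMap.fst ℝ (E × E) E))) (z, 0) := by
      exact hasFDerivAt_fst.comp (z, (0 : E)) h1
    exact h3.add (hasFDerivAt_snd.sub h2)
  have hrange : (fderiv ℝ F (z, 0)).range = ⊤ := by
    rw [hFd.fderiv, LinearMap.range_eq_top]
    intro a
    obtain ⟨v, hv, hva⟩ := hsurj (A a) (D.hQ.fderiv_mem hwQ a)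
    refine ⟨(v, a), ?_⟩
    show (fderiv ℝ D.ρ z v).1 + (a - A a) = a
    rw [show fderiv ℝ D.ρ z v = v from hv, hva]
    abel
  have hmap := (hFs.contDiffAt.hasStrictFDerivAt (x := (z, 0)) (by simp)).map_nhds_eq_of_surj hrange
  rw [hF0] at hmap
  -- points near `(z, 0)`
  have hV : {p : (E × E) × E | p.1 ∈ D.UL ∧ (D.ρ p.1).1 ∈ O₁} ∈ 𝓝 ((z, 0) : (E × E) × E) := by
    refine inter_mem ?_ ?_
    · exact continuous_fst.continuousAt.preimage_mem_nhds (D.hL.isOpen.mem_nhds (D.hL.sub hz))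
    · have hc : Continuous fun p : (E × E) × E => (D.ρ p.1).1 :=
        continuous_fst.comp (D.hL.smooth.continuous.comp continuous_fst)
      refine hc.continuousAt.preimage_mem_nhds ?_
      show O₁ ∈ 𝓝 (D.ρ z).1
      rw [D.hL.fix z hz]
      exact hO₁
  have hO₂ : F '' {p : (E × E) × E | p.1 ∈ D.UL ∧ (D.ρ p.1).1 ∈ O₁} ∈ 𝓝 w := by
    rw [← hmap]
    exact image_mem_map hV
  refine ⟨_, inter_mem hO₁ hO₂, ?_⟩
  rintro q ⟨hq1, ⟨⟨y, x⟩, ⟨hy1, hy2⟩, hyq⟩⟩ hqQ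
  refine ⟨D.ρ y, D.hL.maps y hy1, ?_⟩
  refine hinj _ hy2 _ hq1 (D.sub _ (D.hL.maps y hy1)) hqQ ?_
  have h1 : (D.ρ y).1 + (x - A x) = q := hyq
  have h2 : (D.ρ y).1 - q = -(x - A x) := by
    rw [← h1]
    abel
  rw [h2, map_neg, map_sub, hA, D.hQ.fderiv_fderiv hwQ, sub_self, neg_zero]

theorem surj {D : Setup E} (Λ : D.Leaf) : ∀ q ∈ D.Q, ∃ z ∈ D.L, z.1 = q := by
  set A : Set E := Prod.fst '' D.L with hA
  have hAcl : IsClosed A := (D.cL.image continuous_fst).isClosed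
  -- invariance
  have hinv : ∀ q ∈ A, ∀ t, D.φ t q ∈ A := by
    rintro _ ⟨z, hz, rfl⟩ t
    obtain ⟨σ₁, -, h1⟩ := (Λ.T_large hz t).1
    obtain ⟨σ₂, -, h2⟩ := (Λ.T_large hz t).2
    have hc : Continuous fun σ => Λ.T σ z := Λ.cont_T.comp (continuous_id.prodMk continuous_const)
    obtain ⟨σ, hσ⟩ := mem_range_of_exists_le_of_exists_ge hc ⟨σ₂, h2.le⟩ ⟨σ₁, h1.le⟩
    refine ⟨Λ.ζ σ z, Λ.ζ_mem hz σ, ?_⟩
    have h3 : Λ.T σ z = t := hσ
    rw [Λ.base hz, h3]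
  -- relative openness
  have hop : ∀ q ∈ A, ∃ O ∈ 𝓝 q, ∀ x ∈ O, x ∈ D.Q → x ∈ A := by
    intro q hq
    have hqQ : q ∈ D.Q := by
      obtain ⟨z, hz, rfl⟩ := hq
      exact D.sub z hz
    obtain ⟨t, ht⟩ := D.leaves q hqQ
    obtain ⟨z, hz, hzt⟩ := hinv q hq t
    obtain ⟨O, hO, hO2⟩ := open_at hz (D.transverse z hz (by rw [hzt]; exact ht))
    rw [hzt] at hO
    refine ⟨D.φ t ⁻¹' O, (D.hφ.smooth_map t).continuous.continuousAt.preimage_mem_nhds hO,
      fun x hx hxQ => ?_⟩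
    obtain ⟨y, hy, hyx⟩ := hO2 _ hx (D.φ_mem hxQ t)
    have h1 := hinv _ ⟨y, hy, hyx⟩ (-t)
    rwa [D.hφ.neg_left] at h1
  have hBcl : IsClosed (D.Q \ A) := by
    refine isClosed_of_closure_subset fun x hx => ?_
    have hxQ : x ∈ D.Q := closure_minimal sdiff_subset D.hQ.isClosed hx
    refine ⟨hxQ, fun hxA => ?_⟩
    obtain ⟨O, hO, hO2⟩ := hop x hxA
    obtain ⟨y, hyO, hyQ, hyA⟩ := mem_closure_iff_nhds.1 hx O hO
    exact hyA (hO2 y hyO hyQ)
  obtain ⟨z₀, hz₀⟩ := D.conn.nonempty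
  intro q hq
  by_contra hcon
  have hqB : q ∈ D.Q \ A := ⟨hq, fun ⟨z, hz, hzq⟩ => hcon ⟨z, hz, hzq⟩⟩
  obtain ⟨x, -, hx1, hx2⟩ := isPreconnected_closed_iff.1 D.connQ.isPreconnected A (D.Q \ A) hAcl
    hBcl (fun x hx => by
      by_cases h : x ∈ A
      · exact Or.inl h
      · exact Or.inr ⟨hx, h⟩) ⟨z₀.1, D.sub _ hz₀, z₀, hz₀, rfl⟩ ⟨q, hq, hqB⟩
  exact hx2.2 hx1

end Vale.Agent.P220.R2.H481
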